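import Vale.Agent.P315.Step

namespace Vale.Agent.P315

open Finset

namespace Par

variable {P : Par}

theorem Pa_le (P : Par) (f g : ℕ → ℕ) (ρ : ℕ → Bool) (h k a j ad p p' : ℕ) :
    P.Pa f g ρ h k a j ad p p' ≤ P.RV := by
  cases h with
  | zero => exact Nat.zero_le _
  | succ h =>
    rw [Pa_succ]
    unfold passF
    split_ifs <;> exact P.clo_le_RV _ _ _ _

theorem A_le (P : Par) (f g : ℕ → ℕ) (ρ : ℕ → Bool) (h k a j p p' : ℕ) :
    P.A f g ρ h k a j p p' ≤ P.RV := by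
  cases h with
  | zero => exact P.clo_le_RV _ _ _ _
  | succ h =>
    rw [A_succ]
    split_ifs
    · exact Nat.zero_le _
    · exact Nat.div_le_of_le_mul
        ((sum_le_card_nsmul _ _ P.RV fun _ _ => P.Pa_le _ _ _ _ _ _ _ _ _ _).trans (by simp))

theorem basic_Pa_lip (P : Par) (f g : ℕ → ℕ) (ρ : ℕ → Bool) (h k a j ad : ℕ) :
    Lip (P.Pa f g ρ (h + 1) k a j ad) := by
  rw [Pa_succ]
  unfold passF
  split_ifs <;> exact P.clo_lip _ _

theorem A_lip (P : Par) (f g : ℕ → ℕ) (ρ : ℕ → Bool) (h k a j : ℕ) : Lip (P.A f g ρ h k a j) := by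
  cases h with
  | zero => exact P.clo_lip _ _
  | succ h =>
    intro p p' q q'
    rw [A_succ, A_succ]
    split_ifs
    · exact Nat.zero_le _
    · rcases Nat.eq_zero_or_pos P.S with hS | hS
      · simp [hS]
      rw [← Nat.add_mul_div_left _ _ hS]
      refine Nat.div_le_div_right ((sum_le_sum fun s _ =>
        P.basic_Pa_lip f g ρ h k a j _ p p' q q').trans ?_)
      simp [sum_add_distrib]

theorem jv_lt (P : Par) (ρ : ℕ → Bool) (c : ℕ) : P.jv ρ c < P.b := by
  unfold jv b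
  generalize c * P.lb = e
  induction P.lb with
  | zero => simp
  | succ n ih =>
    rw [sum_range_succ, pow_succ]
    split_ifs <;> omega

theorem Pa_eq_passS (P : Par) (f g : ℕ → ℕ) (ρ : ℕ → Bool) (k j hb : ℕ) (hhb : hb % P.ell = 0)
    (m : ℕ) (hm : m < P.ell) (a ad : ℕ) :
    P.Pa f g ρ (hb + m + 1) k a j ad =
      P.passS (P.A f g ρ) k j hb m a (fun u => ρ (P.pos m ad u)) := by
  induction m generalizing a ad with
  | zero =>
    rw [Pa_succ]
    unfold passF
    exact if_pos hhb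
  | succ m ih =>
    have e : (hb + (m + 1)) % P.ell = m + 1 := by
      rw [Nat.add_mod, hhb, zero_add, Nat.mod_mod, Nat.mod_eq_of_lt hm]
    have ej : ∀ i : Fin P.N, P.jv ρ (P.sad m ad i) =
        P.jb (fun t => ρ (P.pos (m + 1) ad (i, Sum.inl t))) := fun i =>
      (Fin.sum_univ_eq_sum_range
        (fun t => if ρ (P.sad m ad i * P.lb + t) then 2 ^ t else 0) P.lb).symm
    rw [Pa_succ]
    unfold passF
    rw [e, if_neg (Nat.succ_ne_zero m), Nat.add_sub_cancel]
    simp only [ej]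
    refine congrArg _ (funext fun i => ?_)
    exact ih (by omega) _ _

theorem basic_SZ (P : Par) (m : ℕ) : 0 < P.SZ m := by unfold SZ N; positivity

theorem basic_sad (P : Par) (m ad : ℕ) (i : Fin P.N) :
    P.sad m ad i + 2 * P.SZ m ≤ ad + P.SZ (m + 1) := by
  have h : (i + 1) * (2 * P.SZ m) ≤ P.N * (2 * P.SZ m) := Nat.mul_le_mul_right _ i.2
  have e : P.SZ (m + 1) = P.N * (2 * P.SZ m) := by unfold SZ; ring
  unfold sad
  rw [e, add_assoc, ← add_one_mul]
  exact Nat.add_le_add_left h _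

theorem basic_blk (P : Par) (m ad : ℕ) (i : Fin P.N) (v : Fin P.lb ⊕ P.Idx m)
    (ih : ∀ u : P.Idx m, (P.sad m ad i + P.SZ m) * P.lb ≤ P.pos m (P.sad m ad i + P.SZ m) u ∧
      P.pos m (P.sad m ad i + P.SZ m) u < (P.sad m ad i + P.SZ m + P.SZ m) * P.lb) :
    P.sad m ad i * P.lb ≤ P.pos (m + 1) ad (i, v) ∧
      P.pos (m + 1) ad (i, v) < (P.sad m ad i + 2 * P.SZ m) * P.lb := by
  rcases v with t | u
  · have h3 : 1 * P.lb ≤ 2 * P.SZ m * P.lb :=
      Nat.mul_le_mul_right _ (by have := P.basic_SZ m; omega)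
    have h4 := t.2
    change _ ≤ P.sad m ad i * P.lb + t ∧ P.sad m ad i * P.lb + t < _
    rw [add_mul]
    omega
  · refine ⟨(Nat.mul_le_mul_right _ (Nat.le_add_right _ _)).trans (ih u).1, ?_⟩
    rw [two_mul, ← add_assoc]
    exact (ih u).2

theorem pos_range (P : Par) (m ad : ℕ) (u : P.Idx m) :
    ad * P.lb ≤ P.pos m ad u ∧ P.pos m ad u < (ad + P.SZ m) * P.lb := by
  induction m generalizing ad with
  | zero => exact Empty.elim u
  | succ m ih =>
    obtain ⟨i, v⟩ := u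
    have h1 := P.basic_blk m ad i v (ih _)
    have h2 := P.basic_sad m ad i
    exact ⟨(Nat.mul_le_mul_right _ (Nat.le_add_right _ _)).trans h1.1,
      h1.2.trans_le (Nat.mul_le_mul_right _ h2)⟩

theorem pos_inj (P : Par) (m ad : ℕ) : Function.Injective (P.pos m ad) := by
  induction m generalizing ad with
  | zero => exact fun u => Empty.elim u
  | succ m ih =>
    rintro ⟨i, v⟩ ⟨i', v'⟩ h
    have h1 := P.basic_blk m ad i v (P.pos_range m _)
    have h2 := P.basic_blk m ad i' v' (P.pos_range m _)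
    have hlt : ∀ i i' : Fin P.N, i < i' →
        (P.sad m ad i + 2 * P.SZ m) * P.lb ≤ P.sad m ad i' * P.lb := fun i i' hi => by
      refine Nat.mul_le_mul_right _ ?_
      unfold sad
      rw [add_assoc, ← add_one_mul]
      exact Nat.add_le_add_left (Nat.mul_le_mul_right _ hi) _
    obtain rfl : i = i' := by
      rcases lt_trichotomy i i' with h3 | h3 | h3
      · have := hlt _ _ h3; omega
      · exact h3
      · have := hlt _ _ h3; omega
    have hx : ∀ (t : Fin P.lb) (u : P.Idx m),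
        P.pos (m + 1) ad (i, Sum.inl t) < P.pos (m + 1) ad (i, Sum.inr u) := fun t u => by
      refine lt_of_lt_of_le ?_ (P.pos_range m _ u).1
      have h3 : 1 * P.lb ≤ P.SZ m * P.lb := Nat.mul_le_mul_right _ (P.basic_SZ m)
      have h4 := t.2
      change P.sad m ad i * P.lb + t < _
      rw [add_mul]
      omega
    rcases v with t | u <;> rcases v' with t' | u'
    · have h3 : P.sad m ad i * P.lb + t = P.sad m ad i * P.lb + t' := h
      rw [Fin.ext (Nat.add_left_cancel h3)]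
    · exact absurd h (hx _ _).ne
    · exact absurd h (hx _ _).ne'
    · rw [ih _ h]

theorem basic_radix {u M x c R : ℕ} (h : u * M ≤ x ∧ x + 1 ≤ (u + 1) * M) (hc : c < R) :
    u * (M * R) ≤ x * R + c ∧ x * R + c + 1 ≤ (u + 1) * (M * R) := by
  have h1 := Nat.mul_le_mul_right R h.1
  have h2 := Nat.mul_le_mul_right R h.2
  rw [add_one_mul] at h2
  rw [← mul_assoc, ← mul_assoc]
  omega

theorem base_range (P : Par) {h k a j s : ℕ} (hk : k < P.K) (ha : a < P.NA) (hj : j ≤ P.k0)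
    (hs : s < P.S) :
    h * P.HS ≤ P.base h k a j s ∧ P.base h k a j s + P.SZ P.ell ≤ (h + 1) * P.HS := by
  have h2 := basic_radix (basic_radix (basic_radix (basic_radix
    (u := h) (M := 1) (x := h) ⟨by simp, by simp⟩ hk) ha) (Nat.lt_succ_of_le hj)) hs
  rw [one_mul] at h2
  unfold base HS
  rw [← add_one_mul, ← mul_assoc h, ← mul_assoc (h + 1)]
  exact ⟨Nat.mul_le_mul_right _ h2.1, Nat.mul_le_mul_right _ h2.2⟩

theorem basic_stepN (P : Par) (a off : ℕ) {C C' Y Y' : ℕ → Tab} (hC : ∀ jj < P.b, C jj = C' jj)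
    (hY : ∀ jj < P.b, Y jj = Y' jj) : P.stepN a C Y off = P.stepN a C' Y' off := by
  have hv : ∀ t t' : ℕ → Tab, (∀ jj < P.b, t jj = t' jj) → P.val t = P.val t' := fun t t' h => by
    funext l d i o
    exact sum_congr rfl fun j hj => by rw [h j (mem_range.1 hj)]
  unfold stepN TN
  rw [hv _ _ hC, hv _ _ hY]

theorem basic_passF {ρ ρ' : ℕ → Bool} {H : ℕ} (hρ : ∀ i < H * P.lb, ρ i = ρ' i)
    {A A' : ℕ → ℕ → ℕ → Tab} {Q Q' : ℕ → ℕ → ℕ → ℕ → Tab} {h k a j ad : ℕ} (hj : j ≤ P.k0)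
    (hA : ∀ k' ≤ k, ∀ jj < P.b, ∀ j ≤ P.k0, A k' (a * P.b + jj) j = A' k' (a * P.b + jj) j)
    (hQ : ∀ m, h % P.ell = m + 1 → ∀ jj < P.b, ∀ ad, ad + P.SZ m ≤ H →
      Q k (a * P.b + jj) j ad = Q' k (a * P.b + jj) j ad)
    (had : ad + P.SZ (h % P.ell) ≤ H) :
    P.passF ρ A Q h k a j ad = P.passF ρ' A' Q' h k a j ad := by
  have hC : ∀ jj < P.b, P.cumT A k a jj = P.cumT A' k a jj := fun jj hjj => by
    funext p p'
    exact sum_congr rfl fun k' hk' => by rw [hA k' (mem_range.1 hk').le jj hjj _ le_rfl]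
  unfold passF
  split_ifs with h0
  · refine P.basic_stepN a 0 hC fun jj hjj => ?_
    rw [hC jj hjj, hA k le_rfl jj hjj _ le_rfl]
  · obtain ⟨m, hm⟩ := Nat.exists_eq_succ_of_ne_zero h0
    rw [hm] at had ⊢
    rw [Nat.succ_sub_one]
    have hs : ∀ i : Fin P.N, P.sad m ad i + 2 * P.SZ m ≤ H := fun i =>
      (P.basic_sad m ad i).trans had
    have hJ : ∀ i : Fin P.N, P.jv ρ (P.sad m ad i) = P.jv ρ' (P.sad m ad i) := fun i => by
      refine sum_congr rfl fun t ht => ?_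
      have h1 : (P.sad m ad i + 1) * P.lb ≤ H * P.lb :=
        Nat.mul_le_mul_right _ (by have := hs i; have := P.basic_SZ m; omega)
      rw [add_one_mul] at h1
      rw [hρ _ (by have := mem_range.1 ht; omega)]
    have hR : ∀ i : Fin P.N, Q k (a * P.b + P.jv ρ' (P.sad m ad i)) j (P.sad m ad i + P.SZ m) =
        Q' k (a * P.b + P.jv ρ' (P.sad m ad i)) j (P.sad m ad i + P.SZ m) := fun i =>
      hQ m hm _ (P.jv_lt _ _) _ (by have := hs i; omega)
    simp only [hJ, hR]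
    refine P.basic_stepN a _ hC fun jj hjj => ?_
    funext p p'
    unfold yT
    beta_reduce
    rw [hC jj hjj, hA k le_rfl jj hjj _ ((Nat.sub_le _ _).trans hj)]

theorem basic_mod {h l m : ℕ} (hl : 1 ≤ l) (hm : (h + 1) % l = m + 1) : h % l = m := by
  rw [← Nat.mod_add_mod] at hm
  have h1 : h % l < l := Nat.mod_lt _ hl
  rcases Nat.lt_or_ge (h % l + 1) l with h2 | h2
  · rw [Nat.mod_eq_of_lt h2] at hm; omega
  · rw [show h % l + 1 = l by omega, Nat.mod_self] at hm; omega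

theorem basic_congr (hP : P.Good) (f g : ℕ → ℕ) {ρ ρ' : ℕ → Bool} {H : ℕ}
    (hρ : ∀ i < H * P.lb, ρ i = ρ' i) (h : ℕ) (hH : (h + 1) * P.HS ≤ H) (hD : h ≤ P.D) :
    (∀ k < P.K, ∀ a < P.b ^ (P.D - h), ∀ j ≤ P.k0, P.A f g ρ h k a j = P.A f g ρ' h k a j) ∧
    ∀ k < P.K, ∀ a < P.b ^ (P.D - h), ∀ j ≤ P.k0, ∀ ad, ad + P.SZ ((h - 1) % P.ell) ≤ H →
      P.Pa f g ρ h k a j ad = P.Pa f g ρ' h k a j ad := by
  induction h with
  | zero => exact ⟨fun _ _ _ _ _ _ => rfl, fun _ _ _ _ _ _ _ _ => rfl⟩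
  | succ h ih =>
    obtain ⟨h1, h2⟩ := ih ((Nat.mul_le_mul_right _ (by omega)).trans hH) (by omega)
    have hch : ∀ a < P.b ^ (P.D - (h + 1)), ∀ jj < P.b, a * P.b + jj < P.b ^ (P.D - h) :=
      fun a ha jj hjj => by
        have h3 : (a + 1) * P.b ≤ P.b ^ (P.D - (h + 1)) * P.b := Nat.mul_le_mul_right _ ha
        rw [add_one_mul, ← pow_succ, show P.D - (h + 1) + 1 = P.D - h by omega] at h3
        omega
    have h3 : ∀ k < P.K, ∀ a < P.b ^ (P.D - (h + 1)), ∀ j ≤ P.k0, ∀ ad,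
        ad + P.SZ (h % P.ell) ≤ H →
        P.Pa f g ρ (h + 1) k a j ad = P.Pa f g ρ' (h + 1) k a j ad := fun k hk a ha j hj ad had => by
      rw [Pa_succ, Pa_succ]
      refine basic_passF hρ hj (fun k' hk' jj hjj j hj => h1 k' (by omega) _ (hch a ha jj hjj) j hj)
        (fun m hm jj hjj ad' had' => h2 k hk _ (hch a ha jj hjj) j hj ad' ?_) had
      cases h with
      | zero => simp at hm
      | succ h => rw [Nat.add_sub_cancel, basic_mod hP.ell_pos hm]; exact had'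
    refine ⟨fun k hk a ha j hj => ?_, h3⟩
    funext p p'
    rw [A_succ, A_succ]
    refine if_congr Iff.rfl rfl (congrArg (· / P.S) (sum_congr rfl fun s hs => ?_))
    have h4 := (P.base_range (h := h + 1) hk (ha.trans_le
      (Nat.pow_le_pow_right P.step_b_pos (Nat.sub_le _ _))) hj (mem_range.1 hs)).2
    have h5 : P.SZ (h % P.ell) ≤ P.SZ P.ell :=
      Nat.pow_le_pow_right (by unfold N; positivity) (Nat.mod_lt _ hP.ell_pos).le
    rw [h3 k hk a ha j hj _ (by omega)]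

/-- Official tables of height `h` only read the tape below `(h+1) * HS * lb`. -/
theorem A_congr (hP : P.Good) (f g : ℕ → ℕ) (ρ ρ' : ℕ → Bool) (h : ℕ) (hD : h ≤ P.D)
    (hρ : ∀ i < (h + 1) * P.HS * P.lb, ρ i = ρ' i) {k a j : ℕ} (hk : k < P.K)
    (ha : a < P.b ^ (P.D - h)) (hj : j ≤ P.k0) : P.A f g ρ h k a j = P.A f g ρ' h k a j := by
  exact (basic_congr hP f g hρ h le_rfl hD).1 k hk a ha j hj

end Par

end Vale.Agent.P315
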