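import Vale.Agent.P315.RamDefs
import Vale.Agent.P315.Basic

namespace Vale.Agent.P315

open Finset

theorem args_mod {n l : ℕ} (h : n % l ≠ 0) : 1 ≤ n ∧ (n - 1) % l = n % l - 1 := by
  rcases n with _ | n
  · simp at h
  refine ⟨by omega, ?_⟩
  rcases Nat.eq_zero_or_pos l with rfl | hl
  · simp
  rw [Nat.add_sub_cancel]
  have h1 := Nat.mod_lt n hl
  rw [Nat.add_mod] at h ⊢
  rcases Nat.lt_or_ge 1 l with h2 | h2
  · rw [Nat.mod_eq_of_lt h2] at h ⊢
    rcases Nat.lt_or_ge (n % l + 1) l with h3 | h3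
    · rw [Nat.mod_eq_of_lt h3, Nat.add_sub_cancel]
    · rw [show n % l + 1 = l by omega, Nat.mod_self] at h
      exact absurd rfl h
  · rw [show l = 1 by omega, Nat.mod_one] at h
    exact absurd rfl h

namespace Par

variable {P : Par}

theorem args_b (P : Par) : 1 ≤ P.b := Nat.one_le_two_pow

theorem args_N (P : Par) : 1 ≤ P.N := Nat.one_le_two_pow

theorem args_NA (P : Par) (h : ℕ) : P.b ^ (P.D - h) ≤ P.NA :=
  Nat.pow_le_pow_right P.args_b (Nat.sub_le _ _)

theorem args_child {a h u : ℕ} (h1 : 1 ≤ h) (hD : h ≤ P.D) (ha : a < P.b ^ (P.D - h))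
    (hu : u < P.b) : a * P.b + u < P.b ^ (P.D - (h - 1)) := by
  rw [show P.D - (h - 1) = P.D - h + 1 by omega, pow_succ]
  calc a * P.b + u < (a + 1) * P.b := by rw [add_mul, one_mul]; omega
    _ ≤ _ := Nat.mul_le_mul_right _ ha

theorem valF_sub (hP : P.Good) (ρ : ℕ → Bool) (A : Arg) (t : ℕ) (hA : P.ValF A)
    (ht : t < P.cntF A) : P.ValF (P.subF ρ A t) ∧ P.rankF (P.subF ρ A t) < P.rankF A := by
  obtain ⟨md, k, h, a, j, ad⟩ := A
  rcases hA with ⟨h0, h1, h2, h3, h4, h5⟩ | ⟨h0, h1, h2, h3, h4, h5, h6, h7⟩ | h0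
  · simp only at h0 h1 h2 h3 h4 h5
    subst h0
    simp only [cntF, if_true] at ht
    split_ifs at ht with hc
    · omega
    have hb := (P.base_range (h := h) h1 (h3.trans_le (P.args_NA h)) h4 ht).2
    have h6 : P.SZ ((h - 1) % P.ell) ≤ P.SZ P.ell :=
      Nat.pow_le_pow_right (by have := P.args_N; omega) (Nat.mod_lt _ hP.ell_pos).le
    have h7 : (h + 1) * P.HS ≤ (P.D + 1) * P.HS := Nat.mul_le_mul_right _ (by omega)
    refine ⟨Or.inr (Or.inl ?_), by simp [subF, rankF]⟩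
    simp only [subF, if_true, true_and]
    exact ⟨h1, by omega, h2, h3, by omega, h4, by omega⟩
  · simp only at h0 h1 h2 h3 h4 h5 h6 h7
    subst h0
    simp only [cntF, one_ne_zero, if_false, if_true] at ht
    by_cases hc : t < P.b * (k + 1)
    · refine ⟨Or.inl ?_, by simp [subF, rankF, hc]; omega⟩
      simp only [subF, one_ne_zero, if_false, if_true, hc, true_and, and_true]
      have : t % (k + 1) < k + 1 := Nat.mod_lt t (Nat.succ_pos k)
      refine ⟨by omega, by omega, args_child h2 h3 h4 (Nat.div_lt_of_lt_mul (by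
        rwa [mul_comm] at hc)), ?_⟩
      split_ifs <;> omega
    · split_ifs at ht with hr
      · omega
      obtain ⟨e1, e2⟩ := args_mod hr
      refine ⟨Or.inr (Or.inl ?_), by simp [subF, rankF, hc]; omega⟩
      simp only [subF, one_ne_zero, if_false, if_true, hc, true_and]
      refine ⟨h1, e1, by omega, args_child h2 h3 h4 (P.jv_lt _ _), h5, h6, le_trans ?_ h7⟩
      rw [e2]
      obtain ⟨m, hm⟩ : ∃ m, (h - 1) % P.ell = m + 1 := ⟨(h - 1) % P.ell - 1, by omega⟩
      have h8 : (t - P.b * (k + 1) + 1) * (2 * P.SZ m) ≤ P.N * (2 * P.SZ m) :=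
        Nat.mul_le_mul_right _ (by omega)
      have h9 : P.SZ (m + 1) = P.N * (2 * P.SZ m) := by unfold SZ; ring
      rw [hm, Nat.add_sub_cancel, h9, sad]
      rw [add_mul, one_mul] at h8
      omega
  · rw [h0] at ht ⊢
    refine ⟨Or.inl ?_, by simp [subF, rankF]⟩
    simpa [subF, cntF] using ht

theorem valF_bd (hP : P.Good) (A : Arg) (hA : P.ValF A) (e : ℕ) : A.get e ≤ P.big + 2 := by
  have _ := hP
  have hK : P.K ≤ P.small := P.smL_le 2
  have hD : P.D ≤ P.small := P.smL_le 14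
  have hk : P.k0 ≤ P.small := P.smL_le 12
  have hH : (P.D + 1) * P.HS ≤ (P.D + 1) * P.HS * (P.lb + 1) := Nat.le_mul_of_pos_right _ (by omega)
  have hN := P.args_NA A.h
  have h1 : P.small ≤ P.big := by unfold big; generalize 2 ^ P.pw = z; omega
  have h2 : P.NA ≤ P.big := by unfold big; generalize 2 ^ P.pw = z; omega
  have h3 : (P.D + 1) * P.HS ≤ P.big := by unfold big; generalize 2 ^ P.pw = z; omega
  have : A.md ≤ P.big + 2 ∧ A.k ≤ P.big + 2 ∧ A.h ≤ P.big + 2 ∧ A.a ≤ P.big + 2 ∧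
      A.j ≤ P.big + 2 ∧ A.ad ≤ P.big + 2 := by
    rcases hA with h | h | rfl
    · omega
    · omega
    · simp
  rcases e with _ | _ | _ | _ | _ | _ | e <;> simp [Arg.get, this]

theorem cntF_le (hP : P.Good) (A : Arg) (hA : P.ValF A) : P.cntF A ≤ P.CM := by
  have _ := hP
  have h1 : P.K + 1 ≤ P.b * (P.K + 1) := Nat.le_mul_of_pos_left _ P.args_b
  unfold cntF CM
  split_ifs with h0 _ h2 _
  · omega
  · omega
  all_goals first | omega | skip
  all_goals
    have h3 : P.b * (A.k + 1) ≤ P.b * (P.K + 1) := Nat.mul_le_mul_left _ (by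
      rcases hA with h | h | rfl
      · omega
      · omega
      · simp)
    omega

theorem args_win (hP : P.Good) {h : ℕ} (h1 : 1 ≤ h) : P.win (h - 1) ≤ P.win h ∧
    ((h - 1) % P.ell = 0 → P.win (h - 1) + 1 = P.win h) := by
  refine ⟨Nat.div_le_div_right (by omega), fun h2 => ?_⟩
  obtain ⟨q, hq⟩ := Nat.dvd_of_mod_eq_zero h2
  have hl := hP.ell_pos
  unfold win
  rw [show h + P.ell - 1 = h - 1 + P.ell by omega, Nat.add_div_right _ hl, hq,
    show P.ell * q + P.ell - 1 = P.ell * q + (P.ell - 1) by omega, Nat.mul_add_div hl,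
    Nat.div_eq_of_lt (by omega), Nat.mul_div_cancel_left _ hl]

theorem callsF_le (hP : P.Good) (ρ : ℕ → Bool) (A : Arg) (hA : P.ValF A) :
    1 + ∑ t ∈ range (P.cntF A), P.callsF (P.subF ρ A t) ≤ P.callsF A := by
  have hG : 1 ≤ P.Gam := Nat.mul_pos (Nat.mul_pos P.args_b (by omega)) (by omega)
  have hX : ∀ h u, 1 ≤ (P.N + 2) ^ h * P.Gam ^ u := fun h u =>
    Nat.mul_pos (Nat.pow_pos (by omega)) (Nat.pow_pos hG)
  obtain ⟨md, k, h, a, j, ad⟩ := A
  rcases hA with ⟨h0, -⟩ | ⟨h0, h1, h2, -, -, h5, -, -⟩ | h0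
  · simp only at h0
    subst h0
    have := hX h (P.pot k h j)
    simp only [cntF, subF, callsF, if_true, one_ne_zero, if_false, sum_const, card_range,
      smul_eq_mul, add_mul, one_mul]
    split_ifs <;> omega
  · simp only at h0 h1 h2 h5
    subst h0
    obtain ⟨w1, w2⟩ := args_win hP h2
    obtain ⟨u, hu⟩ : ∃ u, P.pot k h j = u + 1 := ⟨P.pot k h j - 1, by unfold pot; omega⟩
    have s1 : ∑ t ∈ range (P.b * (k + 1)), P.callsF (P.subF ρ ⟨1, k, h, a, j, ad⟩ t) ≤
        (P.N + 2) ^ (h - 1) * P.Gam ^ (u + 1) := by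
      refine (sum_le_card_nsmul _ _ ((P.S + 1) * ((P.N + 2) ^ (h - 1) * P.Gam ^ u))
        fun t ht => ?_).trans ?_
      · simp only [subF, callsF, one_ne_zero, if_false, if_true, mem_range.1 ht]
        refine Nat.mul_le_mul_left _ (Nat.mul_le_mul_left _ (Nat.pow_le_pow_right hG ?_))
        have h6 : t % (k + 1) < k + 1 := Nat.mod_lt t (Nat.succ_pos k)
        unfold pot at hu ⊢
        split_ifs with hc
        · have : (P.k0 + 1) * (t % (k + 1) + P.win (h - 1) + 1) ≤ (P.k0 + 1) * (k + P.win h) :=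
            Nat.mul_le_mul_left _ (by rcases hc with hc | hc; omega; have := w2 hc; omega)
          rw [mul_add _ _ 1] at this
          omega
        · have : (P.k0 + 1) * (t % (k + 1) + P.win (h - 1)) ≤ (P.k0 + 1) * (k + P.win h) :=
            Nat.mul_le_mul_left _ (by omega)
          omega
      · have : P.b * (k + 1) * (P.S + 1) ≤ P.Gam :=
          Nat.mul_le_mul_right _ (Nat.mul_le_mul_left _ (by omega))
        rw [card_range, smul_eq_mul, ← mul_assoc, pow_succ, ← mul_assoc _ _ P.Gam, mul_comm _ P.Gam]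
        exact Nat.mul_le_mul_right _ this
    have s2 : ∀ n ≤ P.N, ∑ t ∈ range n,
        P.callsF (P.subF ρ ⟨1, k, h, a, j, ad⟩ (P.b * (k + 1) + t)) ≤
        P.N * ((P.N + 2) ^ (h - 1) * P.Gam ^ (u + 1)) := by
      intro n hn
      refine (sum_le_card_nsmul _ _ ((P.N + 2) ^ (h - 1) * P.Gam ^ (u + 1)) fun t _ => ?_).trans ?_
      · simp only [subF, callsF, one_ne_zero, if_false, if_true, Nat.not_lt.2 (Nat.le_add_right _ t)]
        refine Nat.mul_le_mul_left _ (Nat.pow_le_pow_right hG ?_)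
        rw [← hu]
        exact Nat.add_le_add_left (Nat.mul_le_mul_left _ (by omega)) _
      · rw [card_range, smul_eq_mul]
        exact Nat.mul_le_mul_right _ hn
    have h7 := hX (h - 1) (u + 1)
    have h8 : P.callsF ⟨1, k, h, a, j, ad⟩ = (P.N + 2) * ((P.N + 2) ^ (h - 1) * P.Gam ^ (u + 1)) := by
      simp only [callsF, one_ne_zero, if_false, if_true, hu]
      rw [← mul_assoc, ← pow_succ', Nat.sub_add_cancel h2]
    have h9 : P.cntF ⟨1, k, h, a, j, ad⟩ =
      P.b * (k + 1) + if (h - 1) % P.ell = 0 then 0 else P.N := by simp [cntF]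
    have s3 := s2 (if (h - 1) % P.ell = 0 then 0 else P.N) (by split_ifs <;> omega)
    rw [h8, h9, sum_range_add, add_mul]
    omega
  · rw [h0]
    have h1 := hX P.D ((P.k0 + 1) * (P.K + P.win P.D + 1))
    have s1 : ∑ t ∈ range P.K, P.callsF (P.subF ρ ⟨2, 0, 0, 0, 0, 0⟩ t) ≤
        P.K * ((P.S + 1) * ((P.N + 2) ^ P.D * P.Gam ^ ((P.k0 + 1) * (P.K + P.win P.D + 1)))) := by
      refine (sum_le_card_nsmul _ _ _ fun t ht => ?_).trans (by rw [card_range, smul_eq_mul])
      simp only [subF, callsF, OfNat.ofNat_ne_zero, OfNat.ofNat_ne_one, if_false, if_true]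
      refine Nat.mul_le_mul_left _ (Nat.mul_le_mul_left _ (Nat.pow_le_pow_right hG ?_))
      have : (P.k0 + 1) * (t + P.win P.D) ≤ (P.k0 + 1) * (P.K + P.win P.D) :=
        Nat.mul_le_mul_left _ (by have := mem_range.1 ht; omega)
      rw [pot, mul_add _ _ 1]
      omega
    have h2 : P.K * (P.S + 1) + 1 ≤ P.Gam := by
      have : (P.K + 1) * (P.S + 1) ≤ P.Gam := by
        rw [Gam, mul_assoc]
        exact Nat.le_mul_of_pos_left _ P.args_b
      rw [add_mul] at this
      omega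
    have h3 := Nat.mul_le_mul_right
      ((P.N + 2) ^ P.D * P.Gam ^ ((P.k0 + 1) * (P.K + P.win P.D + 1))) h2
    have h4 : P.callsF ⟨2, 0, 0, 0, 0, 0⟩ =
        P.Gam * ((P.N + 2) ^ P.D * P.Gam ^ ((P.k0 + 1) * (P.K + P.win P.D + 1))) := by
      simp only [callsF, OfNat.ofNat_ne_zero, OfNat.ofNat_ne_one, if_false, callsRoot]
      ring
    have h5 : P.cntF ⟨2, 0, 0, 0, 0, 0⟩ = P.K := by simp [cntF]
    rw [h4, h5]
    rw [add_mul, one_mul, mul_assoc] at h3
    omega

end Par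

/-- small parameter -/
def argsP (i : ℕ) : FE := .rd 7 (.c i)
/-- `(h - 1) % ell` -/
def argsR : FE := .mod (.sub (argE 2) (.c 1)) (argsP 13)
/-- `k + 1` -/
def argsK : FE := .add (argE 1) (.c 1)
/-- `b * (k + 1)` -/
def argsB : FE := .mul (argsP 0) argsK
/-- the number of subcalls -/
def argsCnt : FE :=
  .ifz (argE 0) (.ifz (.mul (argE 2) (argE 4)) (.c 0) (argsP 3))
    (.ifz (.sub (argE 0) (.c 1)) (.add argsB (.ifz argsR (.c 0) (argsP 1))) (argsP 2))
/-- size of a sub-pass -/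
def argsSz : FE := .rd 18 (.mul (.add (argsP 16) (.c 1)) (.sub argsR (.c 1)))
/-- address of a sample -/
def argsSad : FE := .add (argE 5) (.mul (.sub (argE 7) argsB) (.mul (.c 2) argsSz))
/-- the random child -/
def argsJv : FE :=
  .sum 1 9 (.mul (.rd 3 (.add (.mul argsSad (argsP 9)) (.v 1))) (.rd 18 (.v 1)))
/-- address of a pass -/
def argsBase : FE :=
  .mul (.add (.mul (.add (.mul (.add (.mul (.add (.mul (argE 2) (argsP 2)) (argE 1))
    (.rd 17 (.c 2))) (argE 3)) (.add (argsP 12) (.c 1))) (argE 4)) (argsP 3)) (argE 7))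
    (.rd 17 (.c 4))
/-- selection by the variable `0` -/
def argsSel (e0 e1 e2 e3 e4 e5 : FE) : FE :=
  .ifz (.v 0) e0 (.ifz (.sub (.v 0) (.c 1)) e1 (.ifz (.sub (.v 0) (.c 2)) e2
    (.ifz (.sub (.v 0) (.c 3)) e3 (.ifz (.sub (.v 0) (.c 4)) e4 e5))))
/-- the arguments of a subcall -/
def argsSub : FE :=
  .ifz (argE 0) (argsSel (.c 1) (argE 1) (argE 2) (argE 3) (argE 4) argsBase)
    (.ifz (.sub (argE 0) (.c 1))
      (.ifz (.sub argsB (argE 7))
        (argsSel (.c 1) (argE 1) (.sub (argE 2) (.c 1)) (.add (.mul (argE 3) (argsP 0)) argsJv)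
          (argE 4) (.add argsSad argsSz))
        (argsSel (.c 0) (.mod (argE 7) argsK) (.sub (argE 2) (.c 1))
          (.add (.mul (argE 3) (argsP 0)) (.div (argE 7) argsK))
          (.ifz (.sub (argE 1) (.mod (argE 7) argsK))
            (.ifz argsR (argsP 12) (.sub (argE 4) (.c 1))) (argsP 12)) (.c 0)))
      (argsSel (.c 0) (argE 7) (argsP 14) (.c 0) (argsP 12) (.c 0)))

theorem argsSel_eval (e0 e1 e2 e3 e4 e5 : FE) {m : Mem} (h : m 6 0 < 6) :
    (argsSel e0 e1 e2 e3 e4 e5).eval m = Arg.get ⟨e0.eval m, e1.eval m, e2.eval m, e3.eval m,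
      e4.eval m, e5.eval m⟩ (m 6 0) := by
  obtain ⟨e, he⟩ : ∃ e, m 6 0 = e := ⟨_, rfl⟩
  rw [he] at h
  interval_cases e <;> simp [argsSel, FE.eval, he, Arg.get]

section eval

variable {P : Par} {x y : List ℕ} {ρ : ℕ → Bool} {R sp t : ℕ} {m : Mem} {A : Arg}

theorem args_frame (hF : Fr m sp A) : (argE 0).eval m = A.md ∧ (argE 1).eval m = A.k ∧
    (argE 2).eval m = A.h ∧ (argE 3).eval m = A.a ∧ (argE 4).eval m = A.j ∧
    (argE 5).eval m = A.ad :=
  ⟨argE_eval hF (by omega), argE_eval hF (by omega), argE_eval hF (by omega),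
    argE_eval hF (by omega), argE_eval hF (by omega), argE_eval hF (by omega)⟩

theorem args_small (hR : P.RO x y ρ R m) : (argsP 0).eval m = P.b ∧ (argsP 1).eval m = P.N ∧
    (argsP 2).eval m = P.K ∧ (argsP 3).eval m = P.S ∧ (argsP 9).eval m = P.lb ∧
    (argsP 12).eval m = P.k0 ∧ (argsP 13).eval m = P.ell ∧ (argsP 14).eval m = P.D ∧
    (argsP 16).eval m = P.ln :=
  ⟨hR.sm 0, hR.sm 1, hR.sm 2, hR.sm 3, hR.sm 9, hR.sm 12, hR.sm 13, hR.sm 14, hR.sm 16⟩

theorem args_t (hF : Fr m sp A) (ht : m 9 (8 * sp + 7) = t) : (argE 7).eval m = t := by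
  simp only [argE, FE.eval, hF.1]; exact ht

theorem argsR_eval (hR : P.RO x y ρ R m) (hF : Fr m sp A) :
    argsR.eval m = (A.h - 1) % P.ell := by
  simp only [argsR, FE.eval, args_frame hF, args_small hR]

theorem argsK_eval (hF : Fr m sp A) : argsK.eval m = A.k + 1 := by
  simp only [argsK, FE.eval, args_frame hF]

theorem argsB_eval (hR : P.RO x y ρ R m) (hF : Fr m sp A) : argsB.eval m = P.b * (A.k + 1) := by
  simp only [argsB, FE.eval, argsK_eval hF, args_small hR]

theorem argsCnt_eval (hR : P.RO x y ρ R m) (hF : Fr m sp A) : argsCnt.eval m = P.cntF A := by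
  simp only [argsCnt, FE.eval, args_frame hF, args_small hR, argsR_eval hR hF, argsB_eval hR hF,
    Par.cntF, Nat.mul_eq_zero]
  split_ifs <;> first | rfl | omega

theorem argsSz_eval (hP : P.Good) (hR : P.RO x y ρ R m) (hF : Fr m sp A) :
    argsSz.eval m = P.SZ ((A.h - 1) % P.ell - 1) := by
  have h1 : (A.h - 1) % P.ell < P.ell := Nat.mod_lt _ hP.ell_pos
  have h2 : (P.ln + 1) * ((A.h - 1) % P.ell - 1) ≤ (P.ln + 1) * P.ell :=
    Nat.mul_le_mul_left _ (by omega)
  simp only [argsSz, FE.eval, args_small hR, argsR_eval hR hF]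
  rw [hR.pow _ (by unfold Par.pw; omega), Par.SZ, Par.N, pow_mul, pow_succ']

theorem argsSad_eval (hP : P.Good) (hR : P.RO x y ρ R m) (hF : Fr m sp A)
    (ht : m 9 (8 * sp + 7) = t) :
    argsSad.eval m = P.sad ((A.h - 1) % P.ell - 1) A.ad (t - P.b * (A.k + 1)) := by
  simp only [argsSad, FE.eval, args_frame hF, args_t hF ht, argsB_eval hR hF,
    argsSz_eval hP hR hF, Par.sad]

theorem argsJv_eval (hP : P.Good) (hR : P.RO x y ρ R m) (hF : Fr m sp A)
    (ht : m 9 (8 * sp + 7) = t) :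
    argsJv.eval m = P.jv ρ (P.sad ((A.h - 1) % P.ell - 1) A.ad (t - P.b * (A.k + 1))) := by
  have h9 : m 7 9 = P.lb := hR.sm 9
  simp only [argsJv, FE.eval, h9, Par.jv]
  refine sum_congr rfl fun u hu => ?_
  have hu := mem_range.1 hu
  rw [argsSad_eval hP (hR.set6 1 u) (hF.set6 1 u) (by simpa using ht),
    (args_small (hR.set6 1 u)).2.2.2.2.1, Mem.set_same, (hR.set6 1 u).tape,
    (hR.set6 1 u).pow u (by unfold Par.pw; omega)]
  split_ifs <;> simp

theorem argsBase_eval (hR : P.RO x y ρ R m) (hF : Fr m sp A) (ht : m 9 (8 * sp + 7) = t) :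
    argsBase.eval m = P.base A.h A.k A.a A.j t := by
  have h2 : m 17 2 = P.NA := hR.bg 2 (by omega)
  have h4 : m 17 4 = P.SZ P.ell := hR.bg 4 (by omega)
  simp only [argsBase, FE.eval, args_frame hF, args_small hR, args_t hF ht, h2, h4, Par.base]

theorem argsSub_eval (hP : P.Good) (hR : P.RO x y ρ R m) (hF : Fr m sp A)
    (ht : m 9 (8 * sp + 7) = t) (h : m 6 0 < 6) :
    argsSub.eval m = (P.subF ρ A t).get (m 6 0) := by
  simp only [argsSub, FE.eval, argsSel_eval _ _ _ _ _ _ h, args_frame hF, args_small hR,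
    args_t hF ht, argsR_eval hR hF, argsK_eval hF, argsB_eval hR hF, argsSz_eval hP hR hF,
    argsSad_eval hP hR hF ht, argsJv_eval hP hR hF ht, argsBase_eval hR hF ht, Par.subF]
  split_ifs <;> first | rfl | omega

end eval

theorem args_ex : ∃ cntE subE : FE, cntE.noRd 5 = true ∧ subE.noRd 5 = true ∧
    subE.noRd 10 = true ∧ ∀ (P : Par) (x y : List ℕ) (ρ : ℕ → Bool) (V R : ℕ), P.Good →
      P.big + 2 ≤ V → (P.recF x y ρ R).Ok V R cntE subE := by
  refine ⟨argsCnt, argsSub, rfl, rfl, rfl, fun P x y ρ V R hP hV => ?_⟩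
  exact
    { stab := fun m m' h hm => Par.RO.stab h hm
      par := fun m h => ⟨h.bg 0 (by omega), h.bg 1 (by omega), h.Sm⟩
      cntE := fun A sp m _ hR hF => argsCnt_eval hR hF
      subE := fun A sp m t _ hR hF ht _ e he => by
        have := argsSub_eval (t := t) hP (Par.RO.set6 hR 0 e) (hF.set6 0 e) (by simpa using ht)
          (by simpa using he)
        rwa [Mem.set_same] at this
      val := fun A t hA ht => (Par.valF_sub hP ρ A t hA ht).1
      rank := fun A t hA ht => (Par.valF_sub hP ρ A t hA ht).2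
      bd := fun A hA e => (Par.valF_bd hP A hA e).trans hV
      cnt := fun A hA => Nat.mul_le_mul_right _ (Par.cntF_le hP A hA)
      calls := fun A hA => Par.callsF_le hP ρ A hA
      hTS := Nat.mul_pos (Nat.succ_pos _) (Nat.succ_pos _)
      hU := le_rfl }

end Vale.Agent.P315
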