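import Vale.Agent.P315.Lang

namespace Vale.Agent.P315

open Finset

/-- An expression without `rd arr` does not depend on array `arr` (`arr = 5` gives invariance
under `Eqv`). -/
theorem FE.eval_congr {e : FE} {arr : ℕ} (he : e.noRd arr = true) (h6 : arr ≠ 6) (h7 : arr ≠ 7)
    {m m' : Mem} (h : ∀ a i, a ≠ arr → m a i = m' a i) : e.eval m = e.eval m' := by
  have hs : ∀ {m m' : Mem}, (∀ a i, a ≠ arr → m a i = m' a i) → ∀ x t a i, a ≠ arr →
      m.set 6 x t a i = m'.set 6 x t a i := fun h x t a i ha => by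
    rw [Mem.set_apply, Mem.set_apply, h a i ha]
  induction e generalizing m m' with
  | c k => rfl
  | v x => exact h 6 x h6.symm
  | rd a e ih =>
    simp only [FE.noRd, Bool.and_eq_true, bne_iff_ne] at he
    rw [FE.eval, FE.eval, ih he.2 h, h _ _ he.1]
  | add e f i1 i2 =>
    simp only [FE.noRd, Bool.and_eq_true] at he
    rw [FE.eval, FE.eval, i1 he.1 h, i2 he.2 h]
  | sub e f i1 i2 =>
    simp only [FE.noRd, Bool.and_eq_true] at he
    rw [FE.eval, FE.eval, i1 he.1 h, i2 he.2 h]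
  | mul e f i1 i2 =>
    simp only [FE.noRd, Bool.and_eq_true] at he
    rw [FE.eval, FE.eval, i1 he.1 h, i2 he.2 h]
  | div e f i1 i2 =>
    simp only [FE.noRd, Bool.and_eq_true] at he
    rw [FE.eval, FE.eval, i1 he.1 h, i2 he.2 h]
  | mod e f i1 i2 =>
    simp only [FE.noRd, Bool.and_eq_true] at he
    rw [FE.eval, FE.eval, i1 he.1 h, i2 he.2 h]
  | ifz e f g i1 i2 i3 =>
    simp only [FE.noRd, Bool.and_eq_true] at he
    rw [FE.eval, FE.eval, i1 he.1.1 h, i2 he.1.2 h, i3 he.2 h]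
  | lt x e f i1 i2 =>
    simp only [FE.noRd, Bool.and_eq_true] at he
    rw [FE.eval, FE.eval, i1 he.1 h, i2 he.2 (hs h _ _)]
  | sum x r e ih =>
    rw [FE.eval, FE.eval, h 7 r h7.symm]
    exact sum_congr rfl fun t _ => ih he (hs h _ _)
  | mn x r i e i1 i2 =>
    simp only [FE.noRd, Bool.and_eq_true] at he
    rw [FE.eval, FE.eval, h 7 r h7.symm, i1 he.1 h]
    exact fold_congr fun t _ => i2 he.2 (hs h _ _)

/-- Read of a fixed cell. -/
def compCell (a i : ℕ) : Expr := .rd a (.const i)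

/-- Nothing changes except the scratch stack from `d` on. -/
def CompKeep (d : ℕ) (m m' : Mem) : Prop := ∀ a i, (a ≠ 5 ∨ i < d) → m' a i = m a i

/-- Independence of the scratch stack. -/
def CompInv (F : Mem → ℕ) : Prop := ∀ m m', Eqv m m' → F m = F m'

/-- The code `c` computes `F` in cell `d`. -/
def Cp (F : Mem → ℕ) (d : ℕ) (c : Cmd) (κ : ℕ) : Prop :=
  ∀ (P : List Cmd) (B V R : ℕ) (m : Mem), Env B V R κ → Bd V m → Sm R m →
    ∃ m' t, Exec P B c m m' t ∧ m' 5 d = F m ∧ CompKeep d m m' ∧ t ≤ κ * R ^ κ ∧ F m ≤ V ^ κ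

/-- The same, but the variable `x` is overwritten. -/
def CpX (x : ℕ) (F : Mem → ℕ) (d : ℕ) (c : Cmd) (κ : ℕ) : Prop :=
  ∀ (P : List Cmd) (B V R : ℕ) (m : Mem), Env B V R κ → Bd V m → Sm R m →
    ∃ m' t w, Exec P B c m m' t ∧ m' 5 d = F m ∧ CompKeep d (m.set 6 x w) m' ∧ t ≤ κ * R ^ κ ∧
      F m ≤ V ^ κ

section

variable {P : List Cmd} {B V R κ k k' d x r : ℕ} {m m' m'' : Mem} {F G H : Mem → ℕ}
  {c c' c'' : Cmd}

theorem comp_st (a : ℕ) {i : ℕ} {v : Expr} (hi : i < B) (hv : v.Fits B m) :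
    Exec P B (.store a (.const i) v) m (m.set a i (v.eval m)) (1 + v.cost + 1) :=
  Exec.store (i := .const i) hi hv

theorem comp_mv (a a' : ℕ) {i i' : ℕ} (hi : i < B) (hi' : i' < B) (hv : m a' i' < B) :
    Exec P B (.store a (.const i) (compCell a' i')) m (m.set a i (m a' i')) 4 :=
  comp_st (v := compCell a' i') a hi ⟨hi', hv⟩

theorem comp_pow_add (h : 2 ≤ V) (a b : ℕ) : V ^ a + V ^ b ≤ V ^ (a + b + 1) := by
  have h1 : V ^ a ≤ V ^ (a + b) := Nat.pow_le_pow_right (by omega) (by omega)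
  have h2 : V ^ b ≤ V ^ (a + b) := Nat.pow_le_pow_right (by omega) (by omega)
  have h3 := Nat.mul_le_mul_left (V ^ (a + b)) h
  rw [pow_succ]
  omega

theorem Env.comp_le (E : Env B V R κ) {v : ℕ} (hv : v ≤ V ^ k) (hk : k ≤ k') : v ≤ V ^ k' :=
  hv.trans (Nat.pow_le_pow_right (by have := E.h2; omega) hk)

theorem Env.comp_pow (E : Env B V R κ) {v : ℕ} (hv : v ≤ V ^ k) (hk : k ≤ κ) : v < B :=
  (E.comp_le hv hk).trans_lt E.hB

theorem Env.comp_val (E : Env B V R κ) {v : ℕ} (hv : v ≤ V) (hk : 1 ≤ κ) : v < B :=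
  E.comp_pow (k := 1) (by rwa [pow_one]) hk

theorem Env.comp_lt (E : Env B V R κ) {v : ℕ} (hv : v < κ) : v < B :=
  E.comp_val (hv.le.trans E.hκ) (by omega)

theorem Env.comp_one (E : Env B V R κ) (k : ℕ) : 1 ≤ R ^ k := Nat.one_le_pow _ _ E.hR

theorem Env.comp_cost (E : Env B V R κ) {t : ℕ} (h : t ≤ k * R ^ k) (hk : k ≤ k') :
    t ≤ k * R ^ k' := h.trans (Nat.mul_le_mul_left _ (Nat.pow_le_pow_right E.hR hk))

theorem CompKeep.eqv (h : CompKeep d m m') : Eqv m' m := fun a i ha => h a i (Or.inl ha)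

theorem CompKeep.bd (h : CompKeep d m m') (hb : Bd V m) : Bd V m' :=
  fun a i ha => (h a i (Or.inl ha)).trans_le (hb a i ha)

theorem CompKeep.sm (h : CompKeep d m m') (hb : Sm R m) : Sm R m' :=
  fun i => (h 7 i (Or.inl (by decide))).trans_le (hb i)

theorem CompKeep.trans {d' : ℕ} (h : CompKeep d m m') (h' : CompKeep d' m' m'') (hd : d ≤ d') :
    CompKeep d m m'' :=
  fun a i ha => (h' a i (ha.imp id fun hi => hi.trans_le hd)).trans (h a i ha)

theorem CompKeep.set (h : CompKeep d m m') {d' : ℕ} (hd : d ≤ d') (v : ℕ) :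
    CompKeep d m (m'.set 5 d' v) := fun a i ha => by
  rw [Mem.set_apply, if_neg (by omega), h a i ha]

theorem CompKeep.var (h : CompKeep d m m') (x w : ℕ) :
    CompKeep d (m.set 6 x w) (m'.set 6 x w) := fun a i ha => by
  rw [Mem.set_apply, Mem.set_apply, h a i ha]

theorem CompKeep.var' {w : ℕ} (h : CompKeep d (m.set 6 x w) m') (w' : ℕ) :
    CompKeep d (m.set 6 x w') (m'.set 6 x w') := fun a i ha => by
  rw [Mem.set_apply, Mem.set_apply, h a i ha, Mem.set_apply]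
  split_ifs <;> rfl

theorem Bd.comp_set (h : Bd V m) (a i : ℕ) {v : ℕ} (hv : v ≤ V) : Bd V (m.set a i v) :=
  fun a' i' ha => by
    rw [Mem.set_apply]
    split_ifs
    exacts [hv, h a' i' ha]

theorem Sm.comp_set (h : Sm R m) (x v : ℕ) : Sm R (m.set 6 x v) := fun i => by
  rw [Mem.set_arr _ _ _ (by decide)]
  exact h i

theorem Cp.use (h : Cp F d c k) (P : List Cmd) (E : Env B V R κ) (hk : k ≤ κ) (hb : Bd V m)
    (hs : Sm R m) : ∃ m' t, Exec P B c m m' t ∧ m' 5 d = F m ∧ CompKeep d m m' ∧ t ≤ k * R ^ κ ∧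
      F m ≤ V ^ k := by
  obtain ⟨m', t, h1, h2, h3, h4, h5⟩ := h P B V R m (E.mono hk) hb hs
  exact ⟨m', t, h1, h2, h3, E.comp_cost h4 hk, h5⟩

theorem comp_c (k d : ℕ) : ∃ c κ, Cp (fun _ => k) d c κ := by
  refine ⟨.store 5 (.const d) (.const k), d + k + 3, fun P B V R m E hb hs => ⟨_, _,
    comp_st (v := .const k) 5 (E.comp_lt (by omega)) (E.comp_lt (by omega)), m.set_same _ _ _,
    CompKeep.set (fun _ _ _ => rfl) le_rfl _, ?_,
    E.comp_le (k := 1) (v := k) (by have := E.hκ; rw [pow_one]; omega) (by omega)⟩⟩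
  have := E.comp_one (d + k + 3)
  simp only [add_mul, Expr.cost]
  omega

theorem comp_v (x d : ℕ) : ∃ c κ, Cp (fun m => m 6 x) d c κ := by
  refine ⟨.store 5 (.const d) (compCell 6 x), d + x + 4, fun P B V R m E hb hs => ⟨_, _,
    comp_mv 5 6 (E.comp_lt (by omega)) (E.comp_lt (by omega))
      (E.comp_val (hb 6 x (by decide)) (by omega)), m.set_same _ _ _,
    CompKeep.set (fun _ _ _ => rfl) le_rfl _, ?_,
    E.comp_le (k := 1) (by simpa using hb 6 x (by decide)) (by omega)⟩⟩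
  have := E.comp_one (d + x + 4)
  simp only [add_mul]
  omega

theorem comp_rd (h : Cp F d c k) {a : ℕ} (ha : a ≠ 5) : ∃ c κ, Cp (fun m => m a (F m)) d c κ := by
  refine ⟨.seq c (.store 5 (.const d) (.rd a (compCell 5 d))), k + d + 6,
    fun P B V R m E hb hs => ?_⟩
  obtain ⟨m1, t1, x1, v1, k1, c1, b1⟩ := h.use P E (by omega) hb hs
  have hd : d < B := E.comp_lt (by omega)
  refine ⟨_, _, x1.seq (comp_st (v := .rd a (compCell 5 d)) 5 hd
    ⟨⟨hd, v1.trans_lt (E.comp_pow b1 (by omega))⟩, E.comp_val (k1.bd hb a _ ha) (by omega)⟩),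
    (m1.set_same _ _ _).trans ?_, k1.set le_rfl _, ?_,
    E.comp_le (k := 1) (by simpa using hb a _ ha) (by omega)⟩
  · exact (congrArg (m1 a) v1).trans (k1 a _ (Or.inl ha))
  · have := E.comp_one (k + d + 6)
    simp only [add_mul, Expr.cost, compCell]
    omega

theorem comp_bin (h : Cp F d c k) (h' : Cp G (d + 1) c' k') (hG : CompInv G)
    (op : Expr → Expr → Expr) (g : ℕ → ℕ → ℕ)
    (he : ∀ m x y, (op x y).eval m = g (x.eval m) (y.eval m))
    (hc : ∀ x y, (op x y).cost = x.cost + y.cost + 1)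
    (hf : ∀ B m x y, x.Fits B m → y.Fits B m → g (x.eval m) (y.eval m) < B → (op x y).Fits B m)
    (hg : ∀ a b, g a b ≤ a + b ∨ g a b ≤ a * b) : ∃ c κ, Cp (fun m => g (F m) (G m)) d c κ := by
  refine ⟨.seq c (.seq c' (.store 5 (.const d) (op (compCell 5 d) (compCell 5 (d + 1))))),
    k + k' + d + 9, fun P B V R m E hb hs => ?_⟩
  obtain ⟨m1, t1, x1, v1, k1, c1, b1⟩ := h.use P E (by omega) hb hs
  obtain ⟨m2, t2, x2, v2, k2, c2, b2⟩ := h'.use P E (by omega) (k1.bd hb) (k1.sm hs)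
  rw [hG _ _ k1.eqv] at v2 b2
  have v3 : m2 5 d = F m := (k2 5 d (Or.inr (by omega))).trans v1
  have v4 : g (m2 5 d) (m2 5 (d + 1)) = g (F m) (G m) := by rw [v2, v3]
  have b3 : g (F m) (G m) ≤ V ^ (k + k' + 1) := by
    rcases hg (F m) (G m) with h1 | h1
    · exact h1.trans ((Nat.add_le_add b1 b2).trans (comp_pow_add E.h2 _ _))
    · exact E.comp_le (h1.trans ((Nat.mul_le_mul b1 b2).trans_eq (pow_add _ _ _).symm)) (by omega)
  refine ⟨_, _, x1.seq (x2.seq (comp_st 5 (E.comp_lt (by omega)) (hf _ _ _ _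
    ⟨E.comp_lt (by omega), v3.trans_lt (E.comp_pow b1 (by omega))⟩
    ⟨E.comp_lt (by omega), v2.trans_lt (E.comp_pow b2 (by omega))⟩
    (v4.trans_lt (E.comp_pow b3 (by omega)))))), (m2.set_same _ _ _).trans ((he _ _ _).trans v4),
    (k1.trans k2 (by omega)).set le_rfl _, ?_, E.comp_le b3 (by omega)⟩
  have := E.comp_one (k + k' + d + 9)
  simp only [add_mul, hc, Expr.cost, compCell]
  omega

theorem comp_ifz {k'' : ℕ} (h : Cp F d c k) (h' : Cp G d c' k') (h'' : Cp H d c'' k'')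
    (hG : CompInv G) (hH : CompInv H) :
    ∃ c κ, Cp (fun m => if F m = 0 then G m else H m) d c κ := by
  refine ⟨.seq c (.ifz (compCell 5 d) c' c''), k + k' + k'' + d + 4, fun P B V R m E hb hs => ?_⟩
  obtain ⟨m1, t1, x1, v1, k1, c1, b1⟩ := h.use P E (by omega) hb hs
  have f1 : (compCell 5 d).Fits B m1 :=
    ⟨E.comp_lt (by omega), v1.trans_lt (E.comp_pow b1 (by omega))⟩
  have := E.comp_one (k + k' + k'' + d + 4)
  by_cases h0 : F m = 0
  · obtain ⟨m2, t2, x2, v2, k2, c2, b2⟩ := h'.use P E (by omega) (k1.bd hb) (k1.sm hs)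
    rw [hG _ _ k1.eqv] at v2 b2
    simp only [if_pos h0]
    refine ⟨_, _, x1.seq (Exec.ifzero f1 (v1.trans h0) x2), v2, k1.trans k2 le_rfl, ?_,
      E.comp_le b2 (by omega)⟩
    simp only [add_mul, Expr.cost, compCell]
    omega
  · obtain ⟨m2, t2, x2, v2, k2, c2, b2⟩ := h''.use P E (by omega) (k1.bd hb) (k1.sm hs)
    rw [hH _ _ k1.eqv] at v2 b2
    simp only [if_neg h0]
    refine ⟨_, _, x1.seq (Exec.ifpos f1 (v1.trans_ne h0) x2), v2, k1.trans k2 le_rfl, ?_,
      E.comp_le b2 (by omega)⟩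
    simp only [add_mul, Expr.cost, compCell]
    omega

/-- Saving and restoring a variable. -/
theorem comp_scope (h : CpX x F (d + 1) c k) (hF : CompInv F) : ∃ c κ, Cp F d c κ := by
  refine ⟨.seq (.store 5 (.const d) (compCell 6 x)) (.seq c (.seq
    (.store 6 (.const x) (compCell 5 d)) (.store 5 (.const d) (compCell 5 (d + 1))))),
    k + d + x + 15, fun P B V R m E hb hs => ?_⟩
  have hd : d < B := E.comp_lt (by omega)
  have hx : x < B := E.comp_lt (by omega)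
  have b0 : m 6 x < B := E.comp_val (hb 6 x (by decide)) (by omega)
  have k0 : CompKeep d m (m.set 5 d (m 6 x)) := CompKeep.set (fun _ _ _ => rfl) le_rfl _
  obtain ⟨m1, t1, w, x1, v1, k1, c1, b1⟩ := h P B V R _ (E.mono (by omega)) (k0.bd hb) (k0.sm hs)
  rw [hF _ _ k0.eqv] at v1 b1
  have v2 : m1 5 d = m 6 x := by
    rw [k1 5 d (Or.inr (by omega)), Mem.set_arr _ _ _ (by decide), Mem.set_same]
  have v3 : m1.set 6 x (m1 5 d) 5 (d + 1) = F m := by rw [Mem.set_arr _ _ _ (by decide), v1]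
  refine ⟨_, _, (comp_mv 5 6 hd hx b0).seq (x1.seq ((comp_mv 6 5 hx hd (v2.trans_lt b0)).seq
    (comp_mv 5 5 hd (E.comp_lt (by omega)) (v3.trans_lt (E.comp_pow b1 (by omega)))))),
    (Mem.set_same _ _ _ _).trans v3, CompKeep.set (fun a i ha => ?_) le_rfl _, ?_,
    E.comp_le b1 (by omega)⟩
  · rw [((k0.var x w).trans k1 (by omega)).var' _ a i ha, v2, Mem.set_apply]
    split_ifs with h1
    · rw [h1.1, h1.2]
    · rfl
  · have := E.comp_one (k + d + x + 15)
    have := E.comp_cost c1 (show k ≤ k + d + x + 15 by omega)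
    simp only [add_mul]
    omega

theorem comp_let (h : Cp F d c k) (h' : Cp G d c' k') (hG : CompInv G) (x : ℕ) :
    ∃ c κ, CpX x (fun m => G (m.set 6 x (F m))) d c κ := by
  refine ⟨.seq c (.seq (.store 6 (.const x) (compCell 5 d)) c'),
    (k + 1) * k' + k + k' + d + x + 6, fun P B V R m E hb hs => ?_⟩
  obtain ⟨m1, t1, x1, v1, k1, c1, b1⟩ := h.use P E (by omega) hb hs
  have hV : V ≤ V ^ (k + 1) := E.comp_le (k := 1) (by simp) (by omega)
  have E' : Env B (V ^ (k + 1)) R k' := ⟨by have := E.hκ; omega,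
    E.comp_pow (pow_mul _ _ _).symm.le (by omega), E.hR, E.hRV.trans hV, E.h2.trans hV⟩
  have hb1 : Bd (V ^ (k + 1)) m1 := fun a i ha => (k1.bd hb a i ha).trans hV
  obtain ⟨m2, t2, x2, v2, k2, c2, b2⟩ := h' P B _ R (m1.set 6 x (m1 5 d)) E'
    (hb1.comp_set _ _ (v1.trans_le (E.comp_le b1 (by omega)))) ((k1.sm hs).comp_set _ _)
  rw [hG _ _ (k1.var x _).eqv, v1] at v2 b2
  refine ⟨_, _, _, x1.seq ((comp_mv 6 5 (E.comp_lt (by omega)) (E.comp_lt (by omega))
    (v1.trans_lt (E.comp_pow b1 (by omega)))).seq x2), v2, (k1.var x _).trans k2 le_rfl, ?_,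
    E.comp_le (b2.trans_eq (pow_mul _ _ _).symm) (by omega)⟩
  have := E.comp_one ((k + 1) * k' + k + k' + d + x + 6)
  have := E.comp_cost c2 (show k' ≤ (k + 1) * k' + k + k' + d + x + 6 by omega)
  generalize (k + 1) * k' = n at *
  simp only [add_mul]
  omega

/-- The loop of a fold. -/
def compLoop (x r d : ℕ) (c : Cmd) (op : Expr) : Cmd :=
  .loop (.sub (compCell 7 r) (compCell 6 x)) (.seq c (.seq (.store 5 (.const d) op)
    (.store 6 (.const x) (.add (compCell 6 x) (.const 1)))))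

theorem comp_loop (h : Cp G (d + 1) c k) (hG : CompInv G) {op : Expr} {g : ℕ → ℕ → ℕ}
    (he : ∀ m, op.eval m = g (m 5 d) (m 5 (d + 1)))
    (hf : ∀ B m, d + 1 < B → m 5 d + m 5 (d + 1) < B → op.Fits B m) (hg : ∀ a b, g a b ≤ a + b)
    (P : List Cmd) (E : Env B V R κ) (hk : k + k' + x + r + d + 2 ≤ κ) (hb : Bd V m) (hs : Sm R m)
    {A : ℕ → ℕ} (hA : ∀ t, A (t + 1) = g (A t) (G (m.set 6 x t))) (s : ℕ) :
    ∀ t m1, t + s = m 7 r → CompKeep d (m.set 6 x t) m1 → m1 5 d = A t →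
      A t ≤ V ^ k' + t * V ^ k → ∃ m2 T, Exec P B (compLoop x r d c op) m1 m2 T ∧
        m2 5 d = A (m 7 r) ∧ CompKeep d (m.set 6 x (m 7 r)) m2 ∧
        T ≤ s * (k * R ^ k + (op.cost + 16)) + 6 ∧ A (m 7 r) ≤ V ^ k' + m 7 r * V ^ k := by
  have hn : m 7 r ≤ V := (hs r).trans E.hRV
  have hx : x < B := E.comp_lt (by omega)
  have key : ∀ t m1, t ≤ m 7 r → CompKeep d (m.set 6 x t) m1 →
      (Expr.sub (compCell 7 r) (compCell 6 x)).Fits B m1 ∧
      (Expr.sub (compCell 7 r) (compCell 6 x)).eval m1 = m 7 r - t := fun t m1 ht k1 => by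
    have e1 : m1 7 r = m 7 r := by rw [k1 7 r (Or.inl (by decide)), Mem.set_arr _ _ _ (by decide)]
    have e2 : m1 6 x = t := by rw [k1 6 x (Or.inl (by decide)), Mem.set_same]
    exact ⟨⟨⟨E.comp_lt (by omega), e1.trans_lt (E.comp_val hn (by omega))⟩,
      ⟨hx, e2.trans_lt (E.comp_val (ht.trans hn) (by omega))⟩⟩, congrArg₂ (· - ·) e1 e2⟩
  induction s with
  | zero =>
    intro t m1 ht k1 v1 b1
    obtain rfl : t = m 7 r := ht
    obtain ⟨f1, f2⟩ := key _ m1 le_rfl k1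
    exact ⟨m1, _, Exec.loopdone f1 (f2.trans (Nat.sub_self _)), v1, k1,
      by simp [Expr.cost, compCell], b1⟩
  | succ s ih =>
    intro t m1 ht k1 v1 b1
    obtain ⟨f1, f2⟩ := key t m1 (by omega) k1
    obtain ⟨m2, t2, x2, v2, k2, c2, b2⟩ := h P B V R m1 (E.mono (by omega))
      (k1.bd (hb.comp_set _ _ (by omega))) (k1.sm (hs.comp_set _ _))
    rw [hG _ _ k1.eqv] at v2 b2
    have v3 : m2 5 d = A t := (k2 5 d (Or.inr (by omega))).trans v1
    have b3 : A t + G (m.set 6 x t) ≤ V ^ k' + (t + 1) * V ^ k := by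
      rw [add_mul, one_mul]
      omega
    have b4 : V ^ k' + (t + 1) * V ^ k < B := by
      refine E.comp_pow (le_trans ?_ (comp_pow_add E.h2 k' (k + 1))) (by omega)
      rw [pow_succ']
      exact Nat.add_le_add_left (Nat.mul_le_mul_right _ (by omega)) _
    have v4 : op.eval m2 = A (t + 1) := by rw [he, v2, v3, hA]
    have k3 : CompKeep d (m.set 6 x t) (m2.set 5 d (op.eval m2)) :=
      (k1.trans k2 (by omega)).set le_rfl _
    have v5 : m2.set 5 d (op.eval m2) 6 x = t := by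
      rw [k3 6 x (Or.inl (by decide)), Mem.set_same]
    have v6 : (Expr.add (compCell 6 x) (.const 1)).eval (m2.set 5 d (op.eval m2)) = t + 1 :=
      congrArg (· + 1) v5
    have x3 := comp_st (P := P) (v := .add (compCell 6 x) (.const 1))
      (m := m2.set 5 d (op.eval m2)) 6 hx ⟨⟨hx, v5.trans_lt (E.comp_val (by omega) (by omega))⟩,
        E.comp_lt (v := 1) (by omega), v6.trans_lt (E.comp_val (by omega) (by omega))⟩
    rw [v6] at x3
    obtain ⟨m5, T, x5, v7, k5, c5, b5⟩ := ih (t + 1) _ (by omega) (k3.var' (t + 1))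
      (by rw [Mem.set_arr _ _ _ (by decide), Mem.set_same, v4])
      (by rw [hA]; exact (hg _ _).trans b3)
    refine ⟨m5, _, Exec.loopstep f1 (by omega) (x2.seq ((comp_st 5 (E.comp_lt (by omega))
      (hf _ _ (E.comp_lt (by omega)) (by rw [v2, v3]; omega))).seq x3)) x5, v7, k5, ?_, b5⟩
    simp only [add_mul, one_mul, Expr.cost, compCell]
    omega

theorem comp_fold (h' : Cp F d c' k') (h : Cp G (d + 1) c k) (hG : CompInv G) {op : Expr}
    {g : ℕ → ℕ → ℕ} (he : ∀ m, op.eval m = g (m 5 d) (m 5 (d + 1)))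
    (hf : ∀ B m, d + 1 < B → m 5 d + m 5 (d + 1) < B → op.Fits B m) (hg : ∀ a b, g a b ≤ a + b)
    (x r : ℕ) {A : Mem → ℕ → ℕ} (h0 : ∀ m, A m 0 = F m)
    (hA : ∀ m t, A m (t + 1) = g (A m t) (G (m.set 6 x t))) :
    ∃ c κ, CpX x (fun m => A m (m 7 r)) d c κ := by
  refine ⟨.seq c' (.seq (.store 6 (.const x) (.const 0)) (compLoop x r d c op)),
    k + k' + x + r + d + op.cost + 27, fun P B V R m E hb hs => ?_⟩
  obtain ⟨m1, t1, x1, v1, k1, c1, b1⟩ := h'.use P E (by omega) hb hs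
  obtain ⟨m2, T, x2, v2, k2, c2, b2⟩ := comp_loop (k' := k') (r := r) h hG he hf hg P E (by omega)
    hb hs (hA m) (m 7 r) 0 _ (zero_add _) (k1.var x 0)
    (by rw [Mem.set_arr _ _ _ (by decide), v1, h0]) (by rw [h0]; omega)
  refine ⟨_, _, _, x1.seq ((comp_st (v := .const 0) 6 (E.comp_lt (by omega))
    (E.comp_lt (by omega))).seq x2), v2, k2, ?_,
    E.comp_le (b2.trans (le_trans ?_ (comp_pow_add E.h2 k' (k + 1)))) (by omega)⟩
  · have h1 := E.comp_one (k + k' + x + r + d + op.cost + 27)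
    have h2 : R * R ^ k ≤ R ^ (k + k' + x + r + d + op.cost + 27) :=
      (pow_succ' _ _).symm.trans_le (Nat.pow_le_pow_right E.hR (by omega))
    have h3 : R ≤ R ^ (k + k' + x + r + d + op.cost + 27) :=
      (pow_one _).symm.trans_le (Nat.pow_le_pow_right E.hR (by omega))
    have h4 := Nat.mul_le_mul_right (k * R ^ k + (op.cost + 16)) (hs r)
    have h5 := Nat.mul_le_mul_left k h2
    have h6 := Nat.mul_le_mul_left (op.cost + 16) h3
    have h7 : R * (k * R ^ k + (op.cost + 16)) = k * (R * R ^ k) + (op.cost + 16) * R := by ring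
    simp only [add_mul, Expr.cost] at h6 h7 ⊢
    omega
  · rw [pow_succ']
    exact Nat.add_le_add_left (Nat.mul_le_mul_right _ ((hs r).trans E.hRV)) _

end

theorem comp_inv {e : FE} (he : e.noRd 5 = true) : CompInv e.eval :=
  fun _ _ h => FE.eval_congr he (by decide) (by decide) h

/-- Compilation: the value of `e` is put in cell `d` of the scratch stack, cells below `d` and all
other arrays are unchanged. -/
theorem comp_ex (e : FE) (he : e.noRd 5 = true) (d : ℕ) :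
    ∃ (c : Cmd) (κ : ℕ), ∀ (P : List Cmd) (B V R : ℕ) (m : Mem), Env B V R κ → Bd V m → Sm R m →
      ∃ m' t, Exec P B c m m' t ∧ m' 5 d = e.eval m ∧
        (∀ a i, (a ≠ 5 ∨ i < d) → m' a i = m a i) ∧ t ≤ κ * R ^ κ ∧ e.eval m ≤ V ^ κ := by
  show ∃ c κ, Cp e.eval d c κ
  induction e generalizing d with
  | c k => exact comp_c k d
  | v x => exact comp_v x d
  | rd a e ih =>
    simp only [FE.noRd, Bool.and_eq_true, bne_iff_ne] at he
    obtain ⟨c, k, h⟩ := ih he.2 d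
    exact comp_rd h he.1
  | add e f i1 i2 =>
    simp only [FE.noRd, Bool.and_eq_true] at he
    obtain ⟨c, k, h⟩ := i1 he.1 d
    obtain ⟨c', k', h'⟩ := i2 he.2 (d + 1)
    exact comp_bin h h' (comp_inv he.2) .add (· + ·) (fun _ _ _ => rfl) (fun _ _ => rfl)
      (fun _ _ _ _ a b c => ⟨a, b, c⟩) fun a b => Or.inl le_rfl
  | sub e f i1 i2 =>
    simp only [FE.noRd, Bool.and_eq_true] at he
    obtain ⟨c, k, h⟩ := i1 he.1 d
    obtain ⟨c', k', h'⟩ := i2 he.2 (d + 1)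
    exact comp_bin h h' (comp_inv he.2) .sub (· - ·) (fun _ _ _ => rfl) (fun _ _ => rfl)
      (fun _ _ _ _ a b _ => ⟨a, b⟩) fun a b => Or.inl ((Nat.sub_le a b).trans le_self_add)
  | mul e f i1 i2 =>
    simp only [FE.noRd, Bool.and_eq_true] at he
    obtain ⟨c, k, h⟩ := i1 he.1 d
    obtain ⟨c', k', h'⟩ := i2 he.2 (d + 1)
    exact comp_bin h h' (comp_inv he.2) .mul (· * ·) (fun _ _ _ => rfl) (fun _ _ => rfl)
      (fun _ _ _ _ a b c => ⟨a, b, c⟩) fun a b => Or.inr le_rfl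
  | div e f i1 i2 =>
    simp only [FE.noRd, Bool.and_eq_true] at he
    obtain ⟨c, k, h⟩ := i1 he.1 d
    obtain ⟨c', k', h'⟩ := i2 he.2 (d + 1)
    exact comp_bin h h' (comp_inv he.2) .div (· / ·) (fun _ _ _ => rfl) (fun _ _ => rfl)
      (fun _ _ _ _ a b _ => ⟨a, b⟩) fun a b => Or.inl ((Nat.div_le_self a b).trans le_self_add)
  | mod e f i1 i2 =>
    simp only [FE.noRd, Bool.and_eq_true] at he
    obtain ⟨c, k, h⟩ := i1 he.1 d
    obtain ⟨c', k', h'⟩ := i2 he.2 (d + 1)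
    exact comp_bin h h' (comp_inv he.2) .mod (· % ·) (fun _ _ _ => rfl) (fun _ _ => rfl)
      (fun _ _ _ _ a b _ => ⟨a, b⟩) fun a b => Or.inl ((Nat.mod_le a b).trans le_self_add)
  | ifz e f g i1 i2 i3 =>
    simp only [FE.noRd, Bool.and_eq_true] at he
    obtain ⟨c, k, h⟩ := i1 he.1.1 d
    obtain ⟨c', k', h'⟩ := i2 he.1.2 d
    obtain ⟨c'', k'', h''⟩ := i3 he.2 d
    exact comp_ifz h h' h'' (comp_inv he.1.2) (comp_inv he.2)
  | lt x e f i1 i2 =>
    have hI := comp_inv he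
    simp only [FE.noRd, Bool.and_eq_true] at he
    obtain ⟨c, k, h⟩ := i1 he.1 (d + 1)
    obtain ⟨c', k', h'⟩ := i2 he.2 (d + 1)
    obtain ⟨c'', k'', h''⟩ := comp_let h h' (comp_inv he.2) x
    exact comp_scope h'' hI
  | sum x r e ih =>
    obtain ⟨c, k, h⟩ := ih he (d + 1 + 1)
    obtain ⟨c', k', h'⟩ := comp_c 0 (d + 1)
    obtain ⟨c'', k'', h''⟩ := comp_fold h' h (comp_inv (e := e) he)
      (op := .add (compCell 5 (d + 1)) (compCell 5 (d + 1 + 1))) (g := (· + ·)) (fun _ => rfl)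
      (fun B m h1 h2 => ⟨⟨Nat.lt_of_succ_lt h1, lt_of_le_of_lt le_self_add h2⟩,
        ⟨h1, lt_of_le_of_lt le_add_self h2⟩, h2⟩) (fun _ _ => le_rfl) x r
      (A := fun m n => ∑ t ∈ range n, e.eval (m.set 6 x t)) (fun _ => rfl)
      fun m t => sum_range_succ _ _
    exact comp_scope h'' (comp_inv he)
  | mn x r i e i1 i2 =>
    have hI := comp_inv he
    simp only [FE.noRd, Bool.and_eq_true] at he
    obtain ⟨c, k, h⟩ := i2 he.2 (d + 1 + 1)
    obtain ⟨c', k', h'⟩ := i1 he.1 (d + 1)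
    obtain ⟨c'', k'', h''⟩ := comp_fold h' h (comp_inv he.2)
      (op := .sub (compCell 5 (d + 1)) (.sub (compCell 5 (d + 1)) (compCell 5 (d + 1 + 1))))
      (g := fun a b => a - (a - b)) (fun _ => rfl)
      (fun B m h1 h2 => ⟨⟨Nat.lt_of_succ_lt h1, lt_of_le_of_lt le_self_add h2⟩,
        ⟨Nat.lt_of_succ_lt h1, lt_of_le_of_lt le_self_add h2⟩, h1, lt_of_le_of_lt le_add_self h2⟩)
      (fun a b => (Nat.sub_le _ _).trans le_self_add) x r
      (A := fun m n => (range n).fold min (i.eval m) fun t => e.eval (m.set 6 x t)) (fun _ => rfl)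
      fun m t => by
        rw [range_add_one, fold_insert notMem_range_self]
        omega
    exact comp_scope h'' hI

end Vale.Agent.P315
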