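import Vale.Agent.P315.Defs

namespace Vale.Agent.P315

open Finset

theorem av_const {σ : Type} [Fintype σ] [Nonempty σ] (c : ℝ) : av (fun _ : σ => c) = c := by
  have : (Fintype.card σ : ℝ) ≠ 0 := Nat.cast_ne_zero.2 Fintype.card_ne_zero
  rw [av, sum_const, card_univ, nsmul_eq_mul, mul_div_cancel_left₀ _ this]

theorem av_mono {σ : Type} [Fintype σ] {f g : σ → ℝ} (h : ∀ s, f s ≤ g s) : av f ≤ av g :=
  div_le_div_of_nonneg_right (sum_le_sum fun s _ => h s) (Nat.cast_nonneg _)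

theorem av_add {σ : Type} [Fintype σ] (f g : σ → ℝ) :
    av (fun s => f s + g s) = av f + av g := by
  simp only [av, sum_add_distrib, add_div]

theorem av_mul {σ : Type} [Fintype σ] (c : ℝ) (f : σ → ℝ) : av (fun s => c * f s) = c * av f := by
  simp only [av, ← mul_sum, mul_div_assoc]

theorem av_sum {σ ι : Type} [Fintype σ] (I : Finset ι) (f : ι → σ → ℝ) :
    av (fun s => ∑ i ∈ I, f i s) = ∑ i ∈ I, av (f i) := by
  simp only [av]
  rw [sum_comm, sum_div]

theorem abs_av_le {σ : Type} [Fintype σ] (f : σ → ℝ) : |av f| ≤ av (fun s => |f s|) := by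
  rw [av, av, abs_div, Nat.abs_cast]
  exact div_le_div_of_nonneg_right (abs_sum_le_sum_abs _ _) (Nat.cast_nonneg _)

theorem av_equiv {σ σ' : Type} [Fintype σ] [Fintype σ'] (e : σ ≃ σ') (f : σ' → ℝ) :
    av (fun s => f (e s)) = av f := by
  rw [av, av, e.sum_comp f, Fintype.card_congr e]

theorem av_prod {σ σ' : Type} [Fintype σ] [Fintype σ'] (f : σ × σ' → ℝ) :
    av f = av (fun s => av (fun s' => f (s, s'))) := by
  simp only [av]
  rw [Fintype.sum_prod_type, Fintype.card_prod, ← sum_div, div_div, Nat.cast_mul, mul_comm]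

open Classical in
theorem pr_eq_av {σ : Type} [Fintype σ] (p : σ → Prop) :
    pr p = av (fun s => if p s then 1 else 0) := by
  rw [pr, av, sum_boole]

theorem pr_mono {σ : Type} [Fintype σ] {p q : σ → Prop} (h : ∀ s, p s → q s) : pr p ≤ pr q := by
  rw [pr_eq_av, pr_eq_av]
  refine av_mono fun s => ?_
  by_cases hp : p s
  · simp [hp, h s hp]
  · rw [if_neg hp]
    split_ifs <;> norm_num

theorem pr_not {σ : Type} [Fintype σ] [Nonempty σ] (p : σ → Prop) :
    pr (fun s => ¬ p s) = 1 - pr p := by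
  classical
  rw [eq_sub_iff_add_eq, pr_eq_av, pr_eq_av, ← av_add]
  refine Eq.trans (congrArg av (funext fun s => ?_)) (av_const (σ := σ) 1)
  by_cases hp : p s <;> simp [hp]

theorem pr_equiv {σ σ' : Type} [Fintype σ] [Fintype σ'] (e : σ ≃ σ') (p : σ' → Prop) :
    pr (fun s => p (e s)) = pr p := by
  rw [pr_eq_av, pr_eq_av, ← av_equiv e]

theorem pr_union {σ ι : Type} [Fintype σ] (I : Finset ι) (p : ι → σ → Prop) {δ : ℝ}
    (h : ∀ i ∈ I, pr (p i) ≤ δ) : pr (fun s => ∃ i ∈ I, p i s) ≤ I.card * δ := by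
  classical
  have h1 := sum_le_card_nsmul I _ δ h
  rw [nsmul_eq_mul] at h1
  refine le_trans ?_ h1
  simp only [pr_eq_av]
  rw [← av_sum]
  refine av_mono fun s => ?_
  have h0 : ∀ i ∈ I, (0 : ℝ) ≤ if p i s then 1 else 0 := fun i _ => by split_ifs <;> norm_num
  by_cases hp : ∃ i ∈ I, p i s
  · rw [if_pos hp]
    obtain ⟨i, hi, hs⟩ := hp
    simpa [hs] using single_le_sum h0 hi
  · rw [if_neg hp]
    exact sum_nonneg h0

/-- Resampling the coordinates in the range of an injection does not change the law. -/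
theorem pr_resample {ι : Type} [Fintype ι] [DecidableEq ι] {R : ℕ} (e : ι → Fin R)
    (he : Function.Injective e) (p : (Fin R → Bool) → Prop) {δ : ℝ}
    (h : ∀ r : Fin R → Bool, pr (fun s : ι → Bool => p (Function.extend e s r)) ≤ δ) :
    pr p ≤ δ := by
  classical
  have hinv : Function.Involutive fun q : (Fin R → Bool) × (ι → Bool) =>
      (Function.extend e q.2 q.1, q.1 ∘ e) := by
    rintro ⟨r, s⟩
    refine Prod.ext (funext fun x => ?_) (Function.extend_comp he _ _)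
    by_cases hx : ∃ i, e i = x
    · obtain ⟨i, rfl⟩ := hx
      exact he.extend_apply _ _ _
    · exact (Function.extend_apply' _ _ _ hx).trans (Function.extend_apply' _ _ _ hx)
  have h1 : pr p = pr fun q : (Fin R → Bool) × (ι → Bool) => p q.1 := by
    rw [pr_eq_av, pr_eq_av, av_prod]
    exact congrArg av (funext fun r => (av_const _).symm)
  rw [h1, ← pr_equiv hinv.toPerm, pr_eq_av, av_prod, ← av_const (σ := Fin R → Bool) δ]
  refine av_mono fun r => le_trans (le_of_eq ?_) (h r)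
  rw [pr_eq_av]
  rfl

/-- Exponential moment of a sum of independent centred bounded terms. -/
theorem mgf_le {σ ι : Type} [Fintype σ] [Nonempty σ] [Fintype ι] [DecidableEq ι]
    (ξ : ι → σ → ℝ) {B t : ℝ} (h0 : ∀ i, av (ξ i) = 0) (hB : ∀ i s, |ξ i s| ≤ B)
    (ht : |t| * B ≤ 1) :
    av (fun u : ι → σ => Real.exp (t * ∑ i, ξ i (u i))) ≤
      Real.exp (Fintype.card ι * (t * B) ^ 2) := by
  have h1 : av (fun u : ι → σ => Real.exp (t * ∑ i, ξ i (u i))) =
      ∏ i, av (fun s => Real.exp (t * ξ i s)) := by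
    simp only [av, mul_sum, Real.exp_sum]
    rw [prod_div_distrib, prod_univ_sum, Fintype.piFinset_univ, prod_const, card_univ,
      Fintype.card_fun, Nat.cast_pow]
  have h2 : ∀ i, av (fun s => Real.exp (t * ξ i s)) ≤ Real.exp ((t * B) ^ 2) := by
    intro i
    have h3 : av (fun s => Real.exp (t * ξ i s)) ≤ av (fun s => (t * B) ^ 2 + 1 + t * ξ i s) := by
      refine av_mono fun s => ?_
      have e1 : |t * ξ i s| ≤ |t| * B := by
        rw [abs_mul]
        exact mul_le_mul_of_nonneg_left (hB i s) (abs_nonneg _)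
      have e2 := (abs_le.1 (Real.abs_exp_sub_one_sub_id_le (e1.trans ht))).2
      have e3 := pow_le_pow_left₀ (abs_nonneg _) e1 2
      rw [sq_abs, mul_pow |t|, sq_abs, ← mul_pow] at e3
      linarith
    rw [av_add, av_const, av_mul, h0, mul_zero, add_zero] at h3
    exact h3.trans (Real.add_one_le_exp _)
  rw [h1, Real.exp_nat_mul, ← card_univ, ← prod_const]
  exact prod_le_prod (fun i _ => div_nonneg (sum_nonneg fun _ _ => (Real.exp_pos _).le)
    (Nat.cast_nonneg _)) fun i _ => h2 i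


theorem Conc_two {σ ι : Type} [Fintype σ] [Nonempty σ] [Fintype ι] [DecidableEq ι]
    (ξ : ι → σ → ℝ) {B t : ℝ} (h0 : ∀ i, av (ξ i) = 0) (hB : ∀ i s, |ξ i s| ≤ B)
    (ht : |t| * B ≤ 1) :
    av (fun u : ι → σ => Real.exp (t * ∑ i, ξ i (u i)) + Real.exp (-t * ∑ i, ξ i (u i))) ≤
      2 * Real.exp (Fintype.card ι * (t * B) ^ 2) := by
  have h1 := mgf_le ξ h0 hB ht
  have h2 := mgf_le ξ (t := -t) h0 hB (by rwa [abs_neg])
  rw [neg_mul t B, neg_sq] at h2
  rw [av_add]
  linarith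

theorem Conc_abs {t : ℝ} (x : ℝ) : Real.exp (t * |x|) ≤ Real.exp (t * x) + Real.exp (-t * x) := by
  rcases abs_cases x with h | h
  · rw [h.1]
    linarith [Real.exp_pos (-t * x)]
  · rw [h.1, mul_neg, neg_mul]
    linarith [Real.exp_pos (t * x)]



/-- Expected maximum of at most `M` such sums. -/
theorem emax_le {σ ι κ : Type} [Fintype σ] [Nonempty σ] [Fintype ι] [DecidableEq ι]
    (I : Finset κ) {M : ℕ} (hM : 1 ≤ M) (hI : I.card ≤ M) (ξ : κ → ι → σ → ℝ) {B : ℝ}
    (hB0 : 0 < B) (h0 : ∀ w ∈ I, ∀ i, av (ξ w i) = 0) (hB : ∀ w ∈ I, ∀ i s, |ξ w i s| ≤ B)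
    (hn : Real.log (2 * M) ≤ Fintype.card ι) (Mx : (ι → σ) → ℝ)
    (hMx : ∀ u, Mx u ≤ 0 ∨ ∃ w ∈ I, Mx u ≤ |∑ i, ξ w i (u i)|) :
    av Mx ≤ 2 * B * Real.sqrt (Fintype.card ι * Real.log (2 * M)) := by
  have hM' : (1 : ℝ) ≤ M := by exact_mod_cast hM
  set L := Real.log (2 * M) with hL
  have hL1 : 1 / 2 ≤ L :=
    le_trans (by linarith [Real.log_two_gt_d9]) (Real.log_le_log two_pos (by linarith))
  have hn0 : (0 : ℝ) < Fintype.card ι := by linarith
  have hs : 0 < √(L / Fintype.card ι) := Real.sqrt_pos.2 (by positivity)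
  set t := √(L / Fintype.card ι) / B with ht
  have ht0 : 0 < t := by positivity
  have htB : t * B = √(L / Fintype.card ι) := div_mul_cancel₀ _ hB0.ne'
  have ht1 : |t| * B ≤ 1 := by
    rw [abs_of_pos ht0, htB]
    exact Real.sqrt_le_one.2 ((div_le_one hn0).2 hn)
  have hE : Real.exp (Fintype.card ι * (t * B) ^ 2) = 2 * M := by
    rw [htB, Real.sq_sqrt (by positivity), mul_div_cancel₀ _ hn0.ne', hL,
      Real.exp_log (by positivity)]
  have h1 : av (fun u => t * Mx u) ≤ av (fun u : ι → σ => 2 * L - 1 + ((2 * M : ℝ) ^ 2)⁻¹ *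
      ∑ w ∈ I, (Real.exp (t * ∑ i, ξ w i (u i)) + Real.exp (-t * ∑ i, ξ w i (u i)))) := by
    refine av_mono fun u => ?_
    have p0 : ∀ w ∈ I, 0 ≤ Real.exp (t * ∑ i, ξ w i (u i)) + Real.exp (-t * ∑ i, ξ w i (u i)) :=
      fun w _ => by positivity
    rcases hMx u with h | ⟨w, hw, h⟩
    · have := mul_nonneg (by positivity : 0 ≤ ((2 * M : ℝ) ^ 2)⁻¹) (sum_nonneg p0)
      nlinarith
    · have e1 := Real.add_one_le_exp (t * Mx u - 2 * L)
      have e2 : Real.exp (t * Mx u - 2 * L) = ((2 * M : ℝ) ^ 2)⁻¹ * Real.exp (t * Mx u) := by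
        rw [Real.exp_sub, two_mul L, Real.exp_add, hL, Real.exp_log (by positivity), ← sq,
          div_eq_inv_mul]
      have e3 := (Real.exp_le_exp.2 (mul_le_mul_of_nonneg_left h ht0.le)).trans
        ((Conc_abs _).trans (single_le_sum p0 hw))
      have e4 := mul_le_mul_of_nonneg_left e3 (by positivity : 0 ≤ ((2 * M : ℝ) ^ 2)⁻¹)
      linarith
  rw [av_mul, av_add, av_const, av_mul, av_sum] at h1
  have h2 := sum_le_card_nsmul I _ _ fun w hw => Conc_two (ξ w) (h0 w hw) (hB w hw) ht1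
  rw [hE, nsmul_eq_mul] at h2
  have h3 : (I.card : ℝ) ≤ M := by exact_mod_cast hI
  have h4 : ((2 * M : ℝ) ^ 2)⁻¹ * (I.card * (2 * (2 * M))) ≤ 1 := by
    rw [inv_mul_le_iff₀ (by positivity)]
    nlinarith
  have h5 := mul_le_mul_of_nonneg_left h2 (by positivity : 0 ≤ ((2 * M : ℝ) ^ 2)⁻¹)
  have h6 : t * (2 * B * √(Fintype.card ι * L)) = 2 * L := by
    have : √(L / Fintype.card ι) * √(Fintype.card ι * L) = L := by
      rw [← Real.sqrt_mul (by positivity), ← mul_assoc, div_mul_cancel₀ _ hn0.ne',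
        Real.sqrt_mul_self (by linarith)]
    calc _ = 2 * (t * B * √(Fintype.card ι * L)) := by ring
      _ = _ := by rw [htB, this]
  exact le_of_mul_le_mul_left (by linarith) ht0

/-- Hoeffding bound for an empirical mean. -/
theorem hoeffding {σ : Type} [Fintype σ] [Nonempty σ] (X : σ → ℝ) {Rv : ℝ} (hR : 1 ≤ Rv)
    (hX : ∀ s, 0 ≤ X s ∧ X s ≤ Rv) {S : ℕ} (hS : 1 ≤ S) :
    pr (fun u : Fin S → σ => 1 < |(∑ s, X (u s)) / S - av X|) ≤
      2 * Real.exp (-(S : ℝ) / (4 * Rv ^ 2)) := by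
  classical
  have hS' : (0 : ℝ) < S := by exact_mod_cast hS
  have a0 : 0 ≤ av X := (av_const (σ := σ) 0).symm.trans_le (av_mono fun s => (hX s).1)
  have a1 : av X ≤ Rv := (av_mono fun s => (hX s).2).trans_eq (av_const Rv)
  set t := 1 / (2 * Rv ^ 2) with ht
  have ht0 : 0 < t := by positivity
  have h1 := Conc_two (ι := Fin S) (fun _ s => X s + -av X) (B := Rv) (t := t)
    (fun _ => by rw [av_add, av_const, add_neg_cancel])
    (fun _ s => abs_le.2 ⟨by linarith [(hX s).1], by linarith [(hX s).2]⟩) (by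
      rw [abs_of_pos ht0, ht, div_mul_eq_mul_div, div_le_one (by positivity)]
      nlinarith)
  have h2 : pr (fun u : Fin S → σ => 1 < |(∑ s, X (u s)) / S - av X|) ≤
      av (fun u : Fin S → σ => Real.exp (-(t * S)) * (Real.exp (t * ∑ i, (X (u i) + -av X)) +
        Real.exp (-t * ∑ i, (X (u i) + -av X)))) := by
    rw [pr_eq_av]
    refine av_mono fun u => ?_
    split_ifs with h
    · have e1 : ∑ i, (X (u i) + -av X) = S * ((∑ s, X (u s)) / S - av X) := by
        rw [sum_add_distrib, sum_const, card_univ, Fintype.card_fin, nsmul_eq_mul, mul_sub,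
          mul_div_cancel₀ _ hS'.ne']
        ring
      have e2 : (S : ℝ) ≤ |∑ i, (X (u i) + -av X)| := by
        rw [e1, abs_mul, abs_of_pos hS']
        nlinarith
      rw [Real.exp_neg, le_inv_mul_iff₀ (Real.exp_pos _), mul_one]
      exact (Real.exp_le_exp.2 (mul_le_mul_of_nonneg_left e2 ht0.le)).trans (Conc_abs _)
    · positivity
  rw [av_mul] at h2
  refine h2.trans ((mul_le_mul_of_nonneg_left h1 (Real.exp_pos _).le).trans (le_of_eq ?_))
  rw [mul_left_comm, ← Real.exp_add, Fintype.card_fin, ht]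
  congr 2
  field_simp
  ring

end Vale.Agent.P315
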