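import Vale.Agent.P315.Defs

namespace Vale.Agent.P315

open Finset

/-- Increment of `I` over the node `(h, a)`. -/
noncomputable def inc (b : ℕ) (I : ℕ → ℕ) (h a : ℕ) : ℝ :=
  (I ((a + 1) * b ^ h) : ℝ) - I (a * b ^ h)

/-- Deviation from a straight line inside the node `(h+1, a)`. -/
noncomputable def dev (b : ℕ) (I : ℕ → ℕ) (h a : ℕ) : ℝ :=
  ∑ j ∈ range b, |inc b I h (a * b + j) - inc b I (h + 1) a / b|


theorem Ent_sum_mul {M : Type} [AddCommMonoid M] (f : ℕ → M) (n b : ℕ) :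
    ∑ a ∈ range (n * b), f a = ∑ a ∈ range n, ∑ j ∈ range b, f (a * b + j) := by
  induction n with
  | zero => simp
  | succ n ih => rw [add_one_mul, sum_range_add, ih, sum_range_succ]



theorem dev_ge (b : ℕ) (I : ℕ → ℕ) (h a j : ℕ) (hj : j ≤ b) :
    |(I ((a * b + j) * b ^ h) : ℝ) - I (a * b ^ (h + 1)) - j * (inc b I (h + 1) a / b)|
      ≤ dev b I h a := by
  have h1 := sum_range_sub (fun i => (I ((a * b + i) * b ^ h) : ℝ)) j
  rw [add_zero, mul_assoc, ← pow_succ'] at h1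
  have h2 : (I ((a * b + j) * b ^ h) : ℝ) - I (a * b ^ (h + 1)) - j * (inc b I (h + 1) a / b) =
      ∑ i ∈ range j, (inc b I h (a * b + i) - inc b I (h + 1) a / b) := by
    rw [sum_sub_distrib, sum_const, card_range, nsmul_eq_mul, ← h1]
    rfl
  rw [h2]
  exact (abs_sum_le_sum_abs _ _).trans
    (sum_le_sum_of_subset_of_nonneg (range_subset_range.2 hj) fun _ _ _ => abs_nonneg _)


theorem Ent_kl {s t l : ℝ} (hs : 0 < s) (ht : 0 < t) (hl : 0 < l) :
    |s - t| ≤ l * (s + t) + (s * Real.log (s / t) - s + t) / (2 * l) := by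
  obtain ⟨x, hx, rfl⟩ : ∃ x, 0 < x ∧ s = x ^ 2 := ⟨√s, Real.sqrt_pos.2 hs, (Real.sq_sqrt hs.le).symm⟩
  obtain ⟨y, hy, rfl⟩ : ∃ y, 0 < y ∧ t = y ^ 2 := ⟨√t, Real.sqrt_pos.2 ht, (Real.sq_sqrt ht.le).symm⟩
  have h1 := mul_le_mul_of_nonneg_left (Real.one_sub_inv_le_log_of_pos (div_pos hx hy)) hs.le
  have h2 : x ^ 2 * (1 - (x / y)⁻¹) = x ^ 2 - x * y := by field_simp
  have h3 : (x - y) ^ 2 / (2 * l) ≤ (x ^ 2 * Real.log (x ^ 2 / y ^ 2) - x ^ 2 + y ^ 2) / (2 * l) := by
    rw [← div_pow, Real.log_pow]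
    refine div_le_div_of_nonneg_right ?_ (by positivity)
    push_cast
    linarith
  have h4 : |x ^ 2 - y ^ 2| = (x + y) * |x - y| := by
    rw [sq_sub_sq, abs_mul, abs_of_pos (by positivity)]
  have h5 : (x + y) * |x - y| ≤ l * (x + y) ^ 2 / 2 + |x - y| ^ 2 / (2 * l) := by
    have : l * (x + y) ^ 2 / 2 + |x - y| ^ 2 / (2 * l) - (x + y) * |x - y| =
        (l * (x + y) - |x - y|) ^ 2 / (2 * l) := by
      field_simp
      ring
    have h0 : 0 ≤ (l * (x + y) - |x - y|) ^ 2 / (2 * l) := by positivity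
    linarith
  rw [sq_abs] at h5
  nlinarith [mul_nonneg hl.le (sq_nonneg (x - y))]

/-- Total weight of the leaves below a node. -/
noncomputable def entW (b : ℕ) (w : ℕ → ℝ) (h a : ℕ) : ℝ := ∑ c ∈ range (b ^ h), w (a * b ^ h + c)

theorem entW_succ (b : ℕ) (w : ℕ → ℝ) (h a : ℕ) :
    entW b w (h + 1) a = ∑ j ∈ range b, entW b w h (a * b + j) := by
  unfold entW
  rw [pow_succ', Ent_sum_mul]
  refine sum_congr rfl fun j _ => sum_congr rfl fun c _ => ?_
  congr 1
  ring

theorem entW_tot (b : ℕ) (w : ℕ → ℝ) {h D : ℕ} (hD : h ≤ D) :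
    ∑ a ∈ range (b ^ (D - h)), entW b w h a = ∑ a ∈ range (b ^ D), w a := by
  rw [← pow_sub_mul_pow b hD, Ent_sum_mul]
  rfl

theorem entW_ge (b : ℕ) {w : ℕ → ℝ} (hw : ∀ a, 1 ≤ w a) (h a : ℕ) :
    (b : ℝ) ^ h ≤ entW b w h a := by
  simpa [entW] using card_nsmul_le_sum (range (b ^ h)) (fun c => w (a * b ^ h + c)) 1 fun c _ => hw _

theorem Ent_gen {b D : ℕ} (hb : 1 ≤ b) {w : ℕ → ℝ} (hw : ∀ a, 1 ≤ w a) {B : ℝ} (hB : 1 < B)
    (hwB : ∀ a < b ^ D, w a ≤ B) :
    ∑ h ∈ range D, ∑ a ∈ range (b ^ (D - (h + 1))), ∑ j ∈ range b,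
      |entW b w h (a * b + j) - entW b w (h + 1) a / b| ≤
      2 * (∑ a ∈ range (b ^ D), w a) * √(D * Real.log B) := by
  rcases D.eq_zero_or_pos with rfl | hD
  · simp
  have hb' : (0 : ℝ) < b := by exact_mod_cast hb
  have hD' : (0 : ℝ) < D := by exact_mod_cast hD
  have hL := Real.log_pos hB
  have hr : 0 < √(D * Real.log B) := Real.sqrt_pos.2 (by positivity)
  have hr2 := Real.mul_self_sqrt (by positivity : 0 ≤ D * Real.log B)
  set r := √(D * Real.log B)
  set S := ∑ a ∈ range (b ^ D), w a with hS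
  have hW : ∀ h a, 0 < entW b w h a := fun h a => (pow_pos hb' h).trans_le (entW_ge b hw h a)
  set H : ℕ → ℝ := fun h => ∑ a ∈ range (b ^ (D - h)),
    entW b w h a * Real.log (entW b w h a / b ^ h) with hH
  have h1 : ∀ h ∈ range D, ∑ a ∈ range (b ^ (D - (h + 1))), ∑ j ∈ range b,
      |entW b w h (a * b + j) - entW b w (h + 1) a / b| ≤
      r / D * S + (H h - H (h + 1)) * (D / r) := by
    intro h hh
    have hh' := mem_range.1 hh
    have e1 : H h = ∑ a ∈ range (b ^ (D - (h + 1))), ∑ j ∈ range b,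
        entW b w h (a * b + j) * Real.log (entW b w h (a * b + j) / b ^ h) := by
      rw [← Ent_sum_mul (fun a => entW b w h a * Real.log (entW b w h a / b ^ h)), ← pow_succ,
        show D - (h + 1) + 1 = D - h by omega]
    rw [e1, hS, ← entW_tot b w (show h + 1 ≤ D from hh'), hH, ← sum_sub_distrib, sum_mul,
      mul_sum, ← sum_add_distrib]
    refine sum_le_sum fun a _ => ?_
    have e2 := sum_le_sum fun j (_ : j ∈ range b) => Ent_kl (hW h (a * b + j))
      (div_pos (hW (h + 1) a) hb') (by positivity : 0 < r / (2 * D))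
    refine e2.trans (le_of_eq ?_)
    have e3 : ∀ j, Real.log (entW b w h (a * b + j) / (entW b w (h + 1) a / b)) =
        Real.log (entW b w h (a * b + j) / b ^ h) - Real.log (entW b w (h + 1) a / b ^ (h + 1)) := by
      intro j
      have := hW h (a * b + j)
      have := hW (h + 1) a
      rw [← Real.log_div (by positivity) (by positivity)]
      congr 1
      rw [pow_succ]
      field_simp
    simp only [e3, mul_sub, sum_add_distrib, ← sum_div, ← mul_sum, sum_sub_distrib, ← sum_mul,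
      ← entW_succ, sum_const, card_range, nsmul_eq_mul]
    field_simp
    ring
  have h2 := sum_le_sum h1
  rw [sum_add_distrib, sum_const, card_range, nsmul_eq_mul, ← sum_mul, sum_range_sub'] at h2
  have h3 : H 0 ≤ S * Real.log B := by
    rw [hS, sum_mul]
    refine sum_le_sum fun a ha => ?_
    have e : entW b w 0 a = w a := by simp [entW]
    rw [e, pow_zero, div_one]
    exact mul_le_mul_of_nonneg_left
      (Real.log_le_log (by linarith [hw a]) (hwB a (mem_range.1 ha))) (by linarith [hw a])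
  have h4 : 0 ≤ H D := sum_nonneg fun a _ => mul_nonneg (hW _ _).le
    (Real.log_nonneg ((one_le_div (pow_pos hb' D)).2 (entW_ge b hw D a)))
  have h5 := mul_le_mul_of_nonneg_right (by linarith : H 0 - H D ≤ S * Real.log B)
    (by positivity : 0 ≤ D / r)
  have h6 : S * Real.log B * (D / r) = S * r := by
    rw [mul_assoc, ← mul_div_assoc, mul_comm (Real.log B), ← hr2, mul_div_cancel_right₀ _ hr.ne']
  have h7 : D * (r / D * S) = S * r := by field_simp
  linarith

theorem Ent_inc (b : ℕ) (I : ℕ → ℕ) (h a : ℕ) :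
    inc b I h a = entW b (fun c => (I (c + 1) : ℝ) - I c) h a := by
  have := sum_range_sub (fun c => (I (a * b ^ h + c) : ℝ)) (b ^ h)
  rw [add_zero] at this
  rw [inc, add_one_mul, ← this]
  rfl



/-- Entropy bound for the total deviation. -/
theorem sum_dev_le (b B0 D : ℕ) (hb : 1 ≤ b) (hB : 1 ≤ B0) (I : ℕ → ℕ)
    (hI : ∀ a < b ^ D, I a ≤ I (a + 1) ∧ I (a + 1) ≤ I a + B0) :
    ∑ h ∈ range D, ∑ a ∈ range (b ^ (D - (h + 1))), dev b I h a ≤
      (∑ a ∈ range (b ^ D), |2 * ((I (a + 1) : ℝ) - I a) - B0| + 2 * (b : ℝ) ^ D) *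
        Real.sqrt (D * Real.log (B0 + 1)) := by
  have hb' : (0 : ℝ) < b := by exact_mod_cast hb
  have hB' : (1 : ℝ) ≤ B0 := by exact_mod_cast hB
  have hI' : ∀ a < b ^ D, (0 : ℝ) ≤ I (a + 1) - I a ∧ (I (a + 1) : ℝ) - I a ≤ B0 := fun a ha => by
    have h1 : (I a : ℝ) ≤ I (a + 1) := by exact_mod_cast (hI a ha).1
    have h2 : (I (a + 1) : ℝ) ≤ I a + B0 := by exact_mod_cast (hI a ha).2
    constructor <;> linarith
  set p : ℕ → ℝ := fun a => max (2 * ((I (a + 1) : ℝ) - I a) - B0) 0 + 1 with hp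
  set m : ℕ → ℝ := fun a => max (-(2 * ((I (a + 1) : ℝ) - I a) - B0)) 0 + 1 with hm
  have h1 := Ent_gen (D := D) hb (w := p) (fun a => by simp [hp]) (B := B0 + 1) (by linarith)
    fun a ha => add_le_add (max_le (by linarith [(hI' a ha).2]) (by linarith)) le_rfl
  have h2 := Ent_gen (D := D) hb (w := m) (fun a => by simp [hm]) (B := B0 + 1) (by linarith)
    fun a ha => add_le_add (max_le (by linarith [(hI' a ha).1]) (by linarith)) le_rfl
  have h3 : ∀ h a, 2 * inc b I h a = B0 * b ^ h + entW b p h a - entW b m h a := by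
    intro h a
    have : (B0 : ℝ) * b ^ h = ∑ _c ∈ range (b ^ h), (B0 : ℝ) := by simp [mul_comm]
    rw [Ent_inc, this, entW, entW, entW, mul_sum, ← sum_add_distrib, ← sum_sub_distrib]
    refine sum_congr rfl fun c _ => ?_
    simp only [hp, hm]
    linarith [max_zero_sub_max_neg_zero_eq_self
      (2 * ((I (a * b ^ h + c + 1) : ℝ) - I (a * b ^ h + c)) - B0)]
  have h4 : ∑ a ∈ range (b ^ D), p a + ∑ a ∈ range (b ^ D), m a =
      ∑ a ∈ range (b ^ D), |2 * ((I (a + 1) : ℝ) - I a) - B0| + 2 * (b : ℝ) ^ D := by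
    have : 2 * (b : ℝ) ^ D = ∑ _c ∈ range (b ^ D), (2 : ℝ) := by simp [mul_comm]
    rw [this, ← sum_add_distrib, ← sum_add_distrib]
    refine sum_congr rfl fun c _ => ?_
    simp only [hp, hm]
    linarith [max_zero_add_max_neg_zero_eq_abs_self (2 * ((I (c + 1) : ℝ) - I c) - B0)]
  have h5 := add_le_add h1 h2
  rw [← add_mul, ← mul_add, h4, ← sum_add_distrib, mul_assoc] at h5
  refine le_of_mul_le_mul_left (le_trans ?_ h5) two_pos
  rw [mul_sum]
  refine sum_le_sum fun h _ => ?_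
  rw [mul_sum, ← sum_add_distrib]
  refine sum_le_sum fun a _ => ?_
  rw [dev, mul_sum, ← sum_add_distrib]
  refine sum_le_sum fun j _ => le_trans (le_of_eq ?_) (abs_sub _ _)
  rw [← abs_two (α := ℝ), ← abs_mul, mul_sub, ← mul_div_assoc, h3, h3]
  congr 1
  field_simp
  ring

end Vale.Agent.P315
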