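import Vale.Agent.P315.Comp

namespace Vale.Agent.P315

open Finset

theorem fill_store {P : List Cmd} {B : ℕ} {m : Mem} {a x y : ℕ} {i v : Expr} (hi : i.Fits B m)
    (hv : v.Fits B m) (hx : i.eval m = x) (hy : v.eval m = y) :
    Exec P B (.store a i v) m (m.set a x y) (i.cost + v.cost + 1) := by
  subst hx hy
  exact Exec.store hi hv

theorem fill_bd {V : ℕ} {m m' : Mem} (h : Bd V m) (he : Eqv m' m) : Bd V m' :=
  fun a i ha => (he a i ha).le.trans (h a i ha)

theorem fill_sm {R : ℕ} {m m' : Mem} (h : Sm R m) (he : Eqv m' m) : Sm R m' :=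
  fun r => (he 7 r (by decide)).le.trans (h r)

theorem fill_bd_set {V : ℕ} {m : Mem} (h : Bd V m) (a i : ℕ) {v : ℕ} (hv : v ≤ V) :
    Bd V (m.set a i v) := by
  intro a' i' ha
  rw [Mem.set_apply]
  split_ifs
  · exact hv
  · exact h _ _ ha

theorem fill_ev {e : FE} (he : e.noRd 5 = true) {m m' : Mem} (h : Eqv m m') :
    e.eval m = e.eval m' := FE.eval_congr he (by decide) (by decide) h

theorem fill_lt {B V R κ : ℕ} (h : Env B V R κ) (hk : 1 ≤ κ) : V < B :=
  lt_of_le_of_lt (Nat.le_self_pow (by omega) V) h.hB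

theorem fill_le {R : ℕ} (hR : 1 ≤ R) (d : ℕ) : d ≤ d * R ^ d :=
  Nat.le_mul_of_pos_right _ (Nat.pow_pos hR)

theorem fill_loop {arr : ℕ} (h5 : arr ≠ 5) (h6 : arr ≠ 6) {body : FE} (hy : body.noRd 5 = true)
    {cy : Cmd} {P : List Cmd} {B V R K : ℕ} {m : Mem} {g : ℕ → ℕ} {β σ : ℕ} (hV : V < B)
    (h3 : 3 < B) (hm : Bd V m) (hR : Sm R m) (hβ : β + σ ≤ V) (hg : ∀ e < σ, g e ≤ V)
    (hg7 : arr = 7 → ∀ e < σ, g e ≤ R)
    (hb : ∀ e < σ, body.eval ((upd m arr β e g).set 6 0 e) = g e)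
    (hc : ∀ m : Mem, Bd V m → Sm R m → ∃ m' t, Exec P B cy m m' t ∧ m' 5 3 = body.eval m ∧
      (∀ a i, (a ≠ 5 ∨ i < 3) → m' a i = m a i) ∧ t ≤ K) (n : ℕ) :
    ∀ (e : ℕ) (w : Mem), e + n = σ → Eqv w ((upd m arr β e g).set 6 0 e) → w 5 0 = β → w 5 1 = σ →
      ∃ w' t, Exec P B (.loop (.sub (.rd 5 (.const 1)) (.rd 6 (.const 0))) (.seq cy (.seq
        (.store arr (.add (.rd 5 (.const 0)) (.rd 6 (.const 0))) (.rd 5 (.const 3)))
        (.store 6 (.const 0) (.add (.rd 6 (.const 0)) (.const 1)))))) w w' t ∧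
        Eqv w' ((upd m arr β σ g).set 6 0 σ) ∧ w' 5 2 = w 5 2 ∧ t ≤ n * (K + 22) + 6 := by
  induction n with
  | zero =>
    intro e w hn hw h0 h1
    obtain rfl : e = σ := by omega
    have h60 : w 6 0 = e := by rw [hw 6 0 (by decide), Mem.set_same]
    refine ⟨w, _, Exec.loopdone ?_ ?_, hw, rfl, by simp [Expr.cost]⟩
    · simp only [Expr.Fits, Expr.eval, h1, h60]
      omega
    · simp only [Expr.eval, h1, h60]
      omega
  | succ n ih =>
    intro e w hn hw h0 h1
    have h60 : w 6 0 = e := by rw [hw 6 0 (by decide), Mem.set_same]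
    have hbd : Bd V w :=
      fill_bd (fill_bd_set (hm.upd _ _ _ fun i hi => hg i (by omega)) _ _ (by omega)) hw
    have hsm : Sm R w := by
      refine fill_sm (fun r => ?_) hw
      rw [Mem.set_arr _ _ _ (by decide)]
      unfold upd
      split_ifs with hr
      · exact hg7 hr.1.symm _ (by omega)
      · exact hR r
    obtain ⟨w1, t1, e1, v1, u1, c1⟩ := hc w hbd hsm
    rw [fill_ev hy hw, hb e (by omega)] at v1
    have a0 : w1 5 0 = β := (u1 5 0 (by omega)).trans h0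
    have a6 : w1 6 0 = e := (u1 6 0 (by omega)).trans h60
    have hge := hg e (by omega)
    have e2 : Exec P B (.store arr (.add (.rd 5 (.const 0)) (.rd 6 (.const 0))) (.rd 5 (.const 3)))
        w1 (w1.set arr (β + e) (g e)) _ :=
      fill_store (by simp only [Expr.Fits, Expr.eval, a0, a6]; omega)
        (by simp only [Expr.Fits, Expr.eval, v1]; omega)
        (by simp only [Expr.eval, a0, a6]) (by simp only [Expr.eval, v1])
    have b6 : w1.set arr (β + e) (g e) 6 0 = e := by rw [Mem.set_arr _ _ _ h6.symm, a6]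
    have e3 : Exec P B (.store 6 (.const 0) (.add (.rd 6 (.const 0)) (.const 1)))
        (w1.set arr (β + e) (g e)) ((w1.set arr (β + e) (g e)).set 6 0 (e + 1)) _ :=
      fill_store (by simp only [Expr.Fits]; omega)
        (by simp only [Expr.Fits, Expr.eval, b6]; omega) rfl (by simp only [Expr.eval, b6])
    have k5 : ∀ i < 3, (w1.set arr (β + e) (g e)).set 6 0 (e + 1) 5 i = w 5 i := fun i hi => by
      rw [Mem.set_arr _ _ _ (by decide), Mem.set_arr _ _ _ h5.symm, u1 5 i (by omega)]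
    obtain ⟨w', t, e4, q1, q2, q3⟩ := ih (e + 1) ((w1.set arr (β + e) (g e)).set 6 0 (e + 1))
      (by omega) (fun a i ha => by
        have := hw a i ha
        rw [← u1 a i (Or.inl ha)] at this
        simp only [Mem.set_apply, upd] at this ⊢
        by_cases c6 : a = 6 ∧ i = 0
        · rw [if_pos c6, if_pos c6]
        · rw [if_neg c6] at this
          rw [if_neg c6, if_neg c6]
          by_cases ca : a = arr ∧ i = β + e
          · rw [if_pos ca, if_pos (by omega), ca.2, Nat.add_sub_cancel_left]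
          · rw [if_neg ca, this]
            exact if_congr (by omega) rfl rfl)
      ((k5 0 (by omega)).trans h0) ((k5 1 (by omega)).trans h1)
    refine ⟨w', _, Exec.loopstep ?_ ?_ (Exec.seq e1 (Exec.seq e2 e3)) e4, q1,
      q2.trans (k5 2 (by omega)), ?_⟩
    · simp only [Expr.Fits, Expr.eval, h1, h60]
      omega
    · simp only [Expr.eval, h1, h60]
      omega
    · simp only [Expr.cost, add_mul, one_mul] at q3 ⊢
      omega

/-- Sequential fill loop: `for e < size do arr[base + e] := body` where `body` sees `e` as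
variable `0`; `base` and `size` are evaluated once, variable `0` is restored at the end. -/
theorem fill_ex (arr : ℕ) (h5 : arr ≠ 5) (h6 : arr ≠ 6) (base size body : FE)
    (hb : base.noRd 5 = true) (hs : size.noRd 5 = true) (hy : body.noRd 5 = true) :
    ∃ (c : Cmd) (κ : ℕ), ∀ (P : List Cmd) (B V R : ℕ) (m : Mem) (g : ℕ → ℕ) (β σ : ℕ),
      Env B V R κ → Bd V m → Sm R m → base.eval m = β → size.eval m = σ → β + σ ≤ V →
      (∀ e < σ, g e ≤ V) → (arr = 7 → ∀ e < σ, g e ≤ R) →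
      (∀ e < σ, body.eval ((upd m arr β e g).set 6 0 e) = g e) →
      Does P B c m (upd m arr β σ g) ((σ + 1) * (κ * R ^ κ)) := by
  obtain ⟨c1, k1, H1⟩ := comp_ex base hb 0
  obtain ⟨c2, k2, H2⟩ := comp_ex size hs 1
  obtain ⟨c3, k3, H3⟩ := comp_ex body hy 3
  refine ⟨.seq c1 (.seq c2 (.seq (.store 5 (.const 2) (.rd 6 (.const 0)))
    (.seq (.store 6 (.const 0) (.const 0)) (.seq (.loop (.sub (.rd 5 (.const 1)) (.rd 6 (.const 0)))
      (.seq c3 (.seq (.store arr (.add (.rd 5 (.const 0)) (.rd 6 (.const 0))) (.rd 5 (.const 3)))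
        (.store 6 (.const 0) (.add (.rd 6 (.const 0)) (.const 1))))))
      (.store 6 (.const 0) (.rd 5 (.const 2))))))), k1 + k2 + k3 + 22, ?_⟩
  intro P B V R m g β σ hE hm hR hβ hσ hV hg hg7 hbody m0 h0
  have hVB := fill_lt hE (by omega)
  have h22 := hE.hκ
  obtain ⟨m1, t1, e1, v1, u1, d1, -⟩ :=
    H1 P B V R m0 (hE.mono (by omega)) (fill_bd hm h0) (fill_sm hR h0)
  have q1 : Eqv m1 m := fun a i ha => (u1 a i (Or.inl ha)).trans (h0 a i ha)
  obtain ⟨m2, t2, e2, v2, u2, d2, -⟩ :=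
    H2 P B V R m1 (hE.mono (by omega)) (fill_bd hm q1) (fill_sm hR q1)
  have q2 : Eqv m2 m := fun a i ha => (u2 a i (Or.inl ha)).trans (q1 a i ha)
  rw [fill_ev hb h0, hβ] at v1
  rw [fill_ev hs q1, hσ] at v2
  have a6 : m2 6 0 = m 6 0 := q2 6 0 (by decide)
  have b6 := hm 6 0 (by decide)
  have e3 : Exec P B (.store 5 (.const 2) (.rd 6 (.const 0))) m2 (m2.set 5 2 (m 6 0)) _ :=
    fill_store (by simp only [Expr.Fits]; omega) (by simp only [Expr.Fits, Expr.eval, a6]; omega)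
      rfl a6
  have e4 : Exec P B (.store 6 (.const 0) (.const 0)) (m2.set 5 2 (m 6 0))
      ((m2.set 5 2 (m 6 0)).set 6 0 0) _ :=
    fill_store (by simp only [Expr.Fits]; omega) (by simp only [Expr.Fits]; omega) rfl rfl
  obtain ⟨m5, t5, e5, q5, v5, d5⟩ := fill_loop h5 h6 hy (cy := c3) (P := P) (K := k3 * R ^ k3) hVB
    (by omega) hm hR hV hg hg7 hbody (fun w hw hw' => by
      obtain ⟨w', t, x1, x2, x3, x4, -⟩ := H3 P B V R w (hE.mono (by omega)) hw hw'
      exact ⟨w', t, x1, x2, x3, x4⟩) σ 0 ((m2.set 5 2 (m 6 0)).set 6 0 0) (by omega)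
    (fun a i ha => by
      simp only [Mem.set_apply]
      rw [if_neg (fun h : a = 5 ∧ i = 2 => ha h.1), q2 a i ha, upd_out _ _ _ _ _ _ (by omega)])
    (by rw [Mem.set_arr _ _ _ (by decide), Mem.set_idx _ _ _ (by decide), u2 5 0 (by omega), v1])
    (by rw [Mem.set_arr _ _ _ (by decide), Mem.set_idx _ _ _ (by decide), v2])
  rw [Mem.set_arr _ _ _ (by decide), Mem.set_same] at v5
  have e6 : Exec P B (.store 6 (.const 0) (.rd 5 (.const 2))) m5 (m5.set 6 0 (m 6 0)) _ :=
    fill_store (by simp only [Expr.Fits]; omega) (by simp only [Expr.Fits, Expr.eval, v5]; omega)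
      rfl v5
  refine ⟨_, _, Exec.seq e1 (Exec.seq e2 (Exec.seq e3 (Exec.seq e4 (Exec.seq e5 e6)))),
    fun a i ha => ?_, ?_⟩
  · have := q5 a i ha
    rw [Mem.set_apply] at this ⊢
    split_ifs with h
    · rw [h.1, h.2, upd_arr _ _ _ _ h6.symm]
    · rwa [if_neg h] at this
  · have s1 := cost_add hE.hR k1 k2
    have s2 := cost_add hE.hR (k1 + k2) k3
    have s3 := cost_add hE.hR (k1 + k2 + k3) 22
    have s4 := fill_le hE.hR 22
    have s5 := Nat.mul_le_mul_left σ
      (show k3 * R ^ k3 + 22 ≤ (k1 + k2 + k3 + 22) * R ^ (k1 + k2 + k3 + 22) by omega)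
    rw [add_mul, one_mul]
    simp only [Expr.cost]
    omega

/-- Parallel version: the body does not read the array being written. -/
theorem fillP_ex (arr : ℕ) (h5 : arr ≠ 5) (h6 : arr ≠ 6) (h7 : arr ≠ 7) (base size body : FE)
    (hb : base.noRd 5 = true) (hs : size.noRd 5 = true) (hy : body.noRd 5 = true)
    (hp : body.noRd arr = true) :
    ∃ (c : Cmd) (κ : ℕ), ∀ (P : List Cmd) (B V R : ℕ) (m : Mem) (g : ℕ → ℕ) (β σ : ℕ),
      Env B V R κ → Bd V m → Sm R m → base.eval m = β → size.eval m = σ → β + σ ≤ V →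
      (∀ e < σ, g e ≤ V) → (∀ e < σ, body.eval (m.set 6 0 e) = g e) →
      Does P B c m (upd m arr β σ g) ((σ + 1) * (κ * R ^ κ)) := by
  obtain ⟨c, k, H⟩ := fill_ex arr h5 h6 base size body hb hs hy
  refine ⟨c, k, fun P B V R m g β σ hE hm hR hβ hσ hV hg hbody =>
    H P B V R m g β σ hE hm hR hβ hσ hV hg (fun h => absurd h h7) fun e he => ?_⟩
  rw [← hbody e he]
  refine FE.eval_congr hp h6 h7 fun a i ha => ?_
  rw [Mem.set_apply, Mem.set_apply, upd_arr _ _ _ _ ha]

/-- Branch on the value of an expression. -/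
theorem ifF_ex (e : FE) (he : e.noRd 5 = true) (c d : Cmd) :
    ∃ (cd : Cmd) (κ : ℕ), ∀ (P : List Cmd) (B V R : ℕ) (m m' : Mem) (T : ℕ),
      Env B V R κ → Bd V m → Sm R m →
      (e.eval m = 0 → Does P B c m m' T) → (e.eval m ≠ 0 → Does P B d m m' T) →
      Does P B cd m m' (T + κ * R ^ κ) := by
  obtain ⟨c1, k1, H1⟩ := comp_ex e he 0
  refine ⟨.seq c1 (.ifz (.rd 5 (.const 0)) c d), k1 + 4, ?_⟩
  intro P B V R m m' T hE hm hR hc hd m0 h0
  obtain ⟨m1, t1, e1, v1, u1, d1, b1⟩ :=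
    H1 P B V R m0 (hE.mono (by omega)) (fill_bd hm h0) (fill_sm hR h0)
  have q1 : Eqv m1 m := fun a i ha => (u1 a i (Or.inl ha)).trans (h0 a i ha)
  have hB := (hE.mono (show k1 ≤ k1 + 4 by omega)).hB
  have hF : (Expr.rd 5 (.const 0)).Fits B m1 := by
    simp only [Expr.Fits, Expr.eval, v1]
    omega
  have s1 := cost_add hE.hR k1 4
  have s2 := fill_le hE.hR 4
  rw [fill_ev he h0] at v1
  by_cases hz : e.eval m = 0
  · obtain ⟨m2, t2, e2, q2, d2⟩ := hc hz m1 q1
    refine ⟨m2, _, Exec.seq e1 (Exec.ifzero hF (v1.trans hz) e2), q2, ?_⟩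
    simp only [Expr.cost]
    omega
  · obtain ⟨m2, t2, e2, q2, d2⟩ := hd hz m1 q1
    refine ⟨m2, _, Exec.seq e1 (Exec.ifpos hF (ne_of_eq_of_ne v1 hz) e2), q2, ?_⟩
    simp only [Expr.cost]
    omega

end Vale.Agent.P315
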