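import Vale.Agent.P315.Defs

namespace Vale.Agent.P315

open Finset

theorem soft_pos {n : ℕ} (hn : 1 ≤ n) (f : ℕ → ℝ) : 0 < ∑ o ∈ range n, Real.exp (f o) :=
  sum_pos (fun _ _ => Real.exp_pos _) (nonempty_range_iff.2 (by omega))

theorem soft_mul {τ : ℝ} {n : ℕ} (hn : 1 ≤ n) {X Y : ℕ → ℝ} {w : ℝ} (hw : 0 < w)
    (h : ∑ o ∈ range n, Real.exp (-Y o / τ) = (∑ o ∈ range n, Real.exp (-X o / τ)) * w) :
    sm τ n Y = sm τ n X - τ * Real.log w := by
  have : (0 : ℝ) < n := Nat.cast_pos.2 hn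
  rw [sm, sm, h, mul_div_right_comm, Real.log_mul (div_pos (soft_pos hn _) this).ne' hw.ne']
  ring

theorem soft_shift {τ : ℝ} (hτ : 0 < τ) {n : ℕ} (hn : 1 ≤ n) (X : ℕ → ℝ) (c : ℝ) :
    sm τ n (fun o => X o + c) = sm τ n X + c := by
  rw [soft_mul (X := X) hn (Real.exp_pos (-c / τ)) (by
    simp only [sum_mul, ← Real.exp_add, neg_add, add_div]), Real.log_exp]
  field_simp
  ring

theorem sm_mono_add {τ : ℝ} (hτ : 0 < τ) {n : ℕ} (hn : 1 ≤ n) {X Y : ℕ → ℝ} {c : ℝ}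
    (h : ∀ o < n, X o + c ≤ Y o) : sm τ n X + c ≤ sm τ n Y := by
  have : (0 : ℝ) < n := Nat.cast_pos.2 hn
  rw [← soft_shift hτ hn]
  refine mul_le_mul_of_nonpos_left (Real.log_le_log (div_pos (soft_pos hn _) this) ?_)
    (neg_nonpos.2 hτ.le)
  gcongr with o ho
  exact h o (mem_range.1 ho)

theorem sm_const {τ : ℝ} (hτ : 0 < τ) {n : ℕ} (hn : 1 ≤ n) (c : ℝ) : sm τ n (fun _ => c) = c := by
  have : (n : ℝ) ≠ 0 := Nat.cast_ne_zero.2 (by omega)
  rw [sm, sum_const, card_range, nsmul_eq_mul, mul_div_cancel_left₀ _ this, Real.log_exp]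
  field_simp

theorem sm_le {τ : ℝ} (hτ : 0 < τ) {n o : ℕ} (ho : o < n) (X : ℕ → ℝ) :
    sm τ n X ≤ X o + τ * Real.log n := by
  have h0 : (0 : ℝ) < n := Nat.cast_pos.2 (by omega)
  have h := Real.log_le_log (div_pos (Real.exp_pos _) h0) (div_le_div_of_nonneg_right
    (single_le_sum (f := fun o => Real.exp (-X o / τ)) (fun _ _ => (Real.exp_pos _).le)
      (mem_range.2 ho)) h0.le)
  rw [Real.log_div (Real.exp_pos _).ne' h0.ne', Real.log_exp] at h
  refine (mul_le_mul_of_nonpos_left h (neg_nonpos.2 hτ.le)).trans_eq ?_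
  field_simp
  ring

/-- Second order expansion; the Gibbs weights `ν` do not depend on the perturbation. -/
theorem sm_second {τ : ℝ} (hτ : 0 < τ) {n : ℕ} (hn : 1 ≤ n) (X : ℕ → ℝ) :
    ∃ ν : ℕ → ℝ, (∀ o, 0 ≤ ν o) ∧ ∑ o ∈ range n, ν o = 1 ∧ ∀ (Z : ℕ → ℝ) (osc : ℝ),
      (∀ o < n, ∀ o' < n, |Z o - Z o'| ≤ osc) → osc ≤ τ →
      |sm τ n (fun o => X o + Z o) - sm τ n X - ∑ o ∈ range n, ν o * Z o| ≤ osc ^ 2 / τ := by
  have S0 := soft_pos hn fun o => -X o / τ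
  obtain ⟨ν, h0, h1, h2⟩ : ∃ ν : ℕ → ℝ, (∀ o, 0 ≤ ν o) ∧ ∑ o ∈ range n, ν o = 1 ∧
      ∀ o, Real.exp (-X o / τ) = (∑ o ∈ range n, Real.exp (-X o / τ)) * ν o :=
    ⟨fun o => Real.exp (-X o / τ) / ∑ o ∈ range n, Real.exp (-X o / τ), fun _ => by positivity,
      by rw [← sum_div, div_self S0.ne'], fun _ => (mul_div_cancel₀ _ S0.ne').symm⟩
  refine ⟨ν, h0, h1, fun Z osc hZ ho => ?_⟩
  set m := ∑ o ∈ range n, ν o * Z o with hm
  have a1 : ∀ o ∈ range n, |-(Z o - m) / τ| ≤ osc / τ := fun o h => by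
    rw [abs_div, abs_neg, abs_of_pos hτ, show Z o - m = ∑ o' ∈ range n, ν o' * (Z o - Z o') by
      simp only [mul_sub, sum_sub_distrib, ← sum_mul, h1, one_mul, hm],
      ← one_mul osc, ← h1, sum_mul]
    refine div_le_div_of_nonneg_right ((abs_sum_le_sum_abs _ _).trans (sum_le_sum fun o' h' => ?_))
      hτ.le
    rw [abs_mul, abs_of_nonneg (h0 _)]
    exact mul_le_mul_of_nonneg_left (hZ o (mem_range.1 h) o' (mem_range.1 h')) (h0 _)
  have a2 : ∀ c : ℝ, ∑ o ∈ range n, ν o * (-(Z o - m) / τ + c) = c := fun c => by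
    simp only [mul_add, sum_add_distrib, ← mul_div_assoc, ← sum_div, neg_sub, mul_sub,
      sum_sub_distrib, ← sum_mul, h1, ← hm, one_mul, sub_self, zero_div, zero_add]
  have a3 : 1 ≤ ∑ o ∈ range n, ν o * Real.exp (-(Z o - m) / τ) :=
    (a2 1).ge.trans (sum_le_sum fun o _ => mul_le_mul_of_nonneg_left (Real.add_one_le_exp _) (h0 _))
  have a4 : ∑ o ∈ range n, ν o * Real.exp (-(Z o - m) / τ) ≤ 1 + (osc / τ) ^ 2 :=
    (sum_le_sum fun o h => mul_le_mul_of_nonneg_left (by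
      have := (abs_le.1 (Real.abs_exp_sub_one_sub_id_le ((a1 o h).trans ((div_le_one hτ).2 ho)))).2
      linarith [sq_le_sq' (abs_le.1 (a1 o h)).1 (abs_le.1 (a1 o h)).2]) (h0 _)).trans_eq (a2 _)
  have a5 := soft_mul (X := X) (Y := fun o => X o + (Z o - m)) (τ := τ) hn (one_pos.trans_le a3) (by
    rw [mul_sum]
    exact sum_congr rfl fun o _ => by rw [← mul_assoc, ← h2, ← Real.exp_add, neg_add, add_div])
  have a6 := soft_shift hτ hn (fun o => X o + (Z o - m)) m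
  simp only [add_assoc, sub_add_cancel] at a6
  have a7 := mul_nonneg hτ.le (Real.log_nonneg a3)
  have a8 := mul_le_mul_of_nonneg_left ((Real.log_le_sub_one_of_pos (one_pos.trans_le a3)).trans
    (sub_le_iff_le_add'.2 a4)) hτ.le
  rw [show τ * (osc / τ) ^ 2 = osc ^ 2 / τ by field_simp] at a8
  rw [abs_le]
  constructor <;> linarith

namespace Par

variable {P : Par}

theorem b_ge (hP : P.Good) : 4 ≤ P.b := Nat.pow_le_pow_right two_pos hP.lb_ge

theorem N_mul_r (hP : P.Good) : P.N * P.r = P.b := by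
  rw [N, r, b, ← pow_add, Nat.add_sub_cancel' hP.ln_le]

theorem Om_pos (P : Par) : 1 ≤ P.Om := Nat.one_le_pow _ _ (by unfold Gm; positivity)

theorem T_ge (hP : P.Good) (i : ℕ) : 2 ≤ P.T i := by
  have h := Nat.mul_le_mul (Nat.mul_le_mul_left 4096 (b_ge hP)) (Nat.one_le_pow 2 _ hP.ell_pos)
  exact le_trans (by omega) ((h.trans hP.s0_ge).trans (Nat.pow_le_pow_right two_pos le_add_self))

theorem tau_bounds (hP : P.Good) (i : ℕ) :
    0 < P.tau i ∧ (P.T i : ℝ) / 2 ≤ P.tau i ∧ P.tau i ≤ P.T i := by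
  have h : (2 : ℝ) ≤ P.T i := by exact_mod_cast T_ge hP i
  rw [tau]
  generalize (P.T i : ℝ) = t at h
  have t0 : 0 < t := by linarith
  have t1 : 0 < t - 1 := by linarith
  have e : 1 - 1 / t = (t - 1) / t := by field_simp
  have h0 : 0 < 1 - 1 / t := e ▸ div_pos t1 t0
  have h1 : 1 / t ≤ -Real.log (1 - 1 / t) := by linarith [Real.log_le_sub_one_of_pos h0]
  have h2 : -Real.log (1 - 1 / t) ≤ 2 / t := by
    have := Real.one_sub_inv_le_log_of_pos h0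
    have a : (1 - 1 / t)⁻¹ - 1 ≤ 2 / t := by
      rw [e, inv_div, div_sub_one t1.ne', div_le_div_iff₀ t1 t0]
      linarith
    linarith
  have h3 := (one_div_pos.2 t0).trans_le h1
  rw [← div_neg_eq_neg_div']
  exact ⟨one_div_pos.2 h3, (one_div_div 2 t).ge.trans (one_div_le_one_div_of_le h3 h2),
    (one_div_le h3 t0).2 h1⟩

theorem soft_beta (hP : P.Good) (i : ℕ) : 0 < 1 - 1 / (P.T i : ℝ) :=
  sub_pos.2 ((div_lt_one (Nat.cast_pos.2 (two_pos.trans_le (T_ge hP i)))).2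
    (Nat.one_lt_cast.2 (T_ge hP i)))

theorem exp_tau (hP : P.Good) (i x : ℕ) :
    Real.exp (-(x : ℝ) / P.tau i) = (1 - 1 / (P.T i : ℝ)) ^ x := by
  rw [tau, neg_div, div_div_eq_mul_div, div_neg, div_one, neg_neg, Real.exp_nat_mul,
    Real.exp_log (soft_beta hP i)]

theorem EX_le (P : Par) (i x : ℕ) : P.EX i x ≤ P.Wz := by
  induction x with
  | zero => rfl
  | succ x ih => exact (Nat.sub_le _ _).trans ih

theorem soft_EX (hP : P.Good) (i x : ℕ) : P.Wz * (1 - 1 / (P.T i : ℝ)) ^ x ≤ P.EX i x ∧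
    (P.EX i x : ℝ) ≤ P.Wz * (1 - 1 / (P.T i : ℝ)) ^ x + P.T i := by
  have h0 := soft_beta hP i
  have t0 : (0 : ℝ) < P.T i := Nat.cast_pos.2 (two_pos.trans_le (T_ge hP i))
  induction x with
  | zero => simp [EX]
  | succ x ih =>
    have a1 : ((P.EX i x / P.T i : ℕ) : ℝ) ≤ P.EX i x / P.T i := Nat.cast_div_le
    have a2 := Nat.lt_floor_add_one (P.EX i x / P.T i : ℝ)
    have a3 := mul_le_mul_of_nonneg_right ih.1 h0.le
    have a4 := mul_le_mul_of_nonneg_right ih.2 h0.le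
    rw [Nat.floor_div_eq_div] at a2
    rw [add_mul, mul_sub (P.T i : ℝ), mul_one_div_cancel t0.ne'] at a4
    rw [mul_sub (P.EX i x : ℝ), mul_one_div] at a3 a4
    rw [EX, Nat.cast_sub (Nat.div_le_self _ _), pow_succ, ← mul_assoc]
    constructor <;> linarith

/-- The integer soft minimum is accurate up to 2. -/
theorem Fhat_err (hP : P.Good) {i : ℕ} (hi : i ≤ P.imax) {X : ℕ → ℕ}
    (hX : ∀ o < P.Om, X o ≤ P.Xmax) :
    |(P.Fhat i X : ℝ) - P.Fr i (fun o => (X o : ℝ))| ≤ 2 := by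
  have hτ := (tau_bounds hP i).1
  have hn := P.Om_pos
  have n0 : (0 : ℝ) < P.Om := Nat.cast_pos.2 hn
  have h0 := soft_beta hP i
  have t0 : (0 : ℝ) < P.T i := Nat.cast_pos.2 (two_pos.trans_le (T_ge hP i))
  have hW : (P.Om : ℝ) * P.T i < P.Wz * (1 / P.T i) := by
    rw [mul_one_div, lt_div_iff₀ t0, mul_assoc, ← sq]
    exact_mod_cast (Nat.mul_le_mul_left _ (Nat.pow_le_pow_left (Nat.pow_le_pow_right two_pos
      (Nat.add_le_add_right hi _)) 2)).trans_lt hP.Wz_gt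
  rw [Fhat, Fr]
  set mn := (range P.Om).fold min P.Xmax X
  have m1 : ∀ o < P.Om, mn ≤ X o := fun o ho => (fold_min_le _).2 (.inr ⟨o, mem_range.2 ho, le_rfl⟩)
  obtain ⟨o0, ho0, m2⟩ : ∃ o ∈ range P.Om, X o ≤ mn := ((fold_min_le _).1 le_rfl).elim
    (fun h => ⟨0, mem_range.2 hn, (hX 0 hn).trans h⟩) id
  have e1 : sm (P.tau i) P.Om (fun o => (X o : ℝ)) =
      sm (P.tau i) P.Om (fun o => ((X o - mn : ℕ) : ℝ)) + mn := by
    rw [← soft_shift hτ hn, sm, sm, sum_congr rfl fun o ho => ?_]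
    rw [Nat.cast_sub (m1 o (mem_range.1 ho)), sub_add_cancel]
  have y0 := sm_mono_add hτ hn (X := fun _ => 0) (Y := fun o => ((X o - mn : ℕ) : ℝ)) (c := 0)
    fun o _ => by simp
  have y1 := sm_mono_add hτ hn (X := fun o => ((X o - mn : ℕ) : ℝ)) (Y := fun _ => P.Xmax) (c := 0)
    fun o ho => (add_zero _).trans_le (Nat.cast_le.2 ((Nat.sub_le _ _).trans (hX o ho)))
  rw [sm_const hτ hn, add_zero] at y0 y1
  have e2 : P.Om * Real.exp (-sm (P.tau i) P.Om (fun o => ((X o - mn : ℕ) : ℝ)) / P.tau i) =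
      ∑ o ∈ range P.Om, (1 - 1 / (P.T i : ℝ)) ^ (X o - mn) := by
    rw [sm, neg_mul, neg_neg, mul_div_cancel_left₀ _ hτ.ne', Real.exp_log
      (div_pos (soft_pos hn _) n0), mul_div_cancel₀ _ n0.ne']
    simp only [exp_tau hP]
  rw [e1]
  generalize sm (P.tau i) P.Om (fun o => ((X o - mn : ℕ) : ℝ)) = ys at *
  have z1 := sum_le_sum (s := range P.Om) fun o _ => (soft_EX hP i (X o - mn)).1
  have z2 := sum_le_sum (s := range P.Om) fun o _ => (soft_EX hP i (X o - mn)).2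
  have s1 := single_le_sum (f := fun o => (1 - 1 / (P.T i : ℝ)) ^ (X o - mn))
    (fun _ _ => by positivity) ho0
  simp only [Nat.sub_eq_zero_of_le m2, pow_zero] at s1
  rw [sum_add_distrib, sum_const, card_range, nsmul_eq_mul] at z2
  rw [← mul_sum, ← Nat.cast_sum] at z1 z2
  generalize ∑ o ∈ range P.Om, (1 - 1 / (P.T i : ℝ)) ^ (X o - mn) = s at *
  generalize ∑ o ∈ range P.Om, P.EX i (X o - mn) = Z at *
  have w0 : (0 : ℝ) ≤ P.Wz * (1 / P.T i) := by positivity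
  have c1 : ∀ y : ℕ, Z ≤ P.Om * P.EX i (y + 1) → y < ys := fun y h => by
    refine lt_of_not_ge fun hy => ?_
    have a1 : P.Om * (1 - 1 / (P.T i : ℝ)) ^ y ≤ s := by
      rw [← e2, ← exp_tau hP]
      gcongr
    have a2 : (Z : ℝ) ≤ P.Om * P.EX i (y + 1) := by exact_mod_cast h
    have a3 := mul_le_mul_of_nonneg_left (soft_EX hP i (y + 1)).2 n0.le
    have a4 := mul_le_mul_of_nonneg_left a1 (mul_nonneg (P.Wz.cast_nonneg (α := ℝ)) h0.le)
    rw [pow_succ] at a3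
    nlinarith [mul_le_mul_of_nonneg_left s1 w0]
  have c2 : ∀ y : ℕ, ((y + 1 + 1 : ℕ) : ℝ) ≤ ys → Z ≤ P.Om * P.EX i (y + 1) := fun y h => by
    have a1 : s ≤ P.Om * (1 - 1 / (P.T i : ℝ)) ^ (y + 1 + 1) := by
      rw [← e2, ← exp_tau hP]
      gcongr
    have a3 := mul_le_mul_of_nonneg_left (soft_EX hP i (y + 1)).1 n0.le
    have a5 : 0 ≤ P.Om * (1 - 1 / (P.T i : ℝ)) ^ (y + 1) := by positivity
    rw [pow_succ, ← mul_assoc] at a1
    rw [mul_left_comm] at a3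
    generalize P.Om * (1 - 1 / (P.T i : ℝ)) ^ (y + 1) = g at *
    have a2 : 1 ≤ g := by nlinarith [mul_nonneg a5 (one_div_pos.2 t0).le]
    have a4 := mul_le_mul_of_nonneg_left a1 (P.Wz.cast_nonneg (α := ℝ))
    have : (Z : ℝ) ≤ P.Om * P.EX i (y + 1) := by nlinarith [mul_le_mul_of_nonneg_left a2 w0]
    exact_mod_cast this
  have d1 := card_le_card (show ((range P.Xmax).filter fun y => Z ≤ P.Om * P.EX i (y + 1)) ⊆
    range ⌈ys⌉₊ from fun y hy => mem_range.2 (Nat.lt_ceil.2 (c1 y (mem_filter.1 hy).2)))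
  have d2 := card_le_card (show range (⌊ys⌋₊ - 1) ⊆
      (range P.Xmax).filter fun y => Z ≤ P.Om * P.EX i (y + 1) from fun y hy => by
    have := mem_range.1 hy
    have a := (Nat.le_floor_iff y0).1 (show y + 1 + 1 ≤ ⌊ys⌋₊ by omega)
    have : y + 1 + 1 ≤ P.Xmax := Nat.cast_le.1 (a.trans y1)
    exact mem_filter.2 ⟨mem_range.2 (by omega), c2 y a⟩)
  rw [card_range] at d1 d2
  rw [← card_filter]
  generalize ((range P.Xmax).filter fun y => Z ≤ P.Om * P.EX i (y + 1)).card = c at d1 d2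
  have d3 : (c : ℝ) ≤ ⌈ys⌉₊ := Nat.cast_le.2 d1
  have d4 : (⌊ys⌋₊ : ℝ) ≤ c + 1 := by exact_mod_cast (by omega : ⌊ys⌋₊ ≤ c + 1)
  have d5 := Nat.ceil_lt_add_one y0
  have d6 := Nat.lt_floor_add_one ys
  rw [Nat.cast_add, abs_le]
  constructor <;> linarith

end Par

end Vale.Agent.P315
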