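import Vale.Agent.P315.RamDefs
import Vale.Agent.P315.Fill
import Vale.Agent.P315.Soft

namespace Vale.Agent.P315

open Finset

/-- All exponents that occur are covered by the table of powers. -/
def InitH (mm n : ℕ) : Prop :=
  (par mm n).pw ≤ Nat.log 2 n ∧ (par mm n).D * (par mm n).lb ≤ Nat.log 2 n + 1 ∧
    (64 * mm + 29) * (Nat.log 2 (Nat.log 2 n) / (64 * mm + 40)) ≤ Nat.log 2 n

/-- The tables of logarithms and powers are in place. -/
def InitB (n : ℕ) (m : Mem) : Prop :=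
  m 0 0 = n ∧ (∀ e ≤ n, m 19 e = Nat.log 2 e) ∧ ∀ i ≤ Nat.log 2 n + 1, m 18 i = 2 ^ i

theorem InitB.of {n : ℕ} {m m' : Mem} (h : InitB n m) (h0 : m' 0 = m 0) (h1 : m' 19 = m 19)
    (h2 : m' 18 = m 18) : InitB n m' := by
  unfold InitB
  rw [h0, h1, h2]
  exact h

/-- `f n e` is computed by a fixed expression (`e` is variable `0`). -/
def InitR (mm : ℕ) (f : ℕ → ℕ → ℕ) : Prop :=
  ∃ e : FE, e.noRd 5 = true ∧ ∀ n m, InitH mm n → InitB n m → e.eval m = f n (m 6 0)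

namespace InitR

variable {mm : ℕ} {f g : ℕ → ℕ → ℕ}

theorem c (k : ℕ) : InitR mm fun _ _ => k := ⟨.c k, rfl, fun _ _ _ _ => rfl⟩

theorem n : InitR mm fun n _ => n := ⟨.rd 0 (.c 0), rfl, fun _ _ _ h => h.1⟩

theorem bin (op : FE → FE → FE) (o : ℕ → ℕ → ℕ)
    (h1 : ∀ e e', (op e e').noRd 5 = (e.noRd 5 && e'.noRd 5))
    (h2 : ∀ e e' m, (op e e').eval m = o (e.eval m) (e'.eval m)) (hf : InitR mm f)
    (hg : InitR mm g) : InitR mm fun n e => o (f n e) (g n e) := by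
  obtain ⟨e, a1, a2⟩ := hf
  obtain ⟨e', b1, b2⟩ := hg
  exact ⟨op e e', by rw [h1, a1, b1]; rfl, fun n m k1 k2 => by rw [h2, a2 n m k1 k2, b2 n m k1 k2]⟩

theorem add (hf : InitR mm f) (hg : InitR mm g) : InitR mm fun n e => f n e + g n e :=
  bin .add (· + ·) (fun _ _ => rfl) (fun _ _ _ => rfl) hf hg

theorem sub (hf : InitR mm f) (hg : InitR mm g) : InitR mm fun n e => f n e - g n e :=
  bin .sub (· - ·) (fun _ _ => rfl) (fun _ _ _ => rfl) hf hg

theorem mul (hf : InitR mm f) (hg : InitR mm g) : InitR mm fun n e => f n e * g n e :=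
  bin .mul (· * ·) (fun _ _ => rfl) (fun _ _ _ => rfl) hf hg

theorem div (hf : InitR mm f) (hg : InitR mm g) : InitR mm fun n e => f n e / g n e :=
  bin .div (· / ·) (fun _ _ => rfl) (fun _ _ _ => rfl) hf hg

theorem log (hf : InitR mm f) (h : ∀ n e, f n e ≤ n) : InitR mm fun n e => Nat.log 2 (f n e) := by
  obtain ⟨e, a1, a2⟩ := hf
  refine ⟨.rd 19 e, by rw [FE.noRd, a1]; rfl, fun n m k1 k2 => ?_⟩
  rw [FE.eval, a2 n m k1 k2, k2.2.1 _ (h _ _)]

theorem pow (hf : InitR mm f) (h : ∀ n e, InitH mm n → f n e ≤ Nat.log 2 n + 1)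
    (h' : ∀ n e, g n e = 2 ^ f n e) : InitR mm g := by
  obtain ⟨e, a1, a2⟩ := hf
  refine ⟨.rd 18 e, by rw [FE.noRd, a1]; rfl, fun n m k1 k2 => ?_⟩
  rw [FE.eval, a2 n m k1 k2, k2.2.2 _ (h _ _ k1), h']

theorem nil (k : ℕ) : InitR mm fun _ e => ([] : List ℕ).getD (e - k) 0 :=
  ⟨.c 0, rfl, fun _ _ _ _ => rfl⟩

theorem cons {a : ℕ → ℕ} {l : ℕ → List ℕ} {k : ℕ} (hf : InitR mm fun n _ => a n)
    (hg : InitR mm fun n e => (l n).getD (e - (k + 1)) 0) :
    InitR mm fun n e => (a n :: l n).getD (e - k) 0 := by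
  obtain ⟨e, a1, a2⟩ := hf
  obtain ⟨e', b1, b2⟩ := hg
  refine ⟨.ifz (.sub (.v 0) (.c k)) e e', by simp only [FE.noRd, a1, b1]; rfl,
    fun n m k1 k2 => ?_⟩
  simp only [FE.eval, a2 n m k1 k2, b2 n m k1 k2]
  split_ifs with h
  · rw [h, List.getD_cons_zero]
  · rw [show m 6 0 - k = m 6 0 - (k + 1) + 1 by omega, List.getD_cons_succ]

theorem lg : InitR mm fun n _ => Nat.log 2 n := n.log fun _ _ => le_rfl

theorem ze : InitR mm fun n _ => Nat.log 2 (Nat.log 2 n) / (64 * mm + 40) :=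
  (lg.log fun _ _ => Nat.log_le_self _ _).div (c _)

theorem ln : InitR mm fun n _ => (par mm n).ln := (c 16).mul ze

theorem lb : InitR mm fun n _ => (par mm n).lb := (c (16 * mm)).mul ze

theorem D : InitR mm fun n _ => (par mm n).D :=
  ((lg.add (c 1)).sub ((c 2).mul (ze.pow (fun _ _ _ => (Nat.div_le_self _ _).trans
    ((Nat.log_le_self _ _).trans (Nat.le_succ _))) fun _ _ => rfl))).div lb

theorem be : InitR mm fun n _ => Nat.log 2 n + 2 - (par mm n).D * (par mm n).lb :=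
  (lg.add (c 2)).sub (D.mul lb)

theorem imax : InitR mm fun n _ => (par mm n).imax := (be.add lb).add (c 1)

theorem s0 : InitR mm fun n _ => (par mm n).s0 := ((c 12).add lb).add ((c 6).mul ze)

theorem B0 : InitR mm fun n _ => (par mm n).B0 :=
  be.pow (fun n _ h => by
    have k1 := h.1
    have k2 : (par mm n).imax =
      Nat.log 2 n + 2 - (par mm n).D * (par mm n).lb + (par mm n).lb + 1 := rfl
    unfold Par.pw at k1
    omega) fun _ _ => rfl

theorem K : InitR mm fun n _ => (par mm n).K :=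
  ((c (64 * mm + 29)).mul ze).pow (fun _ _ h => h.2.2.trans (Nat.le_succ _)) fun _ _ => rfl

theorem ell : InitR mm fun n _ => (par mm n).ell :=
  ((c 3).mul ze).pow (fun n _ h => by
    have k1 := h.1
    have k2 : (par mm n).s0 =
      12 + (par mm n).lb + 6 * (Nat.log 2 (Nat.log 2 n) / (64 * mm + 40)) := rfl
    unfold Par.pw at k1
    omega) fun _ _ => rfl

theorem RV : InitR mm fun n _ => (par mm n).RV :=
  (c 8).mul (imax.pow (fun n _ h => by
    have k1 := h.1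
    unfold Par.pw at k1
    omega) fun _ _ => rfl)

theorem S : InitR mm fun n _ => (par mm n).S := by
  have h := ((c (mm := mm) 32).mul lg).mul (RV.mul RV)
  simp only [← sq] at h
  exact h

theorem k0 : InitR mm fun n _ => (par mm n).k0 := imax.add (c 3)

theorem b : InitR mm fun n _ => (par mm n).b :=
  lb.pow (fun n _ h => by
    have k1 := h.1
    unfold Par.pw at k1
    omega) fun _ _ => rfl

theorem SZ : InitR mm fun n _ => (par mm n).SZ (par mm n).ell :=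
  ((ln.add (c 1)).mul ell).pow (fun n _ h => by
    have k1 := h.1
    unfold Par.pw at k1
    omega) fun _ _ => by rw [Par.SZ, Par.N, ← pow_succ', ← pow_mul]

theorem N : InitR mm fun n _ => (par mm n).N :=
  ln.pow (fun n _ h => by
    have k1 := h.1
    have k2 := Nat.le_mul_of_pos_right ((par mm n).ln + 1)
      (show 0 < (par mm n).ell from Nat.two_pow_pos _)
    unfold Par.pw at k1
    omega) fun _ _ => rfl

theorem r : InitR mm fun n _ => (par mm n).r :=
  (lb.sub ln).pow (fun n _ h => by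
    have k1 := h.1
    unfold Par.pw at k1
    omega) fun _ _ => rfl

theorem Om : InitR mm fun n _ => (par mm n).Om :=
  ((imax.add (c 1)).mul b).pow (fun n _ h => by
    have k1 := h.1
    unfold Par.pw at k1
    omega) fun _ _ => by rw [Par.Om, Par.Gm, ← pow_succ', ← pow_mul]

theorem Wz : InitR mm fun n _ => (par mm n).Wz :=
  ((((imax.add (c 1)).mul b).add ((c 2).mul (imax.add s0))).add (c 1)).pow (fun n _ h => by
    have k1 := h.1
    have k2 : (par mm n).wz = ((par mm n).imax + 1) * (par mm n).b +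
      2 * ((par mm n).imax + (par mm n).s0) + 1 := rfl
    unfold Par.pw at k1
    omega) fun _ _ => rfl

theorem NA : InitR mm fun n _ => (par mm n).NA :=
  (D.mul lb).pow (fun _ _ h => h.2.1) fun _ _ => by rw [Par.NA, Par.b, ← pow_mul, mul_comm]

theorem Xmax : InitR mm fun n _ => (par mm n).Xmax := (b.mul (K.add (c 3))).mul RV

theorem DW : InitR mm fun n _ => (par mm n).DW := ((c 2).mul RV).add (c 1)

theorem W : InitR mm fun n _ => (par mm n).W := NA.mul B0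

theorem TS : InitR mm fun n _ => (par mm n).TS := ((W.add RV).add (c 1)).mul DW

theorem STR : InitR mm fun n _ => (par mm n).STR :=
  ((S.add (b.mul (K.add (c 1)))).add N).mul TS

theorem allow : InitR mm fun n _ => (par mm n).allow :=
  ((D.mul (((c 6).mul ell).add (c 10))).add (c 3)).mul NA

theorem smL : InitR mm fun n e => (par mm n).smL.getD (e - 0) 0 :=
  cons b <| cons N <| cons K <| cons S <| cons (imax.add (c 1)) <| cons Om <| cons Xmax <|
    cons DW <| cons (B0.add (c 1)) <| cons lb <| cons r <| cons RV <| cons k0 <| cons ell <|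
    cons D <| cons B0 <| cons ln <| cons s0 <| nil _

theorem bgL : InitR mm fun n e => (par mm n).bgL.getD (e - 0) 0 :=
  cons TS <| cons STR <| cons NA <| cons W <| cons SZ <| cons allow <| cons Wz <| nil _

end InitR

theorem init_seq {P : List Cmd} {B : ℕ} {c d : Cmd} {m m' m'' : Mem} {U R k k' : ℕ}
    (h : Does P B c m m' (U * (k * R ^ k))) (hU : 1 ≤ U) (hR : 1 ≤ R)
    (h' : Does P B d m' m'' (U * (k' * R ^ k'))) :
    Does P B (.seq c d) m m'' (U * ((k + k' + 1) * R ^ (k + k' + 1))) := by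
  refine (h.seq h').mono ?_
  have k1 := cost_add hR k k'
  have k2 := cost_add hR (k + k') 1
  have k3 := fill_le hR 1
  refine le_trans ?_ (Nat.mul_le_mul_left U (show k * R ^ k + k' * R ^ k' + 1 ≤ _ by omega))
  rw [mul_add, mul_add]
  omega

theorem init_log {m : Mem} {e : ℕ} : (FE.ifz (.div (.v 0) (.c 2)) (.c 0) (.add (.rd 19 (.div (.v 0)
    (.c 2))) (.c 1))).eval ((upd m 19 0 e (Nat.log 2)).set 6 0 e) = Nat.log 2 e := by
  simp only [FE.eval, Mem.set_same]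
  split_ifs with h
  · exact (Nat.log_of_lt (by omega)).symm
  · rw [Mem.set_arr _ _ _ (by decide), upd_in0 _ _ _ _ (by omega),
      Nat.log_of_one_lt_of_le one_lt_two (show 2 ≤ e by omega)]

theorem init_pow {m : Mem} {e : ℕ} : (FE.ifz (.v 0) (.c 1) (.mul (.rd 18 (.sub (.v 0) (.c 1)))
    (.c 2))).eval ((upd m 18 0 e (2 ^ ·)).set 6 0 e) = 2 ^ e := by
  simp only [FE.eval, Mem.set_same]
  split_ifs with h
  · rw [h, pow_zero]
  · rw [Mem.set_arr _ _ _ (by decide), upd_in0 _ _ _ _ (by omega), ← pow_succ,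
      Nat.sub_add_cancel (by omega)]

theorem init_EX (mm : ℕ) : ∃ e : FE, e.noRd 5 = true ∧ ∀ n m t, InitH mm n → InitB n m →
    t < ((par mm n).imax + 1) * ((par mm n).Xmax + 1) → e.eval ((upd m 20 0 t fun t =>
      (par mm n).EX (t / ((par mm n).Xmax + 1)) (t % ((par mm n).Xmax + 1))).set 6 0 t) =
      (par mm n).EX (t / ((par mm n).Xmax + 1)) (t % ((par mm n).Xmax + 1)) := by
  obtain ⟨eX, x1, x2⟩ := (InitR.Xmax (mm := mm)).add (InitR.c 1)
  obtain ⟨eW, w1, w2⟩ := InitR.Wz (mm := mm)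
  obtain ⟨eS, s1, s2⟩ := InitR.s0 (mm := mm)
  refine ⟨.ifz (.mod (.v 0) eX) eW (.sub (.rd 20 (.sub (.v 0) (.c 1))) (.div (.rd 20 (.sub (.v 0)
    (.c 1))) (.rd 18 (.add (.div (.v 0) eX) eS)))), by simp only [FE.noRd, x1, w1, s1]; rfl,
    fun n m t h1 h2 ht => ?_⟩
  generalize hm : (upd m 20 0 t fun t =>
      (par mm n).EX (t / ((par mm n).Xmax + 1)) (t % ((par mm n).Xmax + 1))).set 6 0 t = m'
  have h3 : InitB n m' := h2.of (by simp [← hm]) (by simp [← hm]) (by simp [← hm])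
  have h4 : m' 6 0 = t := by simp [← hm]
  simp only [FE.eval, x2 n m' h1 h3, w2 n m' h1 h3, s2 n m' h1 h3, h4]
  have k1 := (Nat.div_lt_iff_lt_mul (Nat.add_one_pos _)).2 ht
  have k2 := h1.1
  unfold Par.pw at k2
  rw [h3.2.2 _ (by omega)]
  rcases k3 : t % ((par mm n).Xmax + 1) with _ | u
  · rfl
  · have k4 := Nat.div_add_mod t ((par mm n).Xmax + 1)
    have k5 := Nat.mod_lt t (Nat.add_one_pos (par mm n).Xmax)
    have k6 := (Nat.div_mod_unique (a := t - 1) (d := t / ((par mm n).Xmax + 1)) (c := u)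
      (Nat.add_one_pos (par mm n).Xmax)).2 ⟨by omega, by omega⟩
    rw [if_neg (Nat.succ_ne_zero u), ← hm, Mem.set_arr _ _ _ (by decide),
      upd_in0 _ _ _ _ (by omega), k6.1, k6.2]
    rfl

/-- Initialisation: logarithms, powers of two, parameters, tables `EX`, root frame. -/
theorem init_ex (mm : ℕ) : ∃ (c : Cmd) (κ : ℕ), ∀ (n : ℕ) (x y : List ℕ) (L : ℕ)
    (r : Fin L → Bool) (Pr : List Cmd) (B V R : ℕ), (par mm n).Good → Env B V R κ →
    (par mm n).big ≤ V → (par mm n).small ≤ R → 4 * n + 4 ≤ V →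
    (par mm n).pw ≤ Nat.log 2 n → 2 * n ≤ (par mm n).W →
    (par mm n).D * (par mm n).lb ≤ Nat.log 2 n + 1 → (64 * mm + 29) * (Nat.log 2 (Nat.log 2 n)
      / (64 * mm + 40)) ≤ Nat.log 2 n →
    Bd V (input n x y r) →
    ∃ m', Does Pr B c (input n x y r) m' (((par mm n).TS + 7) * (κ * R ^ κ)) ∧
      (par mm n).RO x y (ext r) R m' ∧ Bd V m' ∧ Fr m' 0 ⟨2, 0, 0, 0, 0, 0⟩ := by
  obtain ⟨eL, l1, l2⟩ := InitR.smL (mm := mm)
  obtain ⟨eG, g1, g2⟩ := InitR.bgL (mm := mm)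
  obtain ⟨eZ, z1, z2⟩ := ((InitR.imax (mm := mm)).add (.c 1)).mul (InitR.Xmax.add (.c 1))
  obtain ⟨eE, e1, e2⟩ := init_EX mm
  obtain ⟨c1, κ1, H1⟩ := fill_ex 19 (by decide) (by decide) (.c 0) (.add (.rd 0 (.c 0)) (.c 1))
    (.ifz (.div (.v 0) (.c 2)) (.c 0) (.add (.rd 19 (.div (.v 0) (.c 2))) (.c 1))) rfl rfl rfl
  obtain ⟨c2, κ2, H2⟩ := fill_ex 18 (by decide) (by decide) (.c 0)
    (.add (.rd 19 (.rd 0 (.c 0))) (.c 2))
    (.ifz (.v 0) (.c 1) (.mul (.rd 18 (.sub (.v 0) (.c 1))) (.c 2))) rfl rfl rfl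
  obtain ⟨c3, κ3, H3⟩ := fill_ex 17 (by decide) (by decide) (.c 0) (.c 7) eG rfl rfl g1
  obtain ⟨c4, κ4, H4⟩ := fill_ex 20 (by decide) (by decide) (.c 0) eZ eE rfl z1 e1
  obtain ⟨c5, κ5, H5⟩ := fill_ex 9 (by decide) (by decide) (.c 0) (.c 1) (.c 2) rfl rfl rfl
  obtain ⟨c6, κ6, H6⟩ := fill_ex 7 (by decide) (by decide) (.c 0) (.c 18) eL rfl rfl l1
  refine ⟨.seq (.seq (.seq (.seq (.seq c1 c2) c3) c4) c5) c6,
    κ1 + κ2 + 1 + κ3 + 1 + (κ4 + 2) + 1 + κ5 + 1 + κ6 + 1, ?_⟩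
  intro n x y L r Pr B V R hP hE hbig hsm hn hpw hW hD hK hB
  have hH : InitH mm n := ⟨hpw, hD, hK⟩
  generalize hPP : par mm n = P at *
  have hR := hE.hR
  have a1 : 8 ≤ P.RV := Nat.le_mul_of_pos_right 8 (Nat.two_pow_pos _)
  have a2 : P.W + 18 ≤ P.TS :=
    le_trans (by omega) (Nat.mul_le_mul_left (P.W + P.RV + 1) (show 17 ≤ 2 * P.RV + 1 by omega))
  have a3 : P.TS ≤ P.b * P.TS := Nat.le_mul_of_pos_left _ (Nat.two_pow_pos _)
  have a4 : P.STR + 8 ≤ (2 * P.D + 5) * (P.STR + 8) := Nat.le_mul_of_pos_left _ (by omega)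
  have a5 := Nat.log_le_self 2 n
  have a6 : 2 ^ (Nat.log 2 n + 1) ≤ V := by
    have := Nat.pow_log_le_add_one 2 n
    omega
  have a7 : P.imax + 1 ≤ R := (P.smL_le 4).trans hsm
  have a8 : P.Xmax ≤ R := (P.smL_le 6).trans hsm
  have a9 := Nat.two_pow_pos P.pw
  unfold Par.big at hbig
  set m0 := input n x y r with hm0
  set m1 := upd m0 19 0 (n + 1) (Nat.log 2) with hm1
  set m2 := upd m1 18 0 (Nat.log 2 n + 2) (2 ^ ·) with hm2
  set m3 := upd m2 17 0 7 (fun e => P.bgL.getD e 0) with hm3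
  set m4 := upd m3 20 0 ((P.imax + 1) * (P.Xmax + 1))
    (fun t => P.EX (t / (P.Xmax + 1)) (t % (P.Xmax + 1))) with hm4
  set m5 := upd m4 9 0 1 (fun _ => 2) with hm5
  set m6 := upd m5 7 0 18 (fun e => P.smL.getD e 0) with hm6
  have v1 : ∀ e < n + 1, Nat.log 2 e ≤ V := fun e he => (Nat.log_le_self 2 e).trans (by omega)
  have v2 : ∀ e < Nat.log 2 n + 2, 2 ^ e ≤ V := fun e he =>
    (Nat.pow_le_pow_right two_pos (by omega)).trans a6
  have v3 : ∀ e < 7, P.bgL.getD e 0 ≤ V := fun e he => by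
    unfold Par.bgL
    interval_cases e <;> simp only [List.getD_cons_zero, List.getD_cons_succ] <;> omega
  have v4 : ∀ t < (P.imax + 1) * (P.Xmax + 1), P.EX (t / (P.Xmax + 1)) (t % (P.Xmax + 1)) ≤ V :=
    fun t _ => (P.EX_le _ _).trans (by omega)
  have v5 : ∀ e < 1, 2 ≤ V := fun _ _ => hE.h2
  have v6 : ∀ e < 18, P.smL.getD e 0 ≤ R := fun e _ => (P.smL_le e).trans hsm
  have b1 : Bd V m1 := hB.upd _ _ _ v1
  have b2 : Bd V m2 := b1.upd _ _ _ v2
  have b3 : Bd V m3 := b2.upd _ _ _ v3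
  have b4 : Bd V m4 := b3.upd _ _ _ v4
  have b5 : Bd V m5 := b4.upd _ _ _ v5
  have i2 : InitB n m2 := ⟨rfl, fun e he => upd_in0 m0 19 (n + 1) _ (by omega), fun i hi =>
    upd_in0 _ _ _ _ (by omega)⟩
  have i3 : InitB n m3 := i2.of (by simp [hm3]) (by simp [hm3]) (by simp [hm3])
  have i5 : InitB n m5 := i3.of (by simp [hm5, hm4]) (by simp [hm5, hm4]) (by simp [hm5, hm4])
  have d1 := H1 Pr B V R m0 (Nat.log 2) 0 (n + 1) (hE.mono (by omega)) hB
    (fun _ => Nat.zero_le _) rfl rfl (by omega) v1 (by omega) fun _ _ => init_log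
  have d2 := H2 Pr B V R m1 (2 ^ ·) 0 (Nat.log 2 n + 2) (hE.mono (by omega)) b1
    (fun _ => Nat.zero_le _) rfl (congrArg (· + 2) (i2.2.1 n le_rfl)) (by omega) v2 (by omega)
    fun _ _ => init_pow
  have d3 := H3 Pr B V R m2 _ 0 7 (hE.mono (by omega)) b2 (fun _ => Nat.zero_le _) rfl rfl
    (by omega) v3 (by omega) fun e _ => by
      rw [g2 n _ hH (i2.of (by simp) (by simp) (by simp)), Mem.set_same, ← hPP]
      rfl
  have d4 := H4 Pr B V R m3 _ 0 _ (hE.mono (by omega)) b3 (fun _ => Nat.zero_le _) rfl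
    (by rw [z2 n _ hH i3, ← hPP]) (by omega) v4 (by omega) fun t ht => by
      have := e2 n m3 t hH i3
      rw [hPP] at this
      exact this ht
  have d5 := H5 Pr B V R m4 _ 0 1 (hE.mono (by omega)) b4 (fun _ => Nat.zero_le _) rfl rfl
    (by omega) v5 (by omega) fun _ _ => rfl
  have d6 := H6 Pr B V R m5 _ 0 18 (hE.mono (by omega)) b5 (fun _ => Nat.zero_le _) rfl rfl
    (by omega) (fun e he => (v6 e he).trans hE.hRV) (fun _ => v6) fun e _ => by
      rw [l2 n _ hH (i5.of (by simp) (by simp) (by simp)), Mem.set_same, ← hPP]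
      rfl
  have u1 : 1 ≤ P.TS + 7 := by omega
  have t4 : ((P.imax + 1) * (P.Xmax + 1) + 1) * (κ4 * R ^ κ4) ≤
      (P.TS + 7) * ((κ4 + 2) * R ^ (κ4 + 2)) := by
    have k1 : (P.imax + 1) * (P.Xmax + 1) + 1 ≤ 3 * R ^ 2 := by
      nlinarith [Nat.mul_le_mul a7 (Nat.add_le_add_right a8 1)]
    calc _ ≤ 3 * R ^ 2 * ((κ4 + 2) * R ^ κ4) := by gcongr; omega
      _ = 3 * ((κ4 + 2) * R ^ (κ4 + 2)) := by ring
      _ ≤ _ := Nat.mul_le_mul_right _ (by omega)
  refine ⟨m6, init_seq (init_seq (init_seq (init_seq (init_seq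
    (d1.mono (Nat.mul_le_mul_right _ (by omega))) u1 hR
    (d2.mono (Nat.mul_le_mul_right _ (by omega)))) u1 hR
    (d3.mono (Nat.mul_le_mul_right _ (by omega)))) u1 hR (d4.mono t4)) u1 hR
    (d5.mono (Nat.mul_le_mul_right _ (by omega)))) u1 hR
    (d6.mono (Nat.mul_le_mul_right _ (by omega))),
    ⟨rfl, rfl, fun _ => rfl, fun _ => rfl, fun i => ?_, fun i => ?_,
      fun i hi => upd_in0 m2 17 7 (fun e => P.bgL.getD e 0) hi, fun i hi => i2.2.2 i (by omega),
      fun i hi u hu => ?_, hsm⟩,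
    b5.upd _ _ _ fun e he => (v6 e he).trans hE.hRV, rfl, fun e he => ?_⟩
  · change (if h : i < L then (if r ⟨i, h⟩ then 1 else 0) else 0) = _
    unfold ext
    by_cases h : i < L
    · rw [dif_pos h, dif_pos h]
    · rw [dif_neg h, dif_neg h]
      rfl
  · rcases Nat.lt_or_ge i 18 with hi | hi
    · exact upd_in0 _ _ _ _ hi
    · rw [List.getD_eq_default _ _ hi]
      exact upd_out _ _ _ _ _ _ (by omega)
  · have k1 := (Nat.div_mod_unique (a := i * (P.Xmax + 1) + u) (d := i) (c := u)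
      (Nat.add_one_pos P.Xmax)).2 ⟨by ring, by omega⟩
    refine (upd_in0 m3 20 ((P.imax + 1) * (P.Xmax + 1)) (fun t => P.EX (t / (P.Xmax + 1))
      (t % (P.Xmax + 1))) (e := i * (P.Xmax + 1) + u) (by nlinarith)).trans ?_
    rw [k1.1, k1.2]
  · interval_cases e <;> rfl

end Vale.Agent.P315
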