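import Vale.Agent.P315.Model

/-! A functional expression language `FE` (compiled to `Cmd` in `Comp.lean`) and a Hoare-style
layer `Does`.  Array 5 is the scratch stack of compiled code, array 6 holds the variables of `FE`,
array 7 holds the small parameters that serve as ranges of the folds. -/

namespace Vale.Agent.P315

open Finset

inductive FE
  | c (k : ℕ)
  | v (x : ℕ)
  | rd (a : ℕ) (e : FE)
  | add (e f : FE)
  | sub (e f : FE)
  | mul (e f : FE)
  | div (e f : FE)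
  | mod (e f : FE)
  | ifz (e f g : FE)
  | lt (x : ℕ) (e f : FE)
  | sum (x r : ℕ) (e : FE)
  | mn (x r : ℕ) (i e : FE)

/-- `lt x e f` is `let x := e; f`, `sum x r e` sums `e` over `x < m 7 r`, `mn x r i e` is the
minimum of `i` and of `e` over `x < m 7 r`. -/
def FE.eval : FE → Mem → ℕ
  | .c k, _ => k
  | .v x, m => m 6 x
  | .rd a e, m => m a (e.eval m)
  | .add e f, m => e.eval m + f.eval m
  | .sub e f, m => e.eval m - f.eval m
  | .mul e f, m => e.eval m * f.eval m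
  | .div e f, m => e.eval m / f.eval m
  | .mod e f, m => e.eval m % f.eval m
  | .ifz e f g, m => if e.eval m = 0 then f.eval m else g.eval m
  | .lt x e f, m => f.eval (m.set 6 x (e.eval m))
  | .sum x r e, m => ∑ t ∈ range (m 7 r), e.eval (m.set 6 x t)
  | .mn x r i e, m => (range (m 7 r)).fold min (i.eval m) (fun t => e.eval (m.set 6 x t))

/-- The expression contains no `rd a`. -/
def FE.noRd (a : ℕ) : FE → Bool
  | .c _ => true
  | .v _ => true
  | .rd b e => (b != a) && e.noRd a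
  | .add e f => e.noRd a && f.noRd a
  | .sub e f => e.noRd a && f.noRd a
  | .mul e f => e.noRd a && f.noRd a
  | .div e f => e.noRd a && f.noRd a
  | .mod e f => e.noRd a && f.noRd a
  | .ifz e f g => e.noRd a && f.noRd a && g.noRd a
  | .lt _ e f => e.noRd a && f.noRd a
  | .sum _ _ e => e.noRd a
  | .mn _ _ i e => i.noRd a && e.noRd a

/-- All cells outside the scratch stack are at most `V`. -/
def Bd (V : ℕ) (m : Mem) : Prop := ∀ a i, a ≠ 5 → m a i ≤ V

/-- All fold ranges are at most `R`. -/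
def Sm (R : ℕ) (m : Mem) : Prop := ∀ r, m 7 r ≤ R

/-- Equality outside the scratch stack. -/
def Eqv (m m' : Mem) : Prop := ∀ a i, a ≠ 5 → m a i = m' a i

/-- `c` takes `m` to `m'` in at most `T` steps, up to the content of the scratch stack. -/
def Does (P : List Cmd) (B : ℕ) (c : Cmd) (m m' : Mem) (T : ℕ) : Prop :=
  ∀ m₀, Eqv m₀ m → ∃ m₁ t, Exec P B c m₀ m₁ t ∧ Eqv m₁ m' ∧ t ≤ T

/-- Word bound `B`, value bound `V`, range bound `R`, program constant `κ`. -/
structure Env (B V R κ : ℕ) : Prop where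
  hκ : κ ≤ V
  hB : V ^ κ < B
  hR : 1 ≤ R
  hRV : R ≤ V
  h2 : 2 ≤ V

/-- Overwrite the cells `β, …, β+σ-1` of array `arr` by `g 0, …, g (σ-1)`. -/
def upd (m : Mem) (arr β σ : ℕ) (g : ℕ → ℕ) : Mem :=
  fun a i => if a = arr ∧ β ≤ i ∧ i < β + σ then g (i - β) else m a i

@[simp] theorem Mem.set_same (m : Mem) (a i v : ℕ) : m.set a i v a i = v := by simp [Mem.set]

theorem Mem.set_apply (m : Mem) (a i v a' i' : ℕ) :
    m.set a i v a' i' = if a' = a ∧ i' = i then v else m a' i' := rfl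

@[simp] theorem Mem.set_arr (m : Mem) {a a' : ℕ} (i v : ℕ) (h : a' ≠ a) :
    m.set a i v a' = m a' := by funext i'; simp [Mem.set, h]

@[simp] theorem Mem.set_idx (m : Mem) (a v : ℕ) {i i' : ℕ} (h : i' ≠ i) :
    m.set a i v a i' = m a i' := by simp [Mem.set, h]

@[simp] theorem upd_arr (m : Mem) {arr a : ℕ} (β σ : ℕ) (g : ℕ → ℕ) (h : a ≠ arr) :
    upd m arr β σ g a = m a := by funext i; simp [upd, h]

theorem upd_in (m : Mem) (arr β σ : ℕ) (g : ℕ → ℕ) {e : ℕ} (h : e < σ) :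
    upd m arr β σ g arr (β + e) = g e := by simp [upd, h]

theorem upd_in0 (m : Mem) (arr σ : ℕ) (g : ℕ → ℕ) {e : ℕ} (h : e < σ) :
    upd m arr 0 σ g arr e = g e := by simp [upd, h]

theorem upd_out (m : Mem) (arr β σ : ℕ) (g : ℕ → ℕ) (a : ℕ) {i : ℕ} (h : i < β ∨ β + σ ≤ i) :
    upd m arr β σ g a i = m a i := by
  unfold upd; rw [if_neg]; omega

theorem Bd.upd {V : ℕ} {m : Mem} (h : Bd V m) (arr β σ : ℕ) {g : ℕ → ℕ}
    (hg : ∀ e < σ, g e ≤ V) : Bd V (upd m arr β σ g) := by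
  intro a i ha
  unfold Vale.Agent.P315.upd
  split_ifs with hc
  · exact hg _ (by omega)
  · exact h a i ha

theorem Eqv.refl (m : Mem) : Eqv m m := fun _ _ _ => rfl
theorem Eqv.symm {m m' : Mem} (h : Eqv m m') : Eqv m' m := fun a i ha => (h a i ha).symm
theorem Eqv.trans {m m' m'' : Mem} (h : Eqv m m') (h' : Eqv m' m'') : Eqv m m'' :=
  fun a i ha => (h a i ha).trans (h' a i ha)

theorem Env.mono {B V R κ κ' : ℕ} (h : Env B V R κ) (hk : κ' ≤ κ) : Env B V R κ' :=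
  ⟨hk.trans h.hκ, lt_of_le_of_lt (Nat.pow_le_pow_right (by have := h.h2; omega) hk) h.hB,
    h.hR, h.hRV, h.h2⟩

theorem cost_mono {R κ κ' : ℕ} (hR : 1 ≤ R) (hk : κ' ≤ κ) : κ' * R ^ κ' ≤ κ * R ^ κ :=
  Nat.mul_le_mul hk (Nat.pow_le_pow_right hR hk)

theorem cost_add {R : ℕ} (hR : 1 ≤ R) (κ κ' : ℕ) :
    κ * R ^ κ + κ' * R ^ κ' ≤ (κ + κ') * R ^ (κ + κ') := by
  rw [add_mul]
  exact Nat.add_le_add (Nat.mul_le_mul_left _ (Nat.pow_le_pow_right hR (by omega)))
    (Nat.mul_le_mul_left _ (Nat.pow_le_pow_right hR (by omega)))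

theorem Does.mono {P : List Cmd} {B : ℕ} {c : Cmd} {m m' : Mem} {T T' : ℕ}
    (h : Does P B c m m' T) (hT : T ≤ T') : Does P B c m m' T' := by
  intro m₀ h0
  obtain ⟨m₁, t, h1, h2, h3⟩ := h m₀ h0
  exact ⟨m₁, t, h1, h2, h3.trans hT⟩

theorem Does.seq {P : List Cmd} {B : ℕ} {c d : Cmd} {m m' m'' : Mem} {T T' : ℕ}
    (h : Does P B c m m' T) (h' : Does P B d m' m'' T') :
    Does P B (.seq c d) m m'' (T + T' + 1) := by
  intro m₀ h0
  obtain ⟨m₁, t, h1, h2, h3⟩ := h m₀ h0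
  obtain ⟨m₂, t', h4, h5, h6⟩ := h' m₁ h2
  exact ⟨m₂, _, Exec.seq h1 h4, h5, by omega⟩

theorem Does.call {P : List Cmd} {B p : ℕ} {c : Cmd} {m m' : Mem} {T : ℕ}
    (hp : P[p]? = some c) (h : Does P B c m m' T) : Does P B (.call p) m m' (T + 1) := by
  intro m₀ h0
  obtain ⟨m₁, t, h1, h2, h3⟩ := h m₀ h0
  exact ⟨m₁, _, Exec.call hp h1, h2, by omega⟩

theorem Does.congr {P : List Cmd} {B : ℕ} {c : Cmd} {m m' m₁ m₁' : Mem} {T : ℕ}
    (h : Does P B c m m' T) (h1 : Eqv m₁ m) (h2 : Eqv m' m₁') : Does P B c m₁ m₁' T := by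
  intro m₀ h0
  obtain ⟨m₂, t, h3, h4, h5⟩ := h m₀ (h0.trans h1)
  exact ⟨m₂, t, h3, h4.trans h2, h5⟩

theorem Exec.det {P : List Cmd} {B : ℕ} {c : Cmd} {m m₁ m₂ : Mem} {t₁ t₂ : ℕ}
    (h1 : Exec P B c m m₁ t₁) (h2 : Exec P B c m m₂ t₂) : m₁ = m₂ := by
  induction h1 generalizing m₂ t₂ with
  | skip => cases h2; rfl
  | store => cases h2; rfl
  | seq _ _ ih1 ih2 =>
    cases h2 with
    | seq a b => obtain rfl := ih1 a; exact ih2 b
  | ifzero _ h0 _ ih =>
    cases h2 with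
    | ifzero _ _ a => exact ih a
    | ifpos _ hn _ => exact absurd h0 hn
  | ifpos _ hn _ ih =>
    cases h2 with
    | ifzero _ h0 _ => exact absurd h0 hn
    | ifpos _ _ a => exact ih a
  | loopdone _ h0 =>
    cases h2 with
    | loopdone => rfl
    | loopstep _ hn _ _ => exact absurd h0 hn
  | loopstep _ hn _ _ ih1 ih2 =>
    cases h2 with
    | loopdone _ h0 => exact absurd h0 hn
    | loopstep _ _ a b => obtain rfl := ih1 a; exact ih2 b
  | call hp _ ih =>
    cases h2 with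
    | call hp' a => rw [hp] at hp'; cases hp'; exact ih a

end Vale.Agent.P315
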