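import Vale.Agent.P315.Defs

namespace Vale.Agent.P315

open Finset

theorem lev_nil_left (v : List ℕ) : lev [] v = v.length := by rw [lev]

theorem lev_nil_right (u : List ℕ) : lev u [] = u.length := by
  cases u with
  | nil => rw [lev]
  | cons c u => rw [lev]

theorem lev_cons_cons (c d : ℕ) (u v : List ℕ) : lev (c :: u) (d :: v) =
    min (min (lev u (d :: v) + 1) (lev (c :: u) v + 1)) (lev u v + if c = d then 0 else 1) := by
  rw [lev]

theorem lev_cons_left_le (c : ℕ) (u v : List ℕ) : lev (c :: u) v ≤ lev u v + 1 := by
  cases v with
  | nil => simp [lev_nil_right]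
  | cons d v => rw [lev_cons_cons]; omega

theorem lev_cons_right_le (d : ℕ) (u v : List ℕ) : lev u (d :: v) ≤ lev u v + 1 := by
  cases u with
  | nil => simp [lev_nil_left]
  | cons c u => rw [lev_cons_cons]; omega

theorem lev_cons_both_le (c d : ℕ) (u v : List ℕ) :
    lev (c :: u) (d :: v) ≤ lev u v + if c = d then 0 else 1 := by
  rw [lev_cons_cons]; omega

theorem lev_comm (u v : List ℕ) : lev u v = lev v u := by
  induction u generalizing v with
  | nil => rw [lev_nil_left, lev_nil_right]
  | cons c u ih =>
    induction v with
    | nil => rw [lev_nil_left, lev_nil_right]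
    | cons d v ih' =>
      rw [lev_cons_cons, lev_cons_cons, ih, ih', ih v]
      have : (if c = d then 0 else 1 : ℕ) = if d = c then 0 else 1 := by simp only [eq_comm]
      omega

theorem lev_append_le (u v u' v' : List ℕ) : lev (u ++ u') (v ++ v') ≤ lev u v + lev u' v' := by
  induction u generalizing v with
  | nil =>
    induction v with
    | nil => simp
    | cons d v ih =>
      have := lev_cons_right_le d u' (v ++ v')
      simp only [List.nil_append, lev_nil_left, List.cons_append, List.length_cons] at *
      omega
  | cons c u ih =>
    induction v with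
    | nil =>
      have := lev_cons_left_le c (u ++ u') v'
      have h := ih []
      simp only [List.nil_append, lev_nil_right, List.cons_append, List.length_cons] at *
      omega
    | cons d v ih' =>
      have h1 := ih (d :: v)
      have h2 := ih v
      simp only [List.cons_append] at *
      rw [lev_cons_cons, lev_cons_cons c d u v]
      omega

theorem lev_le_add (u v : List ℕ) : lev u v ≤ u.length + v.length := by
  simpa [lev_nil_left, lev_nil_right] using lev_append_le u [] [] v

theorem lev_ge_left (u v : List ℕ) : u.length ≤ lev u v + v.length := by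
  induction u generalizing v with
  | nil => simp
  | cons c u ih =>
    induction v with
    | nil => simp [lev_nil_right]
    | cons d v ih' =>
      have h1 := ih (d :: v)
      have h2 := ih v
      rw [lev_cons_cons]
      simp only [List.length_cons] at *
      omega

theorem lev_ge (u v : List ℕ) : u.length ≤ lev u v + v.length ∧ v.length ≤ lev u v + u.length :=
  ⟨lev_ge_left u v, lev_comm u v ▸ lev_ge_left v u⟩

theorem lev_self (u : List ℕ) : lev u u = 0 := by
  induction u with
  | nil => simp [lev_nil_left]
  | cons c u ih => simpa [ih] using lev_cons_both_le c c u u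

theorem lev_le_cons_left (c : ℕ) (u v : List ℕ) : lev u v ≤ lev (c :: u) v + 1 := by
  induction v with
  | nil => simp only [lev_nil_right, List.length_cons]; omega
  | cons d v ih =>
    have := lev_cons_right_le d u v
    rw [lev_cons_cons]
    omega

theorem lev_sub_le (c d : ℕ) (u v : List ℕ) : lev (c :: u) v ≤ lev (d :: u) v + 1 := by
  induction v with
  | nil => simp [lev_nil_right]
  | cons e v ih =>
    rw [lev_cons_cons, lev_cons_cons]
    split_ifs <;> omega

theorem lev_step_cons {x y : List ℕ} (h : ∀ z, lev x z ≤ lev y z + 1) (a : ℕ) (z : List ℕ) :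
    lev (a :: x) z ≤ lev (a :: y) z + 1 := by
  induction z with
  | nil => simpa [lev_nil_right] using h []
  | cons d z ih =>
    have h1 := h (d :: z)
    have h2 := h z
    rw [lev_cons_cons, lev_cons_cons]
    omega

theorem lev_step_append {x y : List ℕ} (h : ∀ z, lev x z ≤ lev y z + 1) (u z : List ℕ) :
    lev (u ++ x) z ≤ lev (u ++ y) z + 1 := by
  induction u generalizing z with
  | nil => exact h z
  | cons a u ih => exact lev_step_cons ih a z

theorem lev_edit {x y : List ℕ} (h : Edit x y) (z : List ℕ) : lev x z ≤ lev y z + 1 := by
  cases h with
  | ins u v c => exact lev_step_append (lev_le_cons_left c v) u z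
  | del u v c => exact lev_step_append (lev_cons_left_le c v) u z
  | sub u v c d => exact lev_step_append (lev_sub_le c d v) u z

theorem lev_snoc_left (u v : List ℕ) (c : ℕ) : lev u v ≤ lev (u ++ [c]) v + 1 := by
  simpa using lev_edit (Edit.ins u [] c) v

theorem lev_snoc_right (u v : List ℕ) (c : ℕ) : lev u v ≤ lev u (v ++ [c]) + 1 := by
  rw [lev_comm u, lev_comm u]
  exact lev_snoc_left v u c

theorem lev_snoc_both (u v : List ℕ) (c : ℕ) : lev (u ++ [c]) (v ++ [c]) = lev u v := by
  refine le_antisymm (by simpa [lev_self] using lev_append_le u v [c] [c]) ?_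
  induction u generalizing v with
  | nil =>
    have := (lev_ge ([] ++ [c]) (v ++ [c])).2
    simp only [lev_nil_left, List.length_append, List.length_cons, List.length_nil] at *
    omega
  | cons a u ih =>
    induction v with
    | nil =>
      have := (lev_ge (a :: u ++ [c]) ([] ++ [c])).1
      simp only [lev_nil_right, List.length_append, List.length_cons, List.length_nil] at *
      omega
    | cons d v ih' =>
      have h1 := ih (d :: v)
      have h2 := ih v
      simp only [List.cons_append] at *
      rw [lev_cons_cons, lev_cons_cons]
      omega

theorem lev_edits_cons {k : ℕ} {x y : List ℕ} (h : Edits k x y) (a : ℕ) :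
    Edits k (a :: x) (a :: y) := by
  induction h with
  | zero x => exact Edits.zero _
  | succ e _ ih =>
    refine Edits.succ ?_ ih
    cases e with
    | ins u v c => exact Edit.ins (a :: u) v c
    | del u v c => exact Edit.del (a :: u) v c
    | sub u v c d => exact Edit.sub (a :: u) v c d

theorem lev_edits (x y : List ℕ) : Edits (lev x y) x y := by
  induction x generalizing y with
  | nil =>
    rw [lev_nil_left]
    induction y with
    | nil => exact Edits.zero _
    | cons d y ih => exact Edits.succ (Edit.ins [] [] d) (lev_edits_cons ih d)
  | cons c x ih =>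
    induction y with
    | nil =>
      have := ih []
      rw [lev_nil_right] at *
      exact Edits.succ (Edit.del [] x c) this
    | cons d y ih' =>
      have h1 : Edits (lev x (d :: y) + 1) (c :: x) (d :: y) := Edits.succ (Edit.del [] x c) (ih _)
      have h2 : Edits (lev (c :: x) y + 1) (c :: x) (d :: y) :=
        Edits.succ (Edit.ins [] (c :: x) d) (lev_edits_cons ih' d)
      have h3 : Edits (lev x y + if c = d then 0 else 1) (c :: x) (d :: y) := by
        split_ifs with h
        · subst h; exact lev_edits_cons (ih y) c
        · exact Edits.succ (Edit.sub [] x c d) (lev_edits_cons (ih y) d)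
      rw [lev_cons_cons]
      rcases min_choice (min (lev x (d :: y) + 1) (lev (c :: x) y + 1))
        (lev x y + if c = d then 0 else 1) with e | e
      · rw [e]
        rcases min_choice (lev x (d :: y) + 1) (lev (c :: x) y + 1) with e | e <;> rwa [e]
      · rwa [e]

theorem lev_le_of_edits {k : ℕ} {x y : List ℕ} (h : Edits k x y) : lev x y ≤ k := by
  induction h with
  | zero x => exact (lev_self x).le
  | succ e _ ih => exact (lev_edit e _).trans (Nat.succ_le_succ ih)

/-- The recursive distance is the least number of edit operations. -/
theorem ED_eq_lev (x y : List ℕ) : ED x y = lev x y :=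
  le_antisymm (Nat.sInf_le (lev_edits x y))
    (lev_le_of_edits (Nat.sInf_mem (s := {k | Edits k x y}) ⟨_, lev_edits x y⟩))

/-- Cutting an optimal alignment at an arbitrary antidiagonal loses at most 2. -/
theorem lev_split (u v : List ℕ) (σ : ℕ) (hσ : σ ≤ u.length + v.length) :
    ∃ s t, s ≤ u.length ∧ t ≤ v.length ∧ s + t = σ ∧
      lev (u.take s) (v.take t) + lev (u.drop s) (v.drop t) ≤ lev u v + 2 := by
  induction u generalizing v σ with
  | nil =>
    refine ⟨0, σ, le_rfl, by simpa using hσ, by simp, ?_⟩
    simp only [List.take_nil, List.drop_nil, lev_nil_left, List.length_take, List.length_drop]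
    omega
  | cons c u ih =>
    induction v generalizing σ with
    | nil =>
      refine ⟨σ, 0, by simpa using hσ, le_rfl, by simp, ?_⟩
      simp only [List.take_nil, List.drop_nil, lev_nil_right, List.length_take, List.length_drop]
      omega
    | cons d v ih' =>
      simp only [List.length_cons] at hσ ih' ⊢
      rcases σ with _ | σ
      · exact ⟨0, 0, by omega, by omega, rfl, by simp [lev_nil_left]⟩
      have hm := lev_cons_cons c d u v
      by_cases h1 : lev (c :: u) (d :: v) = lev u (d :: v) + 1
      · obtain ⟨s, t, hs, ht, e, h⟩ := ih (d :: v) σ (by simp only [List.length_cons]; omega)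
        refine ⟨s + 1, t, by omega, ht, by omega, ?_⟩
        have := lev_cons_left_le c (u.take s) ((d :: v).take t)
        rw [List.take_succ_cons, List.drop_succ_cons]
        omega
      by_cases h2 : lev (c :: u) (d :: v) = lev (c :: u) v + 1
      · obtain ⟨s, t, hs, ht, e, h⟩ := ih' σ (by omega)
        refine ⟨s, t + 1, hs, by omega, by omega, ?_⟩
        have := lev_cons_right_le d ((c :: u).take s) (v.take t)
        rw [List.take_succ_cons, List.drop_succ_cons]
        omega
      have h3 : lev (c :: u) (d :: v) = lev u v + if c = d then 0 else 1 := by omega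
      rcases σ with _ | σ
      · refine ⟨1, 0, by omega, by omega, rfl, ?_⟩
        have := lev_cons_right_le d u v
        simp only [List.take_succ_cons, List.take_zero, List.drop_succ_cons, List.drop_zero,
          lev_nil_right, List.length_cons, List.length_nil]
        omega
      · obtain ⟨s, t, hs, ht, e, h⟩ := ih v σ (by omega)
        refine ⟨s + 1, t + 1, by omega, by omega, by omega, ?_⟩
        have := lev_cons_both_le c d (u.take s) (v.take t)
        simp only [List.take_succ_cons, List.drop_succ_cons]
        omega

end Vale.Agent.P315
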