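import Vale.Agent.P315.Step
import Vale.Agent.P315.Conc

namespace Vale.Agent.P315

open Finset

namespace Par

variable {P : Par}


/-- Binary value as an equivalence. -/
def lvE (n : ℕ) : (Fin n → Bool) ≃ Fin (2 ^ n) :=
  (Equiv.piCongrRight fun _ => finTwoEquiv.symm).trans finFunctionFinEquiv

theorem lvE_val (P : Par) (u : Fin P.lb → Bool) : (lvE P.lb u : ℕ) = P.jb u := by
  rw [lvE, Equiv.trans_apply, finFunctionFinEquiv_apply, jb]
  refine sum_congr rfl fun t _ => ?_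
  rw [Equiv.piCongrRight_apply, Pi.map_apply]
  cases u t
  · exact zero_mul _
  · exact one_mul _



theorem jb_lt (P : Par) (u : Fin P.lb → Bool) : P.jb u < P.b :=
  P.lvE_val u ▸ (lvE P.lb u).2

theorem av_jb (P : Par) (F : ℕ → ℝ) :
    av (fun u : Fin P.lb → Bool => F (P.jb u)) = (∑ j ∈ range P.b, F j) / P.b := by
  simp only [← lvE_val]
  rw [av_equiv (lvE P.lb) fun j => F j, av, Fin.sum_univ_eq_sum_range, Fintype.card_fin]
  rfl


section aux

variable {σ : Type}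

/-- The sampled difference. -/
def lvD (P : Par) (L : ℕ → Tab) (Rr : ℕ → σ → Tab) (l d i o : ℕ) (w : (Fin P.lb → Bool) × σ) :
    ℝ :=
  (Rr (P.jb w.1) w.2 (P.q l d i o (P.jb w.1)) (P.q l d i o (P.jb w.1 + 1)) : ℝ) -
    L (P.jb w.1) (P.q l d i o (P.jb w.1)) (P.q l d i o (P.jb w.1 + 1))

/-- The estimator. -/
noncomputable def lvQ (P : Par) (L : ℕ → Tab) (Rr : ℕ → σ → Tab)
    (u : Fin P.N → (Fin P.lb → Bool) × σ) (l d i o : ℕ) : ℝ :=
  P.valR (fun j p p' => (L j p p' : ℝ)) l d i o + ∑ t, P.r * P.lvD L Rr l d i o (u t)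

theorem Level_red (hP : P.Good) (a : ℕ) {C L : ℕ → Tab} {Rr : ℕ → σ → Tab} (Vt : ℕ → TabR)
    (hC : ∀ j p p', C j p p' ≤ P.K * P.RV) (hL : ∀ j p p', L j p p' ≤ P.RV)
    (hR : ∀ j s p p', Rr j s p p' ≤ P.RV) (p p' : ℕ) (u : Fin P.N → (Fin P.lb → Bool) × σ)
    {e : ℝ} (he : 0 ≤ e) (h : ∀ l, Nat.dist p l ≤ P.RV → ∀ d ≤ P.B0, ∀ i ≤ P.imax,
      |P.Psi C (P.lvQ L Rr u) l d i - P.Psi C (P.valR Vt) l d i| ≤ P.b * e) :
    |(P.stepN a C (P.yT C L (fun i => P.jb (u i).1) (fun i => Rr (P.jb (u i).1) (u i).2))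
      (P.b * P.RV) p p' : ℝ) - P.stepR a C Vt p p'| ≤ e + 2 := by
  rw [stepN, clo_cast, stepR]
  refine P.cloR_local a (fun _ _ => Nat.cast_nonneg _) (P.TR_nonneg _ _) p p' (by linarith)
    fun l _ d hd hl => ?_
  have h1 := P.TR_lip C _ _ l d he (h l hl d hd)
  have h2 := TN_err hP C (P.yT C L (fun i => P.jb (u i).1) (fun i => Rr (P.jb (u i).1) (u i).2))
    (P.b * P.RV) (P.lvQ L Rr u) l d fun i _ o _ => by
      have e1 : P.val (P.yT C L (fun i => P.jb (u i).1) (fun i => Rr (P.jb (u i).1) (u i).2))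
          l d i o = P.val C l d i o + P.val L l d i o + ∑ t, P.r *
            (Rr (P.jb (u t).1) (u t).2 (P.q l d i o (P.jb (u t).1))
              (P.q l d i o (P.jb (u t).1 + 1)) + P.RV - L (P.jb (u t).1)
              (P.q l d i o (P.jb (u t).1)) (P.q l d i o (P.jb (u t).1 + 1))) := by
        simp only [val, yT, sum_add_distrib]
        rw [sum_comm]
        simp only [sum_ite_eq, mem_range, jb_lt, if_true]
      have e2 : P.val C l d i o ≤ P.b * (P.K * P.RV) := by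
        simpa [val] using sum_le_card_nsmul (range P.b) _ _ fun j _ =>
          hC j (P.q l d i o j) (P.q l d i o (j + 1))
      have e3 : P.val L l d i o ≤ P.b * P.RV := by
        simpa [val] using sum_le_card_nsmul (range P.b) _ _ fun j _ =>
          hL j (P.q l d i o j) (P.q l d i o (j + 1))
      have e4 := sum_le_card_nsmul univ _ (P.r * (2 * P.RV)) fun t (_ : t ∈ univ) =>
        Nat.mul_le_mul_left P.r (show Rr (P.jb (u t).1) (u t).2 (P.q l d i o (P.jb (u t).1))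
          (P.q l d i o (P.jb (u t).1 + 1)) + P.RV - L (P.jb (u t).1)
          (P.q l d i o (P.jb (u t).1)) (P.q l d i o (P.jb (u t).1 + 1)) ≤ 2 * P.RV by
          have := hR (P.jb (u t).1) (u t).2 (P.q l d i o (P.jb (u t).1))
            (P.q l d i o (P.jb (u t).1 + 1))
          omega)
      rw [card_univ, Fintype.card_fin, smul_eq_mul, ← mul_assoc, N_mul_r hP] at e4
      have e5 : P.Xmax = P.b * (P.K * P.RV) + P.b * P.RV + P.b * (2 * P.RV) := by
        unfold Xmax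
        ring
      refine ⟨by omega, by omega, ?_⟩
      have e6 : ((P.b * P.RV : ℕ) : ℝ) = ∑ _t : Fin P.N, (P.r : ℝ) * P.RV := by
        rw [← N_mul_r hP]
        simp [mul_assoc]
      rw [e1, e6, lvQ, add_assoc, add_assoc, add_assoc, ← sum_add_distrib, Nat.cast_add,
        Nat.cast_add, Nat.cast_sum]
      refine congrArg _ (congrArg₂ _ (Nat.cast_sum _ _) (sum_congr rfl fun t _ => ?_))
      rw [Nat.cast_mul, Nat.cast_sub ((hL _ _ _).trans (Nat.le_add_left _ _)), Nat.cast_add, lvD]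
      ring
  linarith [abs_sub_le (P.TN C (P.yT C L (fun i => P.jb (u i).1)
    (fun i => Rr (P.jb (u i).1) (u i).2)) (P.b * P.RV) l d : ℝ) (P.TR C (P.lvQ L Rr u) l d)
    (P.TR C (P.valR Vt) l d)]

theorem Level_sum {n : ℕ} {f : ℕ → ℝ} {c : ℝ} (h : ∀ j < n, |f j| ≤ c) :
    |∑ j ∈ range n, f j| ≤ n * c := by
  simpa using (abs_sum_le_sum_abs _ _).trans
    (sum_le_card_nsmul (range n) _ c fun j hj => h j (mem_range.1 hj))

theorem Level_sumF {n : ℕ} {f : Fin n → ℝ} {c : ℝ} (h : ∀ j, |f j| ≤ c) :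
    |∑ j, f j| ≤ n * c := by
  simpa using (abs_sum_le_sum_abs _ _).trans (sum_le_card_nsmul univ _ c fun j _ => h j)

theorem Level_lip (P : Par) {t : Tab} (ht : Lip t) (l d i o o' j : ℕ) :
    |(t (P.q l d i o j) (P.q l d i o (j + 1)) : ℝ) - t (P.q l d i o' j) (P.q l d i o' (j + 1))| ≤
      8 * 2 ^ i := by
  have h : ∀ o o', (t (P.q l d i o j) (P.q l d i o (j + 1)) : ℝ) ≤
      t (P.q l d i o' j) (P.q l d i o' (j + 1)) + 8 * 2 ^ i := fun o o' => by
    have h1 := ht (P.q l d i o j) (P.q l d i o (j + 1)) (P.q l d i o' j) (P.q l d i o' (j + 1))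
    have h2 := P.q_near l d i o j
    have h3 := P.q_near l d i o' j
    have h4 := P.q_near l d i o (j + 1)
    have h5 := P.q_near l d i o' (j + 1)
    have h6 : t (P.q l d i o j) (P.q l d i o (j + 1)) ≤
        t (P.q l d i o' j) (P.q l d i o' (j + 1)) + 8 * 2 ^ i := by
      unfold Nat.dist at *
      omega
    exact_mod_cast h6
  exact abs_le.2 ⟨by linarith [h o' o], by linarith [h o o']⟩

variable [Fintype σ] [Nonempty σ]

theorem Level_av {f : σ → ℝ} {c : ℝ} (h : ∀ s, |f s| ≤ c) : |av f| ≤ c :=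
  (abs_av_le f).trans ((av_mono h).trans_eq (av_const c))

theorem Level_av_sub (f : σ → ℝ) (c : ℝ) : av (fun s => f s - c) = av f - c := by
  simp only [sub_eq_add_neg]
  rw [av_add, av_const]

theorem Level_mean (hP : P.Good) (L : ℕ → Tab) (Rr : ℕ → σ → Tab) (l d i o : ℕ) :
    P.N * (P.r * av (P.lvD L Rr l d i o)) = ∑ j ∈ range P.b,
      (av (fun s => (Rr j s (P.q l d i o j) (P.q l d i o (j + 1)) : ℝ)) -
        L j (P.q l d i o j) (P.q l d i o (j + 1))) := by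
  have hb : (P.b : ℝ) ≠ 0 := by have := b_ge hP; positivity
  rw [av_prod]
  simp only [lvD, Level_av_sub]
  rw [P.av_jb fun j => av (fun s => (Rr j s (P.q l d i o j) (P.q l d i o (j + 1)) : ℝ)) -
    L j (P.q l d i o j) (P.q l d i o (j + 1)), ← mul_assoc, ← Nat.cast_mul, N_mul_r hP,
    mul_div_cancel₀ _ hb]

theorem Level_psi (hP : P.Good) (C : ℕ → Tab) {L : ℕ → Tab} {Rr : ℕ → σ → Tab} {Vt : ℕ → TabR}
    {c β : ℝ} (hc : 0 < c) (hLl : ∀ j, Lip (L j)) (hRl : ∀ j s, Lip (Rr j s))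
    (hD : ∀ l d i o w, |P.lvD L Rr l d i o w| ≤ c)
    (hβ : ∀ j < P.b, ∀ p p', |av (fun s => (Rr j s p p' : ℝ)) - Vt j p p'| ≤ β) (l d i : ℕ) :
    ∃ ξ : (Fin P.lb → Bool) × σ → ℝ, av ξ = 0 ∧ (∀ w, |ξ w| ≤ 2 * P.r * c) ∧
      ∀ u, |P.Psi C (P.lvQ L Rr u) l d i - P.Psi C (P.valR Vt) l d i| ≤
        P.b * β + P.b * (c / (16 * (P.ell : ℝ) ^ 2)) + |∑ t, ξ (u t)| := by
  have hτ := tau_bounds hP i
  obtain ⟨ν, hν0, hν1, hν⟩ := sm_second hτ.1 P.Om_pos
    fun o => (P.val C l d i o : ℝ) + P.valR Vt l d i o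
  have hr : (0 : ℝ) ≤ P.r := Nat.cast_nonneg _
  have hb : (0 : ℝ) < P.b := by have := b_ge hP; positivity
  have hNr : (P.N : ℝ) * P.r = P.b := by exact_mod_cast N_mul_r hP
  set η : ℕ → (Fin P.lb → Bool) × σ → ℝ := fun o w =>
    P.r * (P.lvD L Rr l d i o w - av (P.lvD L Rr l d i o)) with hη
  refine ⟨fun w => ∑ o ∈ range P.Om, ν o * η o w, ?_, fun w => ?_, fun u => ?_⟩
  · rw [av_sum]
    exact sum_eq_zero fun o _ => by rw [av_mul, av_mul, Level_av_sub, sub_self, mul_zero, mul_zero]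
  · refine (abs_sum_le_sum_abs _ _).trans ?_
    rw [← one_mul (2 * P.r * c), ← hν1, sum_mul]
    refine sum_le_sum fun o _ => ?_
    rw [abs_mul, abs_of_nonneg (hν0 o), abs_mul, abs_of_nonneg hr]
    refine mul_le_mul_of_nonneg_left ?_ (hν0 o)
    have := (abs_sub _ _).trans (add_le_add (hD l d i o w) (Level_av (hD l d i o)))
    linarith [mul_le_mul_of_nonneg_left this hr]
  have h1 := Psi_lip hP C (P.lvQ L Rr u) (fun l d i o => P.valR Vt l d i o + ∑ t, η o (u t)) l d i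
    (c := P.b * β) fun o _ => by
      refine le_trans (le_of_eq (congrArg _ ?_)) (Level_sum fun j hj =>
        hβ j hj (P.q l d i o j) (P.q l d i o (j + 1)))
      have := Level_mean hP L Rr l d i o
      simp only [lvQ, hη, valR, mul_sub, sum_sub_distrib, sum_const, card_univ, Fintype.card_fin,
        nsmul_eq_mul] at this ⊢
      linarith
  set m := min (2 * c) (16 * 2 ^ i) with hm
  have hm0 : 0 ≤ m := le_min (by positivity) (by positivity)
  have h2 : ∀ o o' w, |P.lvD L Rr l d i o w - P.lvD L Rr l d i o' w| ≤ m := fun o o' w => by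
    refine le_min ((abs_sub _ _).trans (by linarith [hD l d i o w, hD l d i o' w])) ?_
    have e1 := abs_le.1 (P.Level_lip (hRl (P.jb w.1) w.2) l d i o o' (P.jb w.1))
    have e2 := abs_le.1 (P.Level_lip (hLl (P.jb w.1)) l d i o o' (P.jb w.1))
    unfold lvD
    exact abs_le.2 ⟨by linarith [e1.1, e2.2], by linarith [e1.2, e2.1]⟩
  have hℓ : (1 : ℝ) ≤ (P.ell : ℝ) ^ 2 := one_le_pow₀ (by exact_mod_cast hP.ell_pos)
  have h3 : 2048 * P.b * (P.ell : ℝ) ^ 2 * 2 ^ i ≤ P.tau i := by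
    have e1 : 4096 * P.b * (P.ell : ℝ) ^ 2 ≤ 2 ^ P.s0 := by exact_mod_cast hP.s0_ge
    have e2 := hτ.2.1
    rw [T, pow_add] at e2
    push_cast at e2
    linarith [mul_le_mul_of_nonneg_right e1 (by positivity : (0 : ℝ) ≤ 2 ^ i)]
  have h4 : 2 * P.b * m ≤ 32 * P.b * 2 ^ i := by
    linarith [mul_le_mul_of_nonneg_left (min_le_right (2 * c) (16 * 2 ^ i)) hb.le]
  have h5 := hν (fun o => ∑ t, η o (u t)) (2 * P.b * m) (fun o _ o' _ => by
    rw [← sum_sub_distrib]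
    refine (Level_sumF (c := P.r * (2 * m)) fun t => ?_).trans_eq (by rw [← hNr]; ring)
    rw [← mul_sub, abs_mul, abs_of_nonneg hr]
    refine mul_le_mul_of_nonneg_left ?_ hr
    have e1 := abs_le.1 (h2 o o' (u t))
    have e2 := abs_le.1 (Level_av (h2 o o'))
    simp only [sub_eq_add_neg, ← neg_one_mul (P.lvD L Rr l d i o' _)] at e2
    rw [av_add, av_mul] at e2
    exact abs_le.2 ⟨by linarith [e1.1, e2.2], by linarith [e1.2, e2.1]⟩) (by
      nlinarith [mul_le_mul_of_nonneg_left hℓ (by positivity : (0 : ℝ) ≤ P.b * 2 ^ i),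
        (by positivity : (0 : ℝ) ≤ P.b * 2 ^ i)])
  have h6 : (2 * P.b * m) ^ 2 / P.tau i ≤ P.b * (c / (16 * (P.ell : ℝ) ^ 2)) := by
    rw [div_le_iff₀ hτ.1]
    calc (2 * P.b * m) ^ 2 ≤ 4 * P.b * c * (32 * P.b * 2 ^ i) := by
          rw [sq]
          refine mul_le_mul ?_ h4 (by positivity) (by positivity)
          linarith [mul_le_mul_of_nonneg_left (min_le_left (2 * c) (16 * 2 ^ i)) hb.le]
      _ = P.b * (c / (16 * (P.ell : ℝ) ^ 2)) * (2048 * P.b * (P.ell : ℝ) ^ 2 * 2 ^ i) := by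
          have : (P.ell : ℝ) ≠ 0 := Nat.cast_ne_zero.2 (by have := hP.ell_pos; omega)
          field_simp
          norm_num
      _ ≤ _ := mul_le_mul_of_nonneg_left h3 (by positivity)
  have h7 : ∑ t, ∑ o ∈ range P.Om, ν o * η o (u t) = ∑ o ∈ range P.Om, ν o * ∑ t, η o (u t) := by
    simp only [mul_sum]
    exact sum_comm
  rw [h7]
  simp only [Psi, Fr, ← add_assoc] at h1 h5 ⊢
  have e1 := abs_le.1 h1
  have e2 := abs_le.1 (h5.trans h6)
  have e3 := le_abs_self (∑ o ∈ range P.Om, ν o * ∑ t, η o (u t))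
  have e4 := neg_abs_le (∑ o ∈ range P.Om, ν o * ∑ t, η o (u t))
  exact abs_le.2 ⟨by linarith [e1.1, e2.1], by linarith [e1.2, e2.2]⟩

end aux



/-- One level of the contraction analysis.  `L` are the control variates, `Rr j s` the sub-pass
at child `j` with seed `s`, `Vt` the reference tables of the children. -/
theorem level (hP : P.Good) {σ : Type} [Fintype σ] [Nonempty σ] (a : ℕ) (C L : ℕ → Tab)
    (Rr : ℕ → σ → Tab) (Vt : ℕ → TabR) {α c β : ℝ} (hc : 0 < c)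
    (hC : ∀ j p p', C j p p' ≤ P.K * P.RV) (hL : ∀ j p p', L j p p' ≤ P.RV)
    (hR : ∀ j s p p', Rr j s p p' ≤ P.RV) (hLl : ∀ j, Lip (L j)) (hRl : ∀ j s, Lip (Rr j s))
    (hα : ∀ j < P.b, ∀ p p', |(L j p p' : ℝ) - Vt j p p'| ≤ α)
    (hcc : ∀ j < P.b, ∀ s p p', |(Rr j s p p' : ℝ) - Vt j p p'| ≤ c)
    (hβ : ∀ j < P.b, ∀ p p', |av (fun s => (Rr j s p p' : ℝ)) - Vt j p p'| ≤ β) (p p' : ℕ) :
    (∀ u : Fin P.N → (Fin P.lb → Bool) × σ,
      |(P.stepN a C (P.yT C L (fun i => P.jb (u i).1) (fun i => Rr (P.jb (u i).1) (u i).2))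
        (P.b * P.RV) p p' : ℝ) - P.stepR a C Vt p p'| ≤ c + 2 * α + 2) ∧
    av (fun u : Fin P.N → (Fin P.lb → Bool) × σ =>
      |(P.stepN a C (P.yT C L (fun i => P.jb (u i).1) (fun i => Rr (P.jb (u i).1) (u i).2))
        (P.b * P.RV) p p' : ℝ) - P.stepR a C Vt p p'|) ≤
      β + (c + α) / (8 * (P.ell : ℝ) ^ 2) + 2 := by
  have hb0 : 0 < P.b := lt_of_lt_of_le (by norm_num) (b_ge hP)
  have hb : (0 : ℝ) < P.b := by exact_mod_cast hb0
  have hα0 : 0 ≤ α := (abs_nonneg _).trans (hα 0 hb0 0 0)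
  have hβ0 : 0 ≤ β := (abs_nonneg _).trans (hβ 0 hb0 0 0)
  have hNr : (P.N : ℝ) * P.r = P.b := by exact_mod_cast N_mul_r hP
  have hr : (0 : ℝ) < P.r := by unfold r; positivity
  have hD : ∀ l d i o w, |P.lvD L Rr l d i o w| ≤ c + α := fun l d i o w => by
    have e1 := abs_le.1 (hα _ (P.jb_lt w.1) (P.q l d i o (P.jb w.1)) (P.q l d i o (P.jb w.1 + 1)))
    have e2 := abs_le.1
      (hcc _ (P.jb_lt w.1) w.2 (P.q l d i o (P.jb w.1)) (P.q l d i o (P.jb w.1 + 1)))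
    unfold lvD
    exact abs_le.2 ⟨by linarith [e1.2, e2.1], by linarith [e1.1, e2.2]⟩
  refine ⟨fun u => Level_red hP a Vt hC hL hR p p' u (by linarith) fun l _ d _ i _ =>
    Psi_lip hP C _ _ l d i fun o _ => ?_, ?_⟩
  · have e1 := abs_le.1 (Level_sum fun j hj => hα j hj (P.q l d i o j) (P.q l d i o (j + 1)))
    have e2 := abs_le.1 (Level_sumF (c := P.r * (c + α))
      (f := fun t => P.r * P.lvD L Rr l d i o (u t)) fun t => by
        rw [abs_mul, abs_of_pos hr]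
        exact mul_le_mul_of_nonneg_left (hD _ _ _ _ _) hr.le)
    rw [← mul_assoc, hNr] at e2
    rw [sum_sub_distrib] at e1
    unfold lvQ valR
    exact abs_le.2 ⟨by linarith [e1.1, e2.1], by linarith [e1.2, e2.2]⟩
  have hc' : 0 < c + α := by linarith
  choose ξ hξ0 hξB hξ using Level_psi hP C hc' hLl hRl hD hβ
  set I := Icc (p - P.RV) (p + P.RV) ×ˢ range (P.B0 + 1) ×ˢ range (P.imax + 1) with hI
  set Mx : (Fin P.N → (Fin P.lb → Bool) × σ) → ℝ := fun u =>
    I.fold max 0 fun w => |∑ t, ξ w.1 w.2.1 w.2.2 (u t)| with hMx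
  have hℓ : (1 : ℝ) ≤ P.ell := by exact_mod_cast hP.ell_pos
  have hM : 1 ≤ P.Mloc := by unfold Mloc; exact Nat.succ_le_of_lt (by positivity)
  have hM' : (1 : ℝ) ≤ P.Mloc := by exact_mod_cast hM
  have hlog : 0 ≤ Real.log (2 * P.Mloc) := Real.log_nonneg (by linarith)
  have hN := hP.N_ge
  have h1 := emax_le I hM (by
      rw [hI, card_product, card_product, card_range, card_range, Nat.card_Icc, Mloc, mul_assoc]
      exact Nat.mul_le_mul_right _ (by omega))
    (fun w (_ : Fin P.N) => ξ w.1 w.2.1 w.2.2) (B := 2 * P.r * (c + α)) (by positivity)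
    (fun w _ _ => hξ0 _ _ _) (fun w _ _ => hξB _ _ _) (by
      rw [Fintype.card_fin]
      nlinarith [mul_le_mul_of_nonneg_right (one_le_pow₀ (n := 4) hℓ) hlog]) Mx
    fun u => (le_fold_max _).1 le_rfl
  have h2 : √(Fintype.card (Fin P.N) * Real.log (2 * P.Mloc)) ≤ P.N / (64 * (P.ell : ℝ) ^ 2) := by
    rw [Fintype.card_fin]
    refine Real.sqrt_le_iff.2 ⟨by positivity, ?_⟩
    rw [div_pow, le_div_iff₀ (by positivity)]
    linarith [mul_le_mul_of_nonneg_left hN (Nat.cast_nonneg P.N)]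
  have h3 : (P.b : ℝ)⁻¹ * av Mx ≤ (c + α) / (16 * (P.ell : ℝ) ^ 2) := by
    rw [inv_mul_le_iff₀ hb]
    refine h1.trans ((mul_le_mul_of_nonneg_left h2 (by positivity)).trans_eq ?_)
    rw [← hNr]
    field_simp
    ring
  have h4 := av_mono fun u => Level_red hP a Vt hC hL hR p p' u
    (e := β + (c + α) / (16 * (P.ell : ℝ) ^ 2) + (P.b : ℝ)⁻¹ * Mx u)
    (by
      have : 0 ≤ Mx u := (le_fold_max _).2 (Or.inl le_rfl)
      positivity) fun l hl d hd i hi => (hξ l d i u).trans (by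
      have : |∑ t, ξ l d i (u t)| ≤ Mx u := (le_fold_max _).2 (Or.inr ⟨(l, d, i), by
        simp only [hI, mem_product, mem_Icc, mem_range]
        unfold Nat.dist at hl
        omega, le_rfl⟩)
      rw [mul_add, mul_add, ← mul_assoc, mul_inv_cancel₀ hb.ne', one_mul]
      linarith)
  rw [av_add, av_add, av_const, av_const, av_mul] at h4
  have h5 : (c + α) / (8 * (P.ell : ℝ) ^ 2) = 2 * ((c + α) / (16 * (P.ell : ℝ) ^ 2)) := by
    field_simp
    norm_num
  linarith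

end Par

end Vale.Agent.P315
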