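import Vale.Agent.P315.ParA

namespace Vale.Agent.P315

namespace PF

variable {mm n lg z β0 : ℕ} {P : Par}

theorem pow_le_lg (h : PF mm n lg z β0 P) (hz : 32 ≤ z) {d : ℕ} (hd : d ≤ 64 * mm + 40) :
    z ^ d ≤ lg := (Nat.pow_le_pow_right (by omega) hd).trans h.z1

theorem sq_le (h : PF mm n lg z β0 P) (hz : 32 ≤ z) : 32 * z ≤ lg := by
  have := h.pow_le_lg hz (d := 2) (by omega)
  nlinarith

theorem k0_le (h : PF mm n lg z β0 P) (hz : 32 ≤ z) : P.k0 ≤ 3 * z := by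
  have := h.hk0; have := h.himax; have := h.β2; have := h.lbz
  omega

theorem RV_eq (h : PF mm n lg z β0 P) : P.RV = 2 ^ P.k0 := by
  rw [h.hk0, pow_add, Par.RV, Par.Gm]
  ring

theorem RV_le (h : PF mm n lg z β0 P) (hz : 32 ≤ z) : P.RV ≤ 2 ^ (3 * z) := by
  rw [h.RV_eq]
  exact Nat.pow_le_pow_right two_pos (h.k0_le hz)

theorem NA_eq (P : Par) : P.NA = 2 ^ (P.D * P.lb) := by
  rw [Par.NA, Par.b, ← pow_mul, mul_comm]

theorem W_eq (h : PF mm n lg z β0 P) : P.W = 2 ^ (lg + 2) := by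
  rw [← h.hD, pow_add, ← NA_eq, ← h.hB0]
  rfl

theorem Dlb_le (h : PF mm n lg z β0 P) : P.D * P.lb + 2 * z ≤ lg + 1 := by
  have := h.hD; have := h.β1
  omega

theorem NA_mul (h : PF mm n lg z β0 P) : P.NA * 2 ^ (2 * z) ≤ 2 * n := by
  rw [NA_eq, ← pow_add]
  refine (Nat.pow_le_pow_right two_pos h.Dlb_le).trans ?_
  rw [pow_succ]
  have := h.n1
  omega

theorem NA_le (h : PF mm n lg z β0 P) (hz : 32 ≤ z) : P.NA ≤ 2 ^ lg := by
  rw [NA_eq]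
  exact Nat.pow_le_pow_right two_pos (by have := h.Dlb_le; omega)

theorem D_le (h : PF mm n lg z β0 P) (hz : 32 ≤ z) : P.D ≤ lg := by
  have h1 := h.Dlb_le
  have h2 : P.D * 1 ≤ P.D * P.lb := Nat.mul_le_mul_left _ (by have := h.lb2; omega)
  omega

theorem ln_le (h : PF mm n lg z β0 P) (hmm : 1 ≤ mm) : P.ln ≤ P.lb := by
  rw [← h.hln]
  exact Nat.le_mul_of_pos_right _ hmm

theorem B0_lt (h : PF mm n lg z β0 P) (hz : 32 ≤ z) : P.B0 + 1 ≤ 2 ^ (3 * z) := by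
  rw [h.hB0]
  exact Nat.pow_lt_pow_right one_lt_two (by have := h.β2; have := h.lbz; omega)

theorem b_le (h : PF mm n lg z β0 P) : P.b ≤ 2 ^ z :=
  Nat.pow_le_pow_right two_pos (by have := h.lbz; omega)

theorem K_le (h : PF mm n lg z β0 P) (hz : 32 ≤ z) : P.K ≤ lg := by
  rw [h.hK]
  exact h.pow_le_lg hz (by omega)

theorem Om_eq (P : Par) : P.Om = 2 ^ ((P.imax + 1) * P.b) := by
  rw [Par.Om, Par.Gm, pow_mul, pow_succ, mul_comm 2]

theorem imb_le (h : PF mm n lg z β0 P) (hz : 32 ≤ z) :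
    (P.imax + 1) * P.b ≤ 3 * z ^ (16 * mm + 1) := by
  rw [h.hb, pow_succ, mul_comm _ z, ← mul_assoc]
  exact Nat.mul_le_mul_right _ (by have := h.k0_le hz; have := h.hk0; omega)

theorem S_le (h : PF mm n lg z β0 P) (hz : 32 ≤ z) (hy : lg ≤ 2 ^ z) : P.S ≤ 32 * (2 ^ z) ^ 7 := by
  rw [h.hS]
  calc 32 * lg * P.RV ^ 2 ≤ 32 * 2 ^ z * (2 ^ (3 * z)) ^ 2 := by gcongr; exact h.RV_le hz
    _ = _ := by ring

end PF

theorem par_lg_le (mm : ℕ) : ∃ Z, ∀ n lg z β0 (P : Par), Z ≤ z → PF mm n lg z β0 P →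
    lg ≤ 2 ^ z := by
  obtain ⟨Z, hZ⟩ := poly_le_two_pow (2 ^ (64 * mm + 40)) (64 * mm + 40)
  refine ⟨Z, fun n lg z β0 P hz h => ?_⟩
  have := h.z2
  rw [mul_pow] at this
  exact this.le.trans (hZ z hz)

end Vale.Agent.P315
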