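import Vale.Agent.P315.Window
import Vale.Agent.P315.Basic

namespace Vale.Agent.P315

open Finset

namespace Par

variable {P : Par}

/-- Failure probability of the whole algorithm. -/
noncomputable def fail (P : Par) : ℝ :=
  (P.D * P.K * P.NA * (P.k0 + 1) : ℕ) *
    (((P.W + P.RV) ^ 2 : ℕ) * (2 * Real.exp (-(P.S : ℝ) / (4 * (P.RV : ℝ) ^ 2))))

/-- Agreement of two families of tables on the keys in range up to height `h`. -/
def TapeAgree (P : Par) (A A' : ℕ → ℕ → ℕ → ℕ → Tab) (h : ℕ) : Prop :=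
  ∀ h' ≤ h, ∀ k < P.K, ∀ a < P.b ^ (P.D - h'), ∀ j ≤ P.k0, A h' k a j = A' h' k a j

theorem tape_val {t t' : ℕ → Tab} (h : ∀ j < P.b, t j = t' j) : P.val t = P.val t' := by
  funext l d i o
  exact Finset.sum_congr rfl fun j hj => by rw [h j (mem_range.1 hj)]

theorem tape_valR {t t' : ℕ → TabR} (h : ∀ j < P.b, t j = t' j) : P.valR t = P.valR t' := by
  funext l d i o
  exact Finset.sum_congr rfl fun j hj => by rw [h j (mem_range.1 hj)]

theorem tape_stepN (a off : ℕ) {C C' Y Y' : ℕ → Tab} (hC : ∀ j < P.b, C j = C' j)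
    (hY : ∀ j < P.b, Y j = Y' j) : P.stepN a C Y off = P.stepN a C' Y' off := by
  unfold stepN TN
  rw [tape_val hC, tape_val hY]

theorem tape_stepR (a : ℕ) {C C' : ℕ → Tab} {V V' : ℕ → TabR} (hC : ∀ j < P.b, C j = C' j)
    (hV : ∀ j < P.b, V j = V' j) : P.stepR a C V = P.stepR a C' V' := by
  unfold stepR TR Psi
  rw [tape_val hC, tape_valR hV]

theorem tape_cumT {A A' : ℕ → ℕ → ℕ → ℕ → Tab} {h h' k a : ℕ} (H : P.TapeAgree A A' h)
    (hh : h' ≤ h) (hD : h' + 1 ≤ P.D) (hk : k < P.K) (ha : a < P.b ^ (P.D - (h' + 1))) :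
    ∀ j < P.b, P.cumT (A h') k a j = P.cumT (A' h') k a j := by
  intro j hj
  funext p p'
  exact Finset.sum_congr rfl fun k' hk' => by
    rw [H h' hh k' ((mem_range.1 hk').trans hk) _ (P.window_child hD ha hj) _ le_rfl]

theorem tape_refV {A A' : ℕ → ℕ → ℕ → ℕ → Tab} {h k : ℕ} (H : P.TapeAgree A A' h)
    (hk : k < P.K) (h' : ℕ) (hh : h' ≤ h + 1) (hD : h' ≤ P.D) {a : ℕ}
    (ha : a < P.b ^ (P.D - h')) : P.refV A k h' a = P.refV A' k h' a := by
  induction h' generalizing a with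
  | zero =>
    funext p p'
    simp only [refV]
    rw [H 0 (Nat.zero_le _) k hk a ha _ le_rfl]
  | succ h' ih =>
    simp only [refV]
    refine tape_stepR a (tape_cumT H (by omega) hD hk ha) fun jj hjj => ?_
    have hc := P.window_child hD ha hjj
    rw [H h' (by omega) k hk _ hc _ le_rfl, ih (by omega) (by omega) hc]

theorem tape_passS {A A' : ℕ → ℕ → ℕ → ℕ → Tab} {h k j hb : ℕ} (H : P.TapeAgree A A' h)
    (hk : k < P.K) (hj : j ≤ P.k0) (m : ℕ) (hh : hb + m ≤ h) (hD : hb + m + 1 ≤ P.D) {a : ℕ}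
    (ha : a < P.b ^ (P.D - (hb + m + 1))) (s : P.Idx m → Bool) :
    P.passS A k j hb m a s = P.passS A' k j hb m a s := by
  induction m generalizing a with
  | zero =>
    have hc := tape_cumT H hh hD hk ha
    simp only [passS, pass0]
    refine tape_stepN a _ hc fun jj hjj => ?_
    have h1 := hc jj hjj
    have h2 := H hb hh k hk _ (P.window_child hD ha hjj) _ le_rfl
    rw [Nat.add_zero] at h1
    rw [h1, h2]
  | succ m ih =>
    have hc := tape_cumT (h' := hb + m + 1) H hh hD hk ha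
    simp only [passS, pass1]
    refine tape_stepN a _ hc fun jj hjj => ?_
    have h2 := H (hb + m + 1) hh k hk _ (P.window_child hD ha hjj) (j - 1) (by omega)
    funext p p'
    simp only [yT]
    rw [hc jj hjj, h2]
    congr 1
    refine Finset.sum_congr rfl fun i _ => ?_
    rw [ih (by omega) (by omega) (P.window_child (h := hb + m + 1) hD ha (P.jb_lt _))]

theorem tape_good {A A' : ℕ → ℕ → ℕ → ℕ → Tab} {h h' : ℕ} (H : P.TapeAgree A A' h) (hh : h' ≤ h)
    (hD : h' ≤ P.D) (hG : P.GoodAt A h') : P.GoodAt A' h' := by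
  intro k hk a ha j hj p p'
  rw [← H h' hh k hk a ha j hj, ← tape_refV H hk h' (by omega) hD ha]
  exact hG k hk a ha j hj p p'

theorem tape_pr_empty {σ : Type} [Fintype σ] {p : σ → Prop} (h : ∀ s, ¬ p s) {δ : ℝ}
    (hδ : 0 ≤ δ) : pr p ≤ δ := by
  classical
  unfold pr
  rw [Finset.filter_eq_empty_iff.2 fun s _ => h s]
  simpa using hδ

theorem tape_SZ_mono (P : Par) {m m' : ℕ} (h : m ≤ m') : P.SZ m ≤ P.SZ m' :=
  Nat.pow_le_pow_right (by unfold N; positivity) h

/-- First failure at the key `(h + 1, k, a, j)`. -/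
def TapeBad (P : Par) (A : ℕ → ℕ → ℕ → ℕ → Tab) (h k a j : ℕ) : Prop :=
  (∀ h' ≤ h, P.GoodAt A h') ∧ a < P.b ^ (P.D - (h + 1)) ∧
    ∃ p p', P.alpha j < |(A (h + 1) k a j p p' : ℝ) - P.refV A k (h + 1) a p p'|

theorem tape_key (hP : P.Good) (f g : ℕ → ℕ) {R : ℕ} (hR : (P.D + 1) * P.HS * P.lb ≤ R)
    {h k a j : ℕ} (hh : h < P.D) (hk : k < P.K) (ha : a < P.NA) (hj : j ≤ P.k0) :
    pr (fun r : Fin R → Bool => P.TapeBad (P.A f g (ext r)) h k a j) ≤
      ((P.W + P.RV) ^ 2 : ℕ) * (2 * Real.exp (-(P.S : ℝ) / (4 * (P.RV : ℝ) ^ 2))) := by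
  rcases Nat.eq_zero_or_pos j with rfl | hj1
  · refine tape_pr_empty (fun r => ?_) (by positivity)
    rintro ⟨-, -, p, p', hs⟩
    obtain ⟨T, hT0, hT⟩ := P.window_refV_succ (P.A f g (ext r)) k h a
    rw [A_succ, if_pos rfl, hT, Nat.cast_zero, zero_sub, abs_neg,
      abs_of_nonneg (P.cloR_nonneg a hT0 p p')] at hs
    have h1 := P.cloR_le_RV a T p p'
    have h2 : (0 : ℝ) ≤ P.ell := Nat.cast_nonneg _
    unfold alpha at hs
    rw [pow_zero, div_one] at hs
    linarith
  obtain ⟨hb, m, hhb, hm, rfl⟩ : ∃ hb m, hb % P.ell = 0 ∧ m < P.ell ∧ h = hb + m :=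
    ⟨P.ell * (h / P.ell), h % P.ell, Nat.mul_mod_right _ _, Nat.mod_lt _ hP.ell_pos,
      (Nat.div_add_mod _ _).symm⟩
  have hSZ := P.tape_SZ_mono hm.le
  have hlo : ∀ (t : Fin P.S) u,
      (hb + m + 1) * P.HS * P.lb ≤ P.pos m (P.base (hb + m + 1) k a j t) u := fun t u =>
    (Nat.mul_le_mul_right _ (P.base_range hk ha hj t.2).1).trans (P.pos_range _ _ u).1
  have hup : ∀ (t : ℕ) u, P.pos m (P.base (hb + m + 1) k a j t) u <
      (P.base (hb + m + 1) k a j t + P.SZ P.ell) * P.lb := fun t u =>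
    (P.pos_range _ _ u).2.trans_le (Nat.mul_le_mul_right _ (by omega))
  have hhi : ∀ (t : Fin P.S) u, P.pos m (P.base (hb + m + 1) k a j t) u < R := fun t u =>
    (hup t u).trans_le ((Nat.mul_le_mul_right _ ((P.base_range hk ha hj t.2).2.trans
      (Nat.mul_le_mul_right _ (by omega)))).trans hR)
  have hlt : ∀ (t t' : ℕ) u u', t < t' → P.pos m (P.base (hb + m + 1) k a j t) u <
      P.pos m (P.base (hb + m + 1) k a j t') u' := by
    intro t t' u u' htt
    refine (hup t u).trans_le (le_trans (Nat.mul_le_mul_right _ ?_) (P.pos_range _ _ u').1)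
    unfold base
    rw [← Nat.succ_mul]
    exact Nat.mul_le_mul_right _ (by omega)
  set e : Fin P.S × P.Idx m → Fin R := fun x => ⟨_, hhi x.1 x.2⟩ with he
  have hinj : Function.Injective e := by
    rintro ⟨t, u⟩ ⟨t', u'⟩ h
    have h1 : P.pos m (P.base (hb + m + 1) k a j t) u =
        P.pos m (P.base (hb + m + 1) k a j t') u' := congrArg Fin.val h
    have h2 : t = t' := by
      rcases lt_trichotomy (t : ℕ) t' with h3 | h3 | h3
      · exact absurd h1 (hlt _ _ _ _ h3).ne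
      · exact Fin.ext h3
      · exact absurd h1 (hlt _ _ _ _ h3).ne'
    subst h2
    rw [P.pos_inj _ _ h1]
  refine pr_resample e hinj _ fun r => ?_
  have hag : ∀ s : Fin P.S × P.Idx m → Bool,
      P.TapeAgree (P.A f g (ext (Function.extend e s r))) (P.A f g (ext r)) (hb + m) := by
    intro s h' hh' k' hk' a' ha' j' hj'
    refine A_congr hP f g _ _ h' (by omega) (fun i hi => ?_) hk' ha' hj'
    unfold ext
    split_ifs with hiR
    · refine Function.extend_apply' _ _ _ ?_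
      rintro ⟨x, hx⟩
      have h1 : P.pos m (P.base (hb + m + 1) k a j x.1) x.2 = i := congrArg Fin.val hx
      have h2 := hlo x.1 x.2
      have h3 : (h' + 1) * P.HS * P.lb ≤ (hb + m + 1) * P.HS * P.lb :=
        Nat.mul_le_mul_right _ (Nat.mul_le_mul_right _ (by omega))
      omega
    · rfl
  by_cases hG : (∀ h' ≤ hb + m, P.GoodAt (P.A f g (ext r)) h') ∧ a < P.b ^ (P.D - (hb + m + 1))
  · refine (pr_mono ?_).trans (window_tail hP (P.A f g (ext r)) (P.A_le f g _) (P.A_lip f g _)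
      hk hj1 hj hhb m hm hh hG.1 hG.2)
    rintro s ⟨-, -, p, p', hs⟩
    refine ⟨p, p', ?_⟩
    rw [tape_refV (hag s) hk _ le_rfl hh hG.2, A_succ, if_neg hj1.ne', Finset.sum_range] at hs
    have h1 : ∀ t : Fin P.S, P.Pa f g (ext (Function.extend e s r)) (hb + m + 1) k a j
        (P.base (hb + m + 1) k a j t) = P.passS (P.A f g (ext r)) k j hb m a fun u => s (t, u) := by
      intro t
      rw [P.Pa_eq_passS f g _ k j hb hhb m hm, tape_passS (hag s) hk hj m le_rfl hh hG.2]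
      congr 1
      funext u
      unfold ext
      rw [dif_pos (hhi t u)]
      exact hinj.extend_apply s r (t, u)
    simpa only [h1] using hs
  · refine tape_pr_empty (fun s hs => hG ⟨fun h' hh' => ?_, hs.2.1⟩) (by positivity)
    exact tape_good (hag s) hh' (by omega) (hs.1 h' hh')

theorem prob_good (hP : P.Good) (f g : ℕ → ℕ) {R : ℕ} (hR : (P.D + 1) * P.HS * P.lb ≤ R) :
    1 - P.fail ≤ pr (fun r : Fin R → Bool => ∀ h ≤ P.D, P.GoodAt (P.A f g (ext r)) h) := by
  classical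
  have hu := pr_union (range P.D ×ˢ range P.K ×ˢ range P.NA ×ˢ range (P.k0 + 1))
    (fun w (r : Fin R → Bool) => P.TapeBad (P.A f g (ext r)) w.1 w.2.1 w.2.2.1 w.2.2.2)
    fun w hw => by
      simp only [mem_product, mem_range] at hw
      exact tape_key hP f g hR hw.1 hw.2.1 hw.2.2.1 (Nat.lt_succ_iff.1 hw.2.2.2)
  simp only [card_product, card_range, ← mul_assoc P.D, ← mul_assoc (P.D * P.K)] at hu
  have h1 := pr_not fun r : Fin R → Bool => ∀ h ≤ P.D, P.GoodAt (P.A f g (ext r)) h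
  have h2 : pr (fun r : Fin R → Bool => ¬ ∀ h ≤ P.D, P.GoodAt (P.A f g (ext r)) h) ≤ P.fail := by
    refine (pr_mono fun r hr => ?_).trans hu
    have hex : ∃ h, h ≤ P.D ∧ ¬ P.GoodAt (P.A f g (ext r)) h := by simpa using hr
    obtain ⟨h0, ⟨hD, hbad⟩, hmin⟩ : ∃ h0, (h0 ≤ P.D ∧ ¬ P.GoodAt (P.A f g (ext r)) h0) ∧
        ∀ h < h0, ¬ (h ≤ P.D ∧ ¬ P.GoodAt (P.A f g (ext r)) h) :=
      ⟨Nat.find hex, Nat.find_spec hex, fun h hh => Nat.find_min hex hh⟩
    cases h0 with
    | zero =>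
      refine absurd (fun k _ a _ j _ p p' => ?_) hbad
      simpa only [refV, A_zero, sub_self, abs_zero] using P.window_alpha_nonneg j
    | succ h =>
      unfold GoodAt at hbad
      push Not at hbad
      obtain ⟨k, hk, a, ha, j, hj, p, p', hs⟩ := hbad
      refine ⟨(h, k, a, j), ?_, fun h' hh' => ?_, ha, p, p', hs⟩
      · simp only [mem_product, mem_range]
        exact ⟨hD, hk, ha.trans_le (Nat.pow_le_pow_right P.window_b_pos (Nat.sub_le _ _)),
          Nat.lt_succ_of_le hj⟩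
      · by_contra hn
        exact hmin h' (Nat.lt_succ_of_le hh') ⟨by simp only at hh'; omega, hn⟩
  linarith

end Par

end Vale.Agent.P315
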