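import Vale.Agent.P315.Lev

namespace Vale.Agent.P315

open Finset

theorem path_slice_length (f : ℕ → ℕ) (i s : ℕ) : (slice f i s).length = s := by simp [slice]

theorem path_slice_zero (f : ℕ → ℕ) (i : ℕ) : slice f i 0 = [] := by simp [slice]

theorem path_slice_succ (f : ℕ → ℕ) (i s : ℕ) : slice f i (s + 1) = f i :: slice f (i + 1) s := by
  simp [slice, List.range'_succ]

theorem path_slice_add (f : ℕ → ℕ) (i s t : ℕ) :
    slice f i (s + t) = slice f i s ++ slice f (i + s) t := by
  rw [slice, slice, slice, ← List.map_append, List.range'_append_1]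

theorem path_slice_take (f : ℕ → ℕ) (i : ℕ) {s t : ℕ} (h : s ≤ t) :
    (slice f i t).take s = slice f i s ∧ (slice f i t).drop s = slice f (i + s) (t - s) := by
  obtain ⟨m, rfl⟩ := Nat.exists_eq_add_of_le h
  rw [path_slice_add, Nat.add_sub_cancel_left]
  exact ⟨List.take_left' (path_slice_length f i s), List.drop_left' (path_slice_length f i s)⟩

theorem dpA_eq (f g : ℕ → ℕ) (i2 j2 s t : ℕ) (hs : s ≤ i2) (ht : t ≤ j2) :
    dpA f g i2 j2 s t = DD f g (i2 - s) (j2 - t) s t := by
  induction s generalizing t with
  | zero => rw [dpA, DD, path_slice_zero, lev_nil_left, path_slice_length]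
  | succ s ih =>
    induction t with
    | zero => rw [dpA, DD, path_slice_zero, lev_nil_right, path_slice_length]
    | succ t ih' =>
      have e1 : i2 - (s + 1) + 1 = i2 - s := by omega
      have e2 : j2 - (t + 1) + 1 = j2 - t := by omega
      rw [dpA, ih (t + 1) (by omega) ht, ih' (by omega), ih t (by omega) (by omega)]
      simp only [DD, path_slice_succ, e1, e2, lev_cons_cons]

theorem dpA_le (f g : ℕ → ℕ) (i2 j2 s t : ℕ) : dpA f g i2 j2 s t ≤ s + t := by
  induction s generalizing t with
  | zero => simp [dpA]
  | succ s ih =>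
    cases t with
    | zero => simp [dpA]
    | succ t =>
      have := ih (t + 1)
      rw [dpA]
      omega

theorem DD_ge (f g : ℕ → ℕ) (i j s t : ℕ) :
    s ≤ DD f g i j s t + t ∧ t ≤ DD f g i j s t + s := by
  simpa only [path_slice_length, DD] using lev_ge (slice f i s) (slice g j t)

theorem psi_zero (f g : ℕ → ℕ) (i : ℕ) : psi f g 0 i = 0 := by
  simp [psi, DD, path_slice_zero, lev_nil_left]

theorem path_lev_append_left (u v w : List ℕ) :
    lev u v ≤ lev (u ++ w) v + w.length ∧ lev (u ++ w) v ≤ lev u v + w.length := by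
  refine ⟨?_, by simpa [lev_nil_right] using lev_append_le u v w []⟩
  induction w using List.reverseRecOn with
  | nil => simp
  | append_singleton w c ih =>
    have := lev_snoc_left (u ++ w) v c
    simp only [← List.append_assoc, List.length_append, List.length_singleton]
    omega

theorem path_DD_comm (f g : ℕ → ℕ) (i j s t : ℕ) : DD f g i j s t = DD g f j i t s := lev_comm _ _

theorem path_DD_left (f g : ℕ → ℕ) (i j s s' t : ℕ) :
    DD f g i j s t ≤ DD f g i j s' t + Nat.dist s s' := by
  unfold DD
  rcases le_total s s' with h | h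
  · obtain ⟨m, rfl⟩ := Nat.exists_eq_add_of_le h
    have := (path_lev_append_left (slice f i s) (slice g j t) (slice f (i + s) m)).1
    rw [path_slice_length, ← path_slice_add] at this
    unfold Nat.dist
    omega
  · obtain ⟨m, rfl⟩ := Nat.exists_eq_add_of_le h
    have := (path_lev_append_left (slice f i s') (slice g j t) (slice f (i + s') m)).2
    rw [path_slice_length, ← path_slice_add] at this
    unfold Nat.dist
    omega

theorem psi_lip (f g : ℕ → ℕ) (u i i' : ℕ) : psi f g u i ≤ psi f g u i' + 2 * Nat.dist i i' := by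
  have h1 := path_DD_left f g 0 0 (min i u) (min i' u) (u - i)
  have h2 := path_DD_left g f 0 0 (u - i) (u - i') (min i' u)
  rw [path_DD_comm g, path_DD_comm g] at h2
  unfold psi
  unfold Nat.dist at *
  omega

theorem psi_tri (f g : ℕ → ℕ) {u i w s : ℕ} (hi : i ≤ u) (hs : s ≤ w) :
    psi f g (u + w) (i + s) ≤ psi f g u i + DD f g i (u - i) s (w - s) := by
  have e1 : u + w - (i + s) = u - i + (w - s) := by omega
  have := lev_append_le (slice f 0 i) (slice g 0 (u - i)) (slice f i s) (slice g (u - i) (w - s))
  rw [psi, psi, min_eq_left hi, min_eq_left (by omega), e1, DD, path_slice_add, path_slice_add,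
    zero_add, zero_add]
  exact this

theorem psi_step (f g : ℕ → ℕ) {u i w s : ℕ} (hi : i ≤ u) (hs : s ≤ w) :
    psi f g (u + w) (i + s) ≤ psi f g u i + w := by
  have h1 := psi_tri f g hi hs
  have h2 := lev_le_add (slice f i s) (slice g (u - i) (w - s))
  rw [path_slice_length, path_slice_length] at h2
  unfold DD at h1
  omega

theorem path_lev_map (u v : List ℕ) : lev (u.map (· + 1)) (v.map (· + 1)) = lev u v := by
  induction u generalizing v with
  | nil => simp [lev_nil_left]
  | cons c u ih =>
    induction v with
    | nil => simp [lev_nil_right]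
    | cons d v ih' =>
      have h1 := ih (d :: v)
      simp only [List.map_cons] at *
      rw [lev_cons_cons, lev_cons_cons, h1, ih', ih v]
      simp only [Nat.add_right_cancel_iff]

theorem path_slice_xt (x : List ℕ) (m : ℕ) :
    slice (xt x) 0 (x.length + m) = x.map (· + 1) ++ List.replicate m 0 := by
  refine List.ext_getElem (by simp [slice]) fun i h1 h2 => ?_
  simp only [slice, List.getElem_map, List.getElem_range', xt, zero_add, one_mul,
    List.getElem_append, List.length_map, List.getElem_replicate]
  split_ifs with h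
  · simp [h]
  · rfl

theorem path_lev_replicate (u v : List ℕ) (m : ℕ) :
    lev (u ++ List.replicate m 0) (v ++ List.replicate m 0) = lev u v := by
  induction m with
  | zero => simp
  | succ m ih =>
    rw [List.replicate_succ', ← List.append_assoc, ← List.append_assoc, lev_snoc_both, ih]

theorem psi_end (x y : List ℕ) (W : ℕ) (hW : x.length + y.length ≤ W) :
    x.length + (W - x.length - y.length) / 2 ≤ W ∧
    psi (xt x) (xt y) W (x.length + (W - x.length - y.length) / 2) ≤ ED x y + 1 ∧
    ED x y ≤ psi (xt x) (xt y) W (x.length + (W - x.length - y.length) / 2) + 1 := by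
  set m := (W - x.length - y.length) / 2 with hm
  have h0 : x.length + m ≤ W := by omega
  have h1 : DD (xt y) (xt x) 0 0 (y.length + m) (x.length + m) = ED x y := by
    rw [DD, path_slice_xt, path_slice_xt, path_lev_replicate, path_lev_map, ED_eq_lev, lev_comm]
  have h2 := path_DD_left (xt y) (xt x) 0 0 (y.length + m) (W - (x.length + m)) (x.length + m)
  have h3 := path_DD_left (xt y) (xt x) 0 0 (W - (x.length + m)) (y.length + m) (x.length + m)
  rw [psi, min_eq_left h0, path_DD_comm]
  unfold Nat.dist at *
  omega

/-- A near optimal alignment, recorded at the antidiagonals `a * B0`. -/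
theorem exists_path (f g : ℕ → ℕ) (B0 nL ie : ℕ) (hie : ie ≤ nL * B0) :
    ∃ I : ℕ → ℕ, I 0 = 0 ∧ I nL = ie ∧ (∀ a < nL, I a ≤ I (a + 1) ∧ I (a + 1) ≤ I a + B0) ∧
      ∑ a ∈ range nL, DD f g (I a) (a * B0 - I a) (I (a + 1) - I a) (B0 - (I (a + 1) - I a))
        ≤ psi f g (nL * B0) ie + 2 * nL := by
  induction nL generalizing ie with
  | zero => exact ⟨fun _ => 0, rfl, by simp only; omega, by simp, by simp⟩
  | succ n ih =>
    have e0 : (n + 1) * B0 = n * B0 + B0 := Nat.succ_mul n B0
    obtain ⟨s, t, hs, ht, e, h⟩ := lev_split (slice f 0 ie) (slice g 0 ((n + 1) * B0 - ie))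
      (n * B0) (by rw [path_slice_length, path_slice_length]; omega)
    rw [path_slice_length] at hs ht
    rw [(path_slice_take f 0 hs).1, (path_slice_take f 0 hs).2, (path_slice_take g 0 ht).1,
      (path_slice_take g 0 ht).2, zero_add, zero_add] at h
    obtain ⟨I, h0, h1, h2, h3⟩ := ih s (by omega)
    refine ⟨fun a => if a ≤ n then I a else ie, by simp [h0], by simp, fun a ha => ?_, ?_⟩
    · rcases Nat.lt_succ_iff_lt_or_eq.1 ha with ha | rfl
      · simp only [ha.le, Nat.succ_le_of_lt ha, if_true]
        exact h2 a ha
      · simp only [le_refl, if_true, Nat.not_succ_le_self, if_false, h1]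
        omega
    · beta_reduce
      rw [sum_range_succ, sum_congr rfl fun a ha => by
        rw [if_pos (mem_range.1 ha).le, if_pos (Nat.succ_le_of_lt (mem_range.1 ha))]]
      simp only [le_refl, if_true, Nat.not_succ_le_self, if_false, h1]
      have e1 : n * B0 - s = t := by omega
      have e2 : B0 - (ie - s) = (n + 1) * B0 - ie - t := by omega
      rw [psi, min_eq_left (by omega), e1] at h3
      rw [psi, min_eq_left hie, e1, e2]
      unfold DD at *
      omega

end Vale.Agent.P315
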