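import Vale.Agent.P315.Step
import Vale.Agent.P315.Path
import Vale.Agent.P315.Ent

namespace Vale.Agent.P315

open Finset

namespace Par

variable {P : Par}

/-- Regret coefficient. -/
noncomputable def theta (P : Par) : ℝ := 2 ^ (P.s0 + 1) * Real.log P.Om / P.K


theorem Upper_mono {I : ℕ → ℕ} {n B : ℕ} (hI : ∀ a < n, I a ≤ I (a + 1) ∧ I (a + 1) ≤ I a + B)
    (c e : ℕ) : c + e ≤ n → I c ≤ I (c + e) ∧ I (c + e) ≤ I c + e * B := by
  induction e with
  | zero => simp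
  | succ e ih =>
    intro h
    have h1 := ih (by omega)
    have h2 := hI (c + e) (by omega)
    rw [← add_assoc, add_one_mul]
    omega

/-- The comparator. -/
def upL (b : ℕ) (I : ℕ → ℕ) (h a : ℕ) : ℕ := I (a * b ^ h) / b ^ h

theorem upL_valid {I : ℕ → ℕ} {b B D : ℕ} (hb : 0 < b) (h0 : I 0 = 0)
    (hI : ∀ a < b ^ D, I a ≤ I (a + 1) ∧ I (a + 1) ≤ I a + B) {h a : ℕ} (hD : h ≤ D)
    (ha : a < b ^ (D - h)) : upL b I h a ≤ a * B ∧ upL b I h a ≤ upL b I h (a + 1) ∧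
      upL b I h (a + 1) ≤ upL b I h a + B := by
  have h1 : (a + 1) * b ^ h ≤ b ^ D := by
    rw [← pow_sub_mul_pow b hD]
    exact Nat.mul_le_mul_right _ ha
  rw [add_one_mul] at h1
  have h2 := Upper_mono hI 0 (a * b ^ h) (by omega)
  have h3 := Upper_mono hI (a * b ^ h) (b ^ h) h1
  rw [zero_add, h0, zero_add] at h2
  unfold upL
  rw [add_one_mul]
  refine ⟨Nat.div_le_of_le_mul (h2.2.trans_eq (by ring)), Nat.div_le_div_right h3.1, ?_⟩
  exact (Nat.div_le_div_right h3.2).trans_eq (Nat.add_mul_div_left _ _ (pow_pos hb h))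

theorem upL_real {b : ℕ} (hb : 0 < b) (I : ℕ → ℕ) (h a : ℕ) :
    (b : ℝ) ^ h * upL b I h a ≤ I (a * b ^ h) ∧
      (I (a * b ^ h) : ℝ) ≤ (b : ℝ) ^ h * upL b I h a + b ^ h := by
  have h1 := Nat.mul_div_le (I (a * b ^ h)) (b ^ h)
  have h2 := (Nat.lt_mul_div_succ (I (a * b ^ h)) (pow_pos hb h)).le
  rw [mul_add_one] at h2
  exact ⟨by exact_mod_cast h1, by exact_mod_cast h2⟩

theorem upL_end {b : ℕ} (hb : 0 < b) (I : ℕ → ℕ) (h a : ℕ) :
    upL b I (h + 1) a * b ≤ upL b I h (a * b) ∧ upL b I h (a * b) < upL b I (h + 1) a * b + b := by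
  unfold upL
  rw [mul_assoc, ← pow_succ', pow_succ, ← Nat.div_div_eq_div_mul]
  exact ⟨Nat.div_mul_le_self _ _, Nat.lt_div_mul_add hb⟩

theorem Upper_dist (m n : ℕ) : (Nat.dist m n : ℝ) = |(m : ℝ) - n| := by
  rcases le_total m n with h | h
  · rw [Nat.dist_eq_sub_of_le h, Nat.cast_sub h, abs_sub_comm,
      abs_of_nonneg (sub_nonneg.2 (Nat.cast_le.2 h))]
  · rw [Nat.dist_eq_sub_of_le_right h, Nat.cast_sub h,
      abs_of_nonneg (sub_nonneg.2 (Nat.cast_le.2 h))]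

theorem upL_dev {b : ℕ} (hb : 0 < b) (I : ℕ → ℕ) (h a : ℕ) {d j : ℕ} (hj : j ≤ b)
    (hd : upL b I (h + 1) (a + 1) = upL b I (h + 1) a + d) :
    (b : ℝ) ^ h * Nat.dist (upL b I h (a * b + j)) (upL b I (h + 1) a * b + j * d) ≤
      dev b I h a + b ^ (h + 1) := by
  have hb' : (1 : ℝ) ≤ b := by exact_mod_cast hb
  have hβ : (0 : ℝ) < (b : ℝ) ^ h := by positivity
  have h1 := abs_le.1 (dev_ge b I h a j hj)
  have h2 := upL_real hb I h (a * b + j)
  have h3 := upL_real hb I (h + 1) a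
  have h4 := upL_real hb I (h + 1) (a + 1)
  rw [hd] at h4
  have hj0 : (0 : ℝ) ≤ j / b := by positivity
  have hj1 : (0 : ℝ) ≤ 1 - j / b := sub_nonneg.2 ((div_le_one (by linarith)).2 (Nat.cast_le.2 hj))
  have e1 := mul_le_mul_of_nonneg_left h3.1 hj1
  have e2 := mul_le_mul_of_nonneg_left h3.2 hj1
  have e3 := mul_le_mul_of_nonneg_left h4.1 hj0
  have e4 := mul_le_mul_of_nonneg_left h4.2 hj0
  have e5 : (j : ℝ) / b * (b ^ (h + 1) * d) = b ^ h * (j * d) := by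
    rw [pow_succ]
    field_simp
  have e6 : (b : ℝ) ^ h ≤ b ^ (h + 1) := pow_le_pow_right₀ hb' h.le_succ
  rw [Upper_dist, ← abs_of_pos hβ, ← abs_mul, abs_le]
  unfold inc at h1
  push_cast at *
  simp only [pow_succ (b : ℝ) h] at *
  have e7 : ∀ x : ℝ, j * (x / b) = j / b * x := fun x => by ring
  rw [e7] at h1
  constructor <;> linarith [h1.1, h1.2, h2.1, h2.2]

theorem Upper_node (hP : P.Good) {I : ℕ → ℕ} (h0 : I 0 = 0)
    (hI : ∀ a < P.b ^ P.D, I a ≤ I (a + 1) ∧ I (a + 1) ≤ I a + P.B0) {h a : ℕ} (hD : h + 1 ≤ P.D)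
    (ha : a < P.b ^ (P.D - (h + 1))) (A : ℕ → ℕ → ℕ → Tab) (Tk : ℕ → ℕ → ℝ)
    (hT : ∀ k < P.K, ∀ j < P.b, ∀ p p', (A k (a * P.b + j) P.k0 p p' : ℝ) ≤ P.eta +
      ((2 * (Nat.dist p (upL P.b I h (a * P.b + j)) +
        Nat.dist p' (upL P.b I h (a * P.b + j + 1))) : ℕ) : ℝ) + Tk k (a * P.b + j)) :
    (P.b : ℝ) ^ (h + 1) * ∑ k ∈ range P.K, P.TR (P.cumT A k a)
      (P.valR fun jj p p' => (A k (a * P.b + jj) P.k0 p p' : ℝ)) (upL P.b I (h + 1) a)
      (upL P.b I (h + 1) (a + 1) - upL P.b I (h + 1) a) ≤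
      (P.b : ℝ) ^ h * ∑ j ∈ range P.b, ∑ k ∈ range P.K, Tk k (a * P.b + j) +
        P.K * ((P.eta + 4) * (P.b : ℝ) ^ (h + 1) +
          P.theta * (dev P.b I h a + 2 * (P.b : ℝ) ^ (h + 1))) := by
  have hb : 0 < P.b := lt_of_lt_of_le (by norm_num) (b_ge hP)
  have hb' : (1 : ℝ) ≤ P.b := by exact_mod_cast hb
  have hβ : (0 : ℝ) < (P.b : ℝ) ^ h := by positivity
  obtain ⟨-, v1, v2⟩ := upL_valid hb h0 hI hD ha
  obtain ⟨d, hd⟩ := Nat.exists_eq_add_of_le v1
  rw [hd, Nat.add_sub_cancel_left]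
  have e0 := upL_end hb I h a
  have e1 := upL_end hb I h (a + 1)
  rw [hd, add_one_mul] at e1
  obtain ⟨j0, hj0, hmax⟩ := exists_max_image (range P.b)
    (fun j => Nat.dist (upL P.b I h (a * P.b + j)) (upL P.b I (h + 1) a * P.b + j * d))
    ⟨0, mem_range.2 hb⟩
  have hδ := upL_dev hb I h a (mem_range.1 hj0).le hd
  set l := upL P.b I (h + 1) a with hl
  set δ := Nat.dist (upL P.b I h (a * P.b + j0)) (l * P.b + j0 * d) with hδd
  have hδG : δ < P.Gm := by
    have hj := mem_range.1 hj0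
    have hch : ∀ j ≤ P.b, upL P.b I h (a * P.b) ≤ upL P.b I h (a * P.b + j) ∧
        upL P.b I h (a * P.b + j) ≤ upL P.b I h (a * P.b) + j * P.B0 := fun j hj =>
      Upper_mono (I := upL P.b I h) (n := P.b ^ (P.D - h))
        (fun c hc => (upL_valid hb h0 hI (by omega) hc).2) _ _ (by
          rw [show P.D - h = P.D - (h + 1) + 1 by omega, pow_succ]
          nlinarith)
    have h1 := hch j0 hj.le
    have h2 : j0 * d ≤ P.b * P.B0 := Nat.mul_le_mul hj.le (by omega)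
    have h3 : j0 * P.B0 ≤ P.b * P.B0 := Nat.mul_le_mul_right _ hj.le
    have h4 := hP.Gm_ge
    rw [hδd, Nat.dist]
    omega
  have hi : δ.size ≤ P.imax := Nat.size_le.2 hδG
  have hi2 : 2 ^ δ.size ≤ 2 * (δ + 1) := by
    rcases hs : δ.size with _ | m
    · omega
    · have := Nat.lt_size.1 (show m < δ.size by omega)
      rw [pow_succ]
      omega
  obtain ⟨o, ho, hq⟩ := P.exists_option l d _ hi (fun j => upL P.b I h (a * P.b + j))
    fun j _ hj => (hmax j (mem_range.2 hj)).trans_lt (Nat.lt_size_self δ)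
  set i := δ.size
  set Φ : ℕ → ℝ := fun k => P.Fr i fun o => (P.val (P.cumT A k a) l d i o : ℝ) with hΦ
  have hτ := tau_bounds hP i
  have h1 : ∀ k ∈ range P.K, P.b * P.TR (P.cumT A k a)
      (P.valR fun jj p p' => (A k (a * P.b + jj) P.k0 p p' : ℝ)) l d ≤ Φ (k + 1) - Φ k := by
    intro k _
    have h2 := P.TR_le (P.cumT A k a)
      (P.valR fun jj p p' => (A k (a * P.b + jj) P.k0 p p' : ℝ)) l d hi
    have h3 := le_Psi hP (P.cumT A k a)
      (P.valR fun jj p p' => (A k (a * P.b + jj) P.k0 p p' : ℝ)) l d i (c := 0)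
      fun o _ => sum_nonneg fun _ _ => Nat.cast_nonneg _
    rw [max_eq_right (by positivity), le_div_iff₀' (by positivity)] at h2
    refine h2.trans (le_of_eq ?_)
    simp only [Psi, hΦ, val, valR, cumT, sum_range_succ, Nat.cast_add, Nat.cast_sum,
      sum_add_distrib]
  have h2 := sum_le_sum h1
  rw [sum_range_sub, ← mul_sum] at h2
  have h3 : Φ 0 = 0 := by
    simp only [hΦ, val, cumT, range_zero, sum_empty, sum_const_zero, Nat.cast_zero]
    exact sm_const hτ.1 P.Om_pos 0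
  have h4 : Φ P.K ≤ _ := sm_le hτ.1 ho _
  have h5 : ∑ j ∈ range P.b, 2 * (Nat.dist (P.q l d i o j) (upL P.b I h (a * P.b + j)) +
      Nat.dist (P.q l d i o (j + 1)) (upL P.b I h (a * P.b + j + 1))) ≤ 4 * P.b := by
    obtain ⟨c, hc⟩ := Nat.exists_eq_add_one_of_ne_zero hb.ne'
    have z : ∑ j ∈ range c, Nat.dist (P.q l d i o (j + 1)) (upL P.b I h (a * P.b + (j + 1))) = 0 :=
      sum_eq_zero fun j hj => by
        rw [hq (j + 1) j.succ_pos (by have := mem_range.1 hj; omega), Nat.dist_self]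
    simp only [← mul_sum, sum_add_distrib, add_assoc]
    have r : range P.b = range (c + 1) := by rw [hc]
    rw [r, sum_range_succ', sum_range_succ, z, ← hc, q_zero, q_last, add_zero, Nat.dist, Nat.dist]
    omega
  have h6 : (P.val (P.cumT A P.K a) l d i o : ℝ) ≤
      ∑ j ∈ range P.b, ∑ k ∈ range P.K, Tk k (a * P.b + j) + P.K * ((P.eta + 4) * P.b) := by
    have h7 := sum_le_sum fun j (hj : j ∈ range P.b) => sum_le_sum fun k (hk : k ∈ range P.K) =>
      hT k (mem_range.1 hk) j (mem_range.1 hj) (P.q l d i o j) (P.q l d i o (j + 1))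
    have h8 := mul_le_mul_of_nonneg_left ((Nat.cast_le (α := ℝ)).2 h5) (Nat.cast_nonneg P.K)
    simp only [sum_add_distrib, sum_const, card_range, nsmul_eq_mul, ← mul_sum] at h7
    rw [Nat.cast_sum, Nat.cast_mul 4, Nat.cast_ofNat] at h8
    simp only [val, cumT, Nat.cast_sum]
    linarith
  have hK : (0 : ℝ) < P.K := by exact_mod_cast hP.K_pos
  have hL : 0 ≤ Real.log P.Om := Real.log_natCast_nonneg _
  have h7 : P.tau i * Real.log P.Om ≤ P.K * (P.theta * (δ + 1)) := by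
    have : P.T i ≤ 2 ^ (P.s0 + 1) * (δ + 1) := by
      rw [T, pow_add, pow_succ]
      nlinarith [Nat.zero_le (2 ^ P.s0)]
    have h8 := mul_le_mul_of_nonneg_right (hτ.2.2.trans ((Nat.cast_le (α := ℝ)).2 this)) hL
    refine h8.trans (le_of_eq ?_)
    rw [theta]
    push_cast
    field_simp
  have hθ : 0 ≤ P.theta := by unfold theta; positivity
  have h8 : (P.b : ℝ) ^ h * (δ + 1) ≤ dev P.b I h a + 2 * (P.b : ℝ) ^ (h + 1) := by
    linarith [pow_le_pow_right₀ hb' (h.le_add_right 1)]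
  have h9 := mul_le_mul_of_nonneg_left (mul_le_mul_of_nonneg_left h8 hθ) hK.le
  have h10 := mul_le_mul_of_nonneg_left (h2.trans (by linarith : Φ P.K - Φ 0 ≤
    ∑ j ∈ range P.b, ∑ k ∈ range P.K, Tk k (a * P.b + j) + P.K * ((P.eta + 4) * P.b) +
      P.K * (P.theta * (δ + 1)))) hβ.le
  simp only [pow_succ (P.b : ℝ) h] at *
  linarith

theorem Upper_main (hP : P.Good) {f g : ℕ → ℕ} {A : ℕ → ℕ → ℕ → ℕ → Tab} (hS : P.Star f g A)
    {I : ℕ → ℕ} (h0 : I 0 = 0)
    (hI : ∀ a < P.b ^ P.D, I a ≤ I (a + 1) ∧ I (a + 1) ≤ I a + P.B0) (h : ℕ) : h ≤ P.D →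
    ∃ Tk : ℕ → ℕ → ℝ, (∀ k < P.K, ∀ a < P.b ^ (P.D - h), ∀ p p', (A h k a P.k0 p p' : ℝ) ≤ P.eta +
      ((2 * (Nat.dist p (upL P.b I h a) + Nat.dist p' (upL P.b I h (a + 1))) : ℕ) : ℝ) + Tk k a) ∧
      (P.b : ℝ) ^ h * ∑ a ∈ range (P.b ^ (P.D - h)), ∑ k ∈ range P.K, Tk k a ≤
      P.K * ((∑ a ∈ range (P.b ^ P.D), DD f g (I a) (a * P.B0 - I a) (I (a + 1) - I a)
        (P.B0 - (I (a + 1) - I a)) : ℕ) + h * ((P.eta + 4) * (P.b : ℝ) ^ P.D) +
        P.theta * (∑ h' ∈ range h, ∑ a ∈ range (P.b ^ (P.D - (h' + 1))), dev P.b I h' a +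
          h * (2 * (P.b : ℝ) ^ P.D))) := by
  have hb : 0 < P.b := lt_of_lt_of_le (by norm_num) (b_ge hP)
  induction h with
  | zero =>
    intro _
    refine ⟨fun _ a => (DD f g (I a) (a * P.B0 - I a) (I (a + 1) - I a)
      (P.B0 - (I (a + 1) - I a)) : ℕ), fun k _ a ha p p' => ?_, by simp [mul_sum]⟩
    have v := upL_valid hb h0 hI P.D.zero_le ha
    simp only [upL, pow_zero, mul_one, Nat.div_one] at v ⊢
    have h1 := P.cloR_le a (fun l d => (P.leafT f g a l d : ℝ)) p p' v.1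
      (d := I (a + 1) - I a) (by omega)
    have h2 : P.leafT f g a (I a) (I (a + 1) - I a) = DD f g (I a) (a * P.B0 - I a)
        (I (a + 1) - I a) (P.B0 - (I (a + 1) - I a)) := by
      rw [leafT, add_one_mul, dpA_eq _ _ _ _ _ _ (by omega) (by omega)]
      congr 1 <;> omega
    rw [h2, Nat.add_sub_cancel' v.2.1] at h1
    rw [hS.leaf, leaf, clo_cast]
    linarith [Nat.cast_nonneg (α := ℝ) P.eta]
  | succ h ih =>
    intro hD
    obtain ⟨Tk, hT, hs⟩ := ih (by omega)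
    have e : P.b ^ (P.D - h) = P.b ^ (P.D - (h + 1)) * P.b := by
      rw [show P.D - h = P.D - (h + 1) + 1 by omega, pow_succ]
    refine ⟨fun k a => P.TR (P.cumT (A h) k a)
      (P.valR fun jj p p' => (A h k (a * P.b + jj) P.k0 p p' : ℝ)) (upL P.b I (h + 1) a)
      (upL P.b I (h + 1) (a + 1) - upL P.b I (h + 1) a), fun k hk a ha p p' => ?_, ?_⟩
    · have v := upL_valid hb h0 hI hD ha
      have h1 := (abs_le.1 (hS.step h hD k hk a ha p p')).2
      have h2 := P.cloR_le a (P.TR (P.cumT (A h) k a)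
        (P.valR fun jj p p' => (A h k (a * P.b + jj) P.k0 p p' : ℝ))) p p' v.1
        (d := upL P.b I (h + 1) (a + 1) - upL P.b I (h + 1) a) (by omega)
      rw [Nat.add_sub_cancel' v.2.1] at h2
      unfold stepR at h1
      linarith
    · have h1 := sum_le_sum fun a (ha : a ∈ range (P.b ^ (P.D - (h + 1)))) =>
        Upper_node hP h0 hI hD (mem_range.1 ha) (A h) Tk fun k hk j hj =>
          hT k hk _ (by have := mem_range.1 ha; rw [e]; nlinarith)
      rw [e, Ent_sum_mul] at hs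
      have e2 : ((P.b ^ (P.D - (h + 1)) : ℕ) : ℝ) * (P.b : ℝ) ^ (h + 1) = (P.b : ℝ) ^ P.D := by
        exact_mod_cast pow_sub_mul_pow P.b hD
      simp only [sum_add_distrib, ← mul_sum, sum_const, card_range, nsmul_eq_mul, e2] at h1
      rw [sum_range_succ, Nat.cast_succ]
      linarith



/-- The output is nearly optimal. -/
theorem upper (hP : P.Good) (x y : List ℕ) (hW : x.length + y.length ≤ P.W)
    {A : ℕ → ℕ → ℕ → ℕ → Tab} (hS : P.Star (xt x) (xt y) A) {ε : ℝ} (hε : ε ≤ 1)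
    (h1 : P.theta ≤ 1) (h2 : P.theta * Real.sqrt (P.D * Real.log (P.B0 + 1)) ≤ ε) :
    (P.ans A x y : ℝ) ≤ (1 + ε) * ED x y + ((P.D + 1) * (2 * P.eta + 40) * P.NA : ℕ) := by
  obtain ⟨a1, a2, -⟩ := psi_end x y P.W hW
  change P.iend x y ≤ _ at a1
  change psi _ _ _ (P.iend x y) ≤ _ at a2
  have hb : 0 < P.b := lt_of_lt_of_le (by norm_num) (b_ge hP)
  obtain ⟨I, h0, hend, hI, hsum⟩ := exists_path (xt x) (xt y) P.B0 (P.b ^ P.D) (P.iend x y) a1
  obtain ⟨Tk, hT, hs⟩ := Upper_main hP hS h0 hI P.D le_rfl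
  have hdev := sum_dev_le P.b P.B0 P.D hb hP.B0_pos I hI
  have hDD : ∑ a ∈ range (P.b ^ P.D), |2 * ((I (a + 1) : ℝ) - I a) - P.B0| ≤
      (∑ a ∈ range (P.b ^ P.D), DD (xt x) (xt y) (I a) (a * P.B0 - I a) (I (a + 1) - I a)
        (P.B0 - (I (a + 1) - I a)) : ℕ) := by
    rw [Nat.cast_sum]
    refine sum_le_sum fun a ha => ?_
    have v := hI a (mem_range.1 ha)
    have w := DD_ge (xt x) (xt y) (I a) (a * P.B0 - I a) (I (a + 1) - I a)
      (P.B0 - (I (a + 1) - I a))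
    have w1 := (Nat.cast_le (α := ℝ)).2 w.1
    have w2 := (Nat.cast_le (α := ℝ)).2 w.2
    rw [Nat.cast_add, Nat.cast_sub (by omega : I (a + 1) - I a ≤ P.B0), Nat.cast_sub v.1] at w1 w2
    exact abs_le.2 ⟨by linarith, by linarith⟩
  set S := ∑ a ∈ range (P.b ^ P.D), DD (xt x) (xt y) (I a) (a * P.B0 - I a) (I (a + 1) - I a)
    (P.B0 - (I (a + 1) - I a))
  have hS1 : (S : ℝ) ≤ ED x y + 1 + 2 * (P.b : ℝ) ^ P.D := by
    exact_mod_cast hsum.trans (Nat.add_le_add_right a2 _)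
  set m := (range P.K).fold min P.RV fun k => A P.D k 0 P.k0 0 (P.iend x y / P.NA) with hm
  have h3 : ∀ k ∈ range P.K, (m : ℝ) ≤ P.eta + Tk k 0 := fun k hk => by
    have e1 := hT k (mem_range.1 hk) 0 (by simp) 0 (P.iend x y / P.NA)
    simp only [upL, zero_mul, h0, Nat.zero_div, zero_add, one_mul, hend, NA, Nat.dist_self,
      mul_zero, Nat.cast_zero, add_zero] at e1
    exact ((Nat.cast_le (α := ℝ)).2 ((fold_min_le _).2 (Or.inr ⟨k, hk, le_rfl⟩))).trans e1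
  have h4 := sum_le_sum h3
  simp only [sum_add_distrib, sum_const, card_range, nsmul_eq_mul] at h4
  simp only [Nat.sub_self, pow_zero, range_one, sum_singleton] at hs
  have hK : (0 : ℝ) < P.K := by exact_mod_cast hP.K_pos
  have hN : (1 : ℝ) ≤ (P.b : ℝ) ^ P.D := one_le_pow₀ (by exact_mod_cast hb)
  have hθ : 0 ≤ P.theta := by
    have : 0 ≤ Real.log P.Om := Real.log_natCast_nonneg _
    unfold theta
    positivity
  have hε0 : 0 ≤ ε := le_trans (by positivity) h2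
  set N := (P.b : ℝ) ^ P.D with hNd
  set Z := ∑ h' ∈ range P.D, ∑ a ∈ range (P.b ^ (P.D - (h' + 1))), dev P.b I h' a
  have h5 : N * m ≤ N * P.eta + (S + P.D * ((P.eta + 4) * N) + P.theta * (Z + P.D * (2 * N))) := by
    refine le_of_mul_le_mul_left ?_ hK
    linarith [mul_le_mul_of_nonneg_left h4 (zero_le_one.trans hN)]
  have h6 : P.theta * Z ≤ ε * ED x y + 5 * N := by
    have e1 := mul_le_mul_of_nonneg_left (hdev.trans (mul_le_mul_of_nonneg_right
      (by linarith : _ ≤ ED x y + (1 + 4 * N)) (Real.sqrt_nonneg _))) hθ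
    have e2 := mul_le_mul_of_nonneg_left h2 (by positivity : 0 ≤ ED x y + (1 + 4 * N))
    have e3 := mul_le_mul_of_nonneg_left hε (by positivity : 0 ≤ 1 + 4 * N)
    linarith
  have h7 := mul_le_mul_of_nonneg_right h1 (by positivity : 0 ≤ P.D * (2 * N))
  have h8 : 0 ≤ P.eta * N := by positivity
  have h9 : 0 ≤ P.D * N := by positivity
  simp only [ans, allow, ← hm]
  simp only [NA]
  push_cast
  rw [← hNd]
  linarith

end Par

end Vale.Agent.P315
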