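import Vale.Agent.P315.ParA
import Vale.Agent.P315.ParBAux
import Vale.Agent.P315.Tape
import Vale.Agent.P315.Upper

namespace Vale.Agent.P315

theorem parb_log_le {x e : ℕ} (h0 : 0 < x) (h : x ≤ 2 ^ e) : Real.log x ≤ e := by
  have h1 : Real.log x ≤ Real.log (2 ^ e) :=
    Real.log_le_log (by exact_mod_cast h0) (by exact_mod_cast h)
  rw [Real.log_pow] at h1
  have h2 : Real.log 2 ≤ 1 := by linarith [Real.log_two_lt_d9]
  exact h1.trans (mul_le_of_le_one_right e.cast_nonneg h2)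

namespace PF

variable {mm n lg z β0 : ℕ} {P : Par}

theorem good (h : PF mm n lg z β0 P) (hmm : 1 ≤ mm) (hz : 32 ≤ z) : P.Good where
  ln_le := h.ln_le hmm
  lb_ge := h.lb2
  B0_pos := by rw [h.hB0]; exact Nat.one_le_two_pow
  Gm_ge := by
    have h1 : P.Gm = 2 * (P.b * P.B0) := by rw [Par.Gm, h.himax, h.hB0, Par.b]; ring
    have h2 : 2 ^ 1 ≤ P.B0 := by
      rw [h.hB0]; exact Nat.pow_le_pow_right two_pos (by have := h.β1; omega)
    have h3 : 2 ^ 1 ≤ P.b := Nat.pow_le_pow_right two_pos (by have := h.lb2; omega)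
    have h4 := Nat.mul_le_mul_left P.b h2
    omega
  ell_pos := by rw [h.hell]; exact Nat.one_le_pow _ _ (by omega)
  K_pos := by rw [h.hK]; exact Nat.one_le_pow _ _ (by omega)
  S_pos := by
    have h1 : 0 < lg := by have := h.sq_le hz; omega
    rw [h.hS, h.RV_eq]
    exact Nat.pos_of_ne_zero (by positivity)
  RV_le := h.RV_eq.le
  Wz_gt := by
    rw [Om_eq, Par.T, Par.Wz, ← pow_mul, ← pow_add, h.hwz]
    exact Nat.pow_lt_pow_right one_lt_two (by omega)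
  s0_ge := h.hs0.ge
  N_ge := by
    have h1 : 2 * P.RV + 1 ≤ 4 * 2 ^ (3 * z) := by
      have := h.RV_le hz; have : 0 < 2 ^ (3 * z) := by positivity
      omega
    have h2 : z < 2 ^ z := Nat.lt_two_pow_self
    have h3 : P.imax + 1 ≤ 3 * 2 ^ z := by have := h.k0_le hz; have := h.hk0; omega
    have h4 : 2 * P.Mloc ≤ 2 ^ (8 * z) :=
      calc 2 * P.Mloc ≤ 2 * (4 * 2 ^ (3 * z) * 2 ^ (3 * z) * (3 * 2 ^ z)) := by
            unfold Par.Mloc; gcongr; exact h.B0_lt hz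
        _ = 24 * 2 ^ (7 * z) := by ring
        _ ≤ 2 ^ z * 2 ^ (7 * z) := by gcongr; omega
        _ = _ := by ring
    have h5 := parb_log_le (by unfold Par.Mloc; positivity) h4
    push_cast at h5
    have hz' : (32 : ℝ) ≤ z := by exact_mod_cast hz
    have h6 : (32 : ℝ) ^ 3 ≤ z ^ 3 := by gcongr
    rw [h.hell, h.hN]
    push_cast
    calc 4096 * ((z : ℝ) ^ 3) ^ 4 * Real.log (2 * P.Mloc) ≤ 4096 * ((z : ℝ) ^ 3) ^ 4 * (8 * z) := by
          gcongr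
      _ = 32 ^ 3 * (z : ℝ) ^ 13 := by ring
      _ ≤ z ^ 3 * (z : ℝ) ^ 13 := by gcongr
      _ = _ := by ring

theorem fail_le (h : PF mm n lg z β0 P) (hz : 32 ≤ z) : P.fail ≤ 1 / 3 := by
  have h0 := h.sq_le hz
  have h1 : lg < 2 ^ lg := Nat.lt_two_pow_self
  have h2 : P.W + P.RV ≤ 8 * 2 ^ lg := by
    have := (h.RV_le hz).trans (Nat.pow_le_pow_right two_pos (show 3 * z ≤ lg by omega))
    rw [h.W_eq, pow_add]
    omega
  have h3 : P.D * P.K * P.NA * (P.k0 + 1) ≤ 2 ^ lg * 2 ^ lg * 2 ^ lg * 2 ^ lg := by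
    gcongr
    · exact (h.D_le hz).trans h1.le
    · exact (h.K_le hz).trans h1.le
    · exact h.NA_le hz
    · have := h.k0_le hz; omega
  have hRV : (0 : ℝ) < P.RV := by rw [h.RV_eq]; positivity
  have h4 : Real.exp (-(P.S : ℝ) / (4 * (P.RV : ℝ) ^ 2)) ≤ (((2 : ℝ) ^ lg) ^ 8)⁻¹ := by
    rw [h.hS, show -((32 * lg * P.RV ^ 2 : ℕ) : ℝ) / (4 * (P.RV : ℝ) ^ 2) =
      -((lg * 8 : ℕ) * (1 : ℝ)) by push_cast; field_simp; ring, Real.exp_neg, Real.exp_nat_mul,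
      ← pow_mul]
    gcongr
    linarith [Real.add_one_le_exp 1]
  have h5 : (32 : ℝ) ≤ 2 ^ lg := by exact_mod_cast (show 32 ≤ 2 ^ lg by omega)
  set y : ℝ := 2 ^ lg with hy
  have h2' : ((P.W + P.RV : ℕ) : ℝ) ≤ 8 * y := by rw [hy]; exact_mod_cast h2
  have h3' : ((P.D * P.K * P.NA * (P.k0 + 1) : ℕ) : ℝ) ≤ y * y * y * y := by
    rw [hy]; exact_mod_cast h3
  unfold Par.fail
  rw [Nat.cast_pow]
  calc _ ≤ y * y * y * y * ((8 * y) ^ 2 * (2 * (y ^ 8)⁻¹)) := by gcongr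
    _ = 128 / y ^ 2 := by field_simp; norm_num
    _ ≤ 128 / 32 ^ 2 := by gcongr
    _ ≤ 1 / 3 := by norm_num

theorem theta_le (h : PF mm n lg z β0 P) (hz : 32 ≤ z) :
    P.theta ≤ 24576 / (z : ℝ) ^ (32 * mm + 22) := by
  have hz' : (0 : ℝ) < z := by exact_mod_cast (show 0 < z by omega)
  have h1 := parb_log_le (x := P.Om) (by rw [Om_eq]; positivity) ((Om_eq P).le.trans
    (Nat.pow_le_pow_right two_pos (h.imb_le hz)))
  have h2 : (2 : ℝ) ^ P.s0 = 4096 * (z : ℝ) ^ (16 * mm) * ((z : ℝ) ^ 3) ^ 2 := by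
    have := h.hs0
    rw [h.hb, h.hell] at this
    exact_mod_cast this
  unfold Par.theta
  rw [pow_succ, h2, h.hK]
  push_cast at h1 ⊢
  calc _ ≤ 4096 * (z : ℝ) ^ (16 * mm) * ((z : ℝ) ^ 3) ^ 2 * 2 * (3 * z ^ (16 * mm + 1)) /
        z ^ (64 * mm + 29) := by gcongr
    _ = _ := by field_simp; ring

theorem sqrt_le (h : PF mm n lg z β0 P) (hz : 32 ≤ z) :
    Real.sqrt (P.D * Real.log (P.B0 + 1)) ≤ 2 * 2 ^ (32 * mm + 20) * (z : ℝ) ^ (32 * mm + 21) := by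
  have hz' : (1 : ℝ) ≤ z := by exact_mod_cast (show 1 ≤ z by omega)
  have h1 := parb_log_le (by positivity) (h.B0_lt hz)
  have h2 : (P.D : ℝ) ≤ (2 * z) ^ (64 * mm + 40) := by
    exact_mod_cast (h.D_le hz).trans h.z2.le
  have h3 : 0 ≤ Real.log (P.B0 + 1) := Real.log_nonneg (by linarith [P.B0.cast_nonneg (α := ℝ)])
  push_cast at h1
  refine Real.sqrt_le_iff.2 ⟨by positivity, ?_⟩
  calc _ ≤ (2 * (z : ℝ)) ^ (64 * mm + 40) * (3 * z) := by gcongr
    _ ≤ (2 * (z : ℝ)) ^ (64 * mm + 40) * (4 * z ^ 2) := by gcongr ?_ * ?_; nlinarith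
    _ = _ := by ring

theorem rpow_le (h : PF mm n lg z β0 P) (hz : 32 ≤ z) :
    Real.log n ^ (1 / (2 * (64 * mm + 40) : ℝ)) ≤ z := by
  have hn : 0 < n := lt_of_lt_of_le (by positivity) h.n1
  have h1 := parb_log_le hn h.n2.le
  have h2 : lg + 1 ≤ z ^ (2 * (64 * mm + 40)) := by
    rw [pow_mul]
    exact le_trans h.z2 (Nat.pow_le_pow_left (by nlinarith) _)
  have h3 : Real.log n ≤ (z : ℝ) ^ (2 * (64 * mm + 40)) := h1.trans (by exact_mod_cast h2)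
  refine (Real.rpow_le_rpow (Real.log_natCast_nonneg n) h3 (by positivity)).trans (le_of_eq ?_)
  have := Real.pow_rpow_inv_natCast (x := (z : ℝ)) (n := 2 * (64 * mm + 40)) z.cast_nonneg
    (by omega)
  rw [one_div]
  exact_mod_cast this

end PF

/-- Conditions needed for correctness. -/
theorem par_good (mm : ℕ) (hmm : 1 ≤ mm) {ε : ℝ} (hε : 0 < ε) :
    ∃ Z, ∀ n lg z β0 (P : Par), Z ≤ z → PF mm n lg z β0 P →
      P.Good ∧ 2 * n ≤ P.W ∧ P.fail ≤ 1 / 3 ∧ P.theta ≤ 1 ∧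
      P.theta * Real.sqrt (P.D * Real.log (P.B0 + 1)) ≤ ε ∧
      (((P.D + 1) * (2 * P.eta + 40) * P.NA : ℕ) : ℝ) ≤
        ε * (n / 2 ^ (Real.log n ^ (1 / (2 * (64 * mm + 40) : ℝ)))) := by
  obtain ⟨C1, hC1⟩ := exists_nat_ge (24576 * (2 * 2 ^ (32 * mm + 20)) / ε)
  obtain ⟨C2, hC2⟩ := exists_nat_ge (288 * 2 ^ (64 * mm + 40) / ε)
  obtain ⟨Z, hZ⟩ := poly_le_two_pow C2 (64 * mm + 43)
  refine ⟨max (max 24576 C1) Z, fun n lg z β0 P hz h => ?_⟩
  have hz1 : 24576 ≤ z := le_trans (le_trans (le_max_left _ _) (le_max_left _ _)) hz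
  have hz2 : C1 ≤ z := le_trans (le_trans (le_max_right _ _) (le_max_left _ _)) hz
  have hz3 := hZ z (le_trans (le_max_right _ _) hz)
  have hz0 : 32 ≤ z := by omega
  have hz' : (24576 : ℝ) ≤ z := by exact_mod_cast hz1
  have hzp : (0 : ℝ) < z := by linarith
  refine ⟨h.good hmm hz0, ?_, h.fail_le hz0, (h.theta_le hz0).trans ?_, ?_, ?_⟩
  · have := h.n2
    rw [h.W_eq, pow_succ]
    omega
  · rw [div_le_one (by positivity)]
    exact hz'.trans (le_self_pow₀ (by linarith) (by omega))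
  · refine (mul_le_mul (h.theta_le hz0) (h.sqrt_le hz0) (Real.sqrt_nonneg _)
      (by positivity)).trans ?_
    have h1 : (C1 : ℝ) ≤ z := by exact_mod_cast hz2
    have h2 := hC1.trans h1
    rw [div_le_iff₀ hε] at h2
    calc _ = 24576 * (2 * 2 ^ (32 * mm + 20)) / (z : ℝ) := by field_simp; ring
      _ ≤ ε := by rw [div_le_iff₀ hzp]; linarith
  · have h1 : P.D + 1 ≤ 2 * (2 * z) ^ (64 * mm + 40) := by
      have := h.D_le hz0; have := h.z2; omega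
    have h2 : 2 * P.eta + 40 ≤ 72 * z ^ 3 := by
      have : 1 ≤ z ^ 3 := Nat.one_le_pow _ _ (by omega)
      rw [Par.eta, h.hell]
      omega
    have h3 : ((P.D + 1) * (2 * P.eta + 40) : ℕ) ≤
        (144 * 2 ^ (64 * mm + 40) * (z : ℝ) ^ (64 * mm + 43)) := by
      have : (P.D + 1) * (2 * P.eta + 40) ≤ 144 * 2 ^ (64 * mm + 40) * z ^ (64 * mm + 43) :=
        (Nat.mul_le_mul h1 h2).trans (le_of_eq (by ring))
      exact_mod_cast this
    have h4 : (C2 : ℝ) * z ^ (64 * mm + 43) ≤ 2 ^ z := by exact_mod_cast hz3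
    rw [div_le_iff₀ hε] at hC2
    have h5 : 2 * (((P.D + 1) * (2 * P.eta + 40) : ℕ) : ℝ) ≤ ε * 2 ^ z :=
      calc _ ≤ 288 * 2 ^ (64 * mm + 40) * (z : ℝ) ^ (64 * mm + 43) := by linarith
        _ ≤ C2 * ε * (z : ℝ) ^ (64 * mm + 43) := by gcongr
        _ = ε * (C2 * (z : ℝ) ^ (64 * mm + 43)) := by ring
        _ ≤ _ := by gcongr
    have h6 : (P.NA : ℝ) * 2 ^ (2 * z) ≤ 2 * n := by exact_mod_cast h.NA_mul
    have h7 : (2 : ℝ) ^ (Real.log n ^ (1 / (2 * (64 * mm + 40) : ℝ))) ≤ 2 ^ z := by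
      rw [← Real.rpow_natCast]
      exact Real.rpow_le_rpow_of_exponent_le one_le_two (h.rpow_le hz0)
    have hy : (0 : ℝ) < 2 ^ z := by positivity
    rw [Nat.cast_mul]
    calc _ ≤ (ε * 2 ^ z / 2) * (2 * n / 2 ^ (2 * z)) := by
          refine mul_le_mul (by linarith) ?_ (Nat.cast_nonneg _) (by positivity)
          rw [le_div_iff₀ (by positivity)]
          exact h6
      _ = ε * (n / 2 ^ z) := by field_simp; ring
      _ ≤ _ := by gcongr

end Vale.Agent.P315
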