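import Vale.Agent.P315.ParA
import Vale.Agent.P315.ParBAux

namespace Vale.Agent.P315

theorem parc_sq {c x : ℕ} (hx : 32 ≤ x) (hc : c ≤ 32 * x) : c ≤ x * x :=
  hc.trans (Nat.mul_le_mul_right x hx)

theorem parc_small {z y k0 im RV B0 b K S N ell D lb ln s0 r F Om R : ℕ} (hz : 32 ≤ z)
    (hzy : z < y) (hk : k0 ≤ 3 * z) (hk0 : k0 = im + 3) (hRV : RV ≤ y ^ 3) (hB : B0 + 1 ≤ y ^ 3)
    (hb : b ≤ y) (hK : K ≤ y) (hS : S ≤ 32 * y ^ 7) (hN : N ≤ y) (hell : ell ≤ y) (hD : D ≤ y)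
    (hlb : 8 * lb ≤ z) (hln : ln ≤ lb) (hs0 : s0 ≤ z) (hr : r ≤ y) (hF : y ^ 8 ≤ F) (hOm : Om ≤ F)
    (hR : 32 * F ≤ R) :
    b + (N + (K + (S + (im + 1 + (Om + (b * (K + 3) * RV + (2 * RV + 1 + (B0 + 1 + (lb + (r +
      (RV + (k0 + (ell + (D + (B0 + (ln + (s0 + 0))))))))))))))))) ≤ R := by
  have hy32 : 32 ≤ y := by omega
  have e1 : 32 * y ^ 7 ≤ y ^ 8 := by rw [pow_succ y 7, mul_comm]; exact Nat.mul_le_mul_left _ hy32
  have e2 : y ^ 5 ≤ y ^ 7 := Nat.pow_le_pow_right (by omega) (by omega)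
  have e3 : y ^ 3 ≤ y ^ 5 := Nat.pow_le_pow_right (by omega) (by omega)
  have e4 : y ≤ y ^ 3 := Nat.le_self_pow (by omega) y
  have hX : b * (K + 3) * RV ≤ 4 * y ^ 5 :=
    calc _ ≤ y * (4 * y) * y ^ 3 := Nat.mul_le_mul (Nat.mul_le_mul hb (by linarith)) hRV
      _ = _ := by ring
  linarith

theorem parc_HS {D K NA k0 S SZ lb R V : ℕ} (hR : 32 ≤ R) (hD : D ≤ R) (hK : K ≤ R)
    (hNA : NA ≤ V) (hk0 : k0 ≤ R) (hS : S ≤ R) (hSZ : SZ ≤ R) (hlb : lb ≤ R) :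
    (D + 1) * (K * NA * (k0 + 1) * S * SZ) * (lb + 1) ≤ 8 * (V * R ^ 6) :=
  calc _ ≤ (2 * R) * (R * V * (2 * R) * R * R) * (2 * R) := by gcongr <;> omega
    _ = _ := by ring

theorem parc_big {T1 D K NA S SZ R V W Wz b N B0 im Xm RV DW ell sm pw n : ℕ} (hR : 32 ≤ R)
    (hT : T1 ≤ 8 * (V * R ^ 6)) (hD : D ≤ R) (hK : K ≤ R) (hNA : NA ≤ V) (hS : S ≤ R)
    (hSZ : SZ ≤ R) (hW : W = 4 * V) (hWz : Wz ≤ R) (hb : b ≤ R) (hN : N ≤ R) (hB0 : B0 + 1 ≤ R)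
    (him : im + 1 ≤ R) (hXm : Xm ≤ R) (hRV : RV ≤ R) (hDW : DW ≤ R) (hell : ell ≤ R)
    (hsm : sm ≤ R) (hpw : pw ≤ R) (hR8 : R ^ 8 ≤ V) (hn : V ≤ n) :
    T1 + (2 * D + 5) * ((S + b * (K + 1) + N) * ((W + RV + 1) * DW) + 8) + Wz +
      (W + 1) * (B0 + 1) ^ 2 + (im + 1) * (Xm + 1) + NA * RV + (D * (6 * ell + 10) + 3) * NA +
      b * ((W + RV + 1) * DW) + sm + SZ + pw + W + NA + 2 ≤ n ^ 2 := by
  have hR1 : R ≤ V := (Nat.le_self_pow (by omega) R).trans hR8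
  have hV : 0 < V := by omega
  have hRR : R ≤ R * R := Nat.le_mul_self R
  have hp : ∀ k ≤ 6, V * R ^ k ≤ V * R ^ 6 := fun k hk =>
    Nat.mul_le_mul_left _ (Nat.pow_le_pow_right (by omega) hk)
  have hTS : (W + RV + 1) * DW ≤ 6 * (V * R ^ 1) :=
    calc _ ≤ (6 * V) * R := by gcongr; omega
      _ = _ := by ring
  have hCM : S + b * (K + 1) + N ≤ 4 * (R * R) := by
    have : b * (K + 1) ≤ R * (2 * R) := by gcongr; omega
    have e : R * (2 * R) = 2 * (R * R) := by ring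
    omega
  have hSTR : (S + b * (K + 1) + N) * ((W + RV + 1) * DW) ≤ 24 * (V * R ^ 3) :=
    calc _ ≤ 4 * (R * R) * (6 * (V * R ^ 1)) := Nat.mul_le_mul hCM hTS
      _ = _ := by ring
  have h3 : 1 ≤ V * R ^ 3 := Nat.pos_of_ne_zero (by positivity)
  have t2 : (2 * D + 5) * ((S + b * (K + 1) + N) * ((W + RV + 1) * DW) + 8) ≤ 3 * (V * R ^ 5) :=
    calc _ ≤ (3 * R) * (R * (V * R ^ 3)) := Nat.mul_le_mul (by omega)
          (le_trans (by omega) (Nat.mul_le_mul_right (V * R ^ 3) hR))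
      _ = _ := by ring
  have t4 : (W + 1) * (B0 + 1) ^ 2 ≤ 5 * (V * R ^ 2) :=
    calc _ ≤ (5 * V) * R ^ 2 := by gcongr; omega
      _ = _ := by ring
  have t5 : (im + 1) * (Xm + 1) ≤ 2 * (V * R ^ 1) :=
    calc _ ≤ V * (2 * R) := Nat.mul_le_mul (by omega) (by omega)
      _ = _ := by ring
  have t6 : NA * RV ≤ V * R ^ 1 := by rw [pow_one]; gcongr
  have t7 : (D * (6 * ell + 10) + 3) * NA ≤ 8 * (V * R ^ 2) := by
    have : D * (6 * ell + 10) ≤ R * (7 * R) := Nat.mul_le_mul hD (by omega)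
    have e : R * (7 * R) = 7 * (R * R) := by ring
    calc _ ≤ (8 * (R * R)) * V := Nat.mul_le_mul (by omega) hNA
      _ = _ := by ring
  have t8 : b * ((W + RV + 1) * DW) ≤ 6 * (V * R ^ 2) :=
    calc _ ≤ R * (6 * (V * R ^ 1)) := Nat.mul_le_mul hb hTS
      _ = _ := by ring
  have p0 := hp 0 (by omega)
  have p1 := hp 1 (by omega)
  have p2 := hp 2 (by omega)
  have p5 := hp 5 (by omega)
  rw [pow_zero, mul_one] at p0
  have hfin : 64 * (V * R ^ 6) ≤ n ^ 2 :=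
    calc 64 * (V * R ^ 6) ≤ R * R * (V * R ^ 6) :=
          Nat.mul_le_mul_right _ (parc_sq hR (by omega))
      _ = V * R ^ 8 := by ring
      _ ≤ n * n := Nat.mul_le_mul hn (hR8.trans hn)
      _ = _ := by ring
  omega

namespace PF

variable {mm n lg z β0 : ℕ} {P : Par}

theorem u_le (hz : 32 ≤ z) (mm : ℕ) : 32 * z ^ (16 * mm + 1) ≤ z ^ (64 * mm + 39) := by
  calc 32 * z ^ (16 * mm + 1) ≤ z * z ^ (16 * mm + 1) := Nat.mul_le_mul_right _ hz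
    _ = z ^ (16 * mm + 2) := by ring
    _ ≤ _ := Nat.pow_le_pow_right (by omega) (by omega)

theorem zQ_le (h : PF mm n lg z β0 P) : z * z ^ (64 * mm + 39) ≤ lg := by
  rw [← pow_succ']
  exact h.z1

theorem small_le (h : PF mm n lg z β0 P) (hmm : 1 ≤ mm) (hz : 32 ≤ z) (hy : lg ≤ 2 ^ z) :
    P.small ≤ Rz mm z := by
  have hzy : z < 2 ^ z := Nat.lt_two_pow_self
  have h3 : 2 ^ (3 * z) = (2 ^ z) ^ 3 := by ring
  have hk := h.k0_le hz
  have hk0 := h.hk0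
  have hRV := h.RV_le hz
  have hB := h.B0_lt hz
  have hb := h.b_le
  have hK := (h.K_le hz).trans hy
  have hS := h.S_le hz hy
  have hN : P.N ≤ 2 ^ z := by rw [h.hN]; exact (h.pow_le_lg hz (by omega)).trans hy
  have hell : P.ell ≤ 2 ^ z := by rw [h.hell]; exact (h.pow_le_lg hz (by omega)).trans hy
  have hD := (h.D_le hz).trans hy
  have hlb := h.lbz
  have hln := h.ln_le hmm
  have hs0 := h.s0z
  have hr : P.r ≤ 2 ^ z := Nat.pow_le_pow_right two_pos (by omega)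
  have hu : 8 * z ≤ 3 * z ^ (16 * mm + 1) := by
    have h1 : z ^ 2 ≤ z ^ (16 * mm + 1) := Nat.pow_le_pow_right (by omega) (by omega)
    have h2 : 8 * z ≤ z * z := parc_sq hz (by omega)
    rw [sq] at h1
    exact (h2.trans h1).trans (Nat.le_mul_of_pos_left _ (by omega))
  have hF : (2 ^ z) ^ 8 ≤ 2 ^ (3 * z ^ (16 * mm + 1)) := by
    rw [← pow_mul, mul_comm]
    exact Nat.pow_le_pow_right two_pos hu
  have hOm : P.Om ≤ 2 ^ (3 * z ^ (16 * mm + 1)) :=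
    (Om_eq P).le.trans (Nat.pow_le_pow_right two_pos (h.imb_le hz))
  have hR : 32 * 2 ^ (3 * z ^ (16 * mm + 1)) ≤ Rz mm z := by
    rw [show 32 = 2 ^ 5 from rfl, ← pow_add]
    exact Nat.pow_le_pow_right two_pos (by have := u_le hz mm; omega)
  rw [h3] at hRV hB
  simp only [Par.small, Par.smL, List.sum_cons, List.sum_nil, Par.DW, Par.Xmax]
  exact parc_small hz hzy hk hk0 hRV hB hb hK hS hN hell hD hlb hln hs0 hr hF hOm hR

theorem pw_le (h : PF mm n lg z β0 P) (hmm : 1 ≤ mm) (hz : 32 ≤ z) :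
    P.pw ≤ z ^ (64 * mm + 39) := by
  have h1 := h.imb_le hz
  have h2 := u_le hz mm
  have hk := h.k0_le hz
  have hk0 := h.hk0
  have hlb := h.lbz
  have hln := h.ln_le hmm
  have hs0 := h.s0z
  have h3 : z ^ 4 ≤ z ^ (16 * mm + 1) := Nat.pow_le_pow_right (by omega) (by omega)
  have h4 : z ≤ z ^ 4 := Nat.le_self_pow (by omega) z
  have h5 : (P.ln + 1) * P.ell ≤ z ^ 4 := by
    rw [h.hell, pow_succ' z 3]
    exact Nat.mul_le_mul_right _ (by omega)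
  unfold Par.pw
  rw [h.hwz]
  omega

theorem SZ_le (P : Par) : P.SZ P.ell ≤ 2 ^ P.pw := by
  rw [Par.SZ, Par.N, ← pow_succ', ← pow_mul]
  exact Nat.pow_le_pow_right two_pos (by unfold Par.pw; omega)

theorem Rz_pow (h : PF mm n lg z β0 P) {d : ℕ} (hd : d ≤ z) : Rz mm z ^ d ≤ 2 ^ lg := by
  rw [Rz, ← pow_mul]
  exact Nat.pow_le_pow_right two_pos
    ((Nat.mul_le_mul_left _ hd).trans (by rw [mul_comm]; exact h.zQ_le))

theorem Rz_ge (hz : 32 ≤ z) (mm : ℕ) : 32 ≤ Rz mm z := by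
  have h1 : z ≤ z ^ (64 * mm + 39) := Nat.le_self_pow (by omega) z
  have h2 : z ^ (64 * mm + 39) < Rz mm z := Nat.lt_two_pow_self
  omega

theorem HS_le (h : PF mm n lg z β0 P) (hmm : 1 ≤ mm) (hz : 32 ≤ z) (hy : lg ≤ 2 ^ z) :
    (P.D + 1) * P.HS * (P.lb + 1) ≤ 8 * (2 ^ lg * Rz mm z ^ 6) := by
  have hs := fun i => (Par.smL_le P i).trans (h.small_le hmm hz hy)
  exact parc_HS (Rz_ge hz mm) (hs 14) (hs 2) (h.NA_le hz) (hs 12) (hs 3)
    ((SZ_le P).trans (Nat.pow_le_pow_right two_pos (h.pw_le hmm hz))) (hs 9)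

theorem big_le (h : PF mm n lg z β0 P) (hmm : 1 ≤ mm) (hz : 32 ≤ z) (hy : lg ≤ 2 ^ z) :
    P.big + 2 ≤ n ^ 2 := by
  have hs := fun i => (Par.smL_le P i).trans (h.small_le hmm hz hy)
  have hpw : 2 ^ P.pw ≤ Rz mm z := Nat.pow_le_pow_right two_pos (h.pw_le hmm hz)
  have hWz : P.Wz ≤ Rz mm z :=
    le_trans (Nat.pow_le_pow_right two_pos (by unfold Par.pw; omega)) hpw
  have hW : P.W = 4 * 2 ^ lg := by rw [h.W_eq]; ring
  exact parc_big (Rz_ge hz mm) (h.HS_le hmm hz hy) (hs 14) (hs 2) (h.NA_le hz) (hs 3)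
    ((SZ_le P).trans hpw) hW hWz (hs 0) (hs 1) (hs 8) (hs 4) (hs 6) (hs 11) (hs 7) (hs 13)
    (h.small_le hmm hz hy) hpw (h.Rz_pow (by omega)) h.n1

end PF

/-- Sizes. -/
theorem par_sizes (mm : ℕ) (hmm : 1 ≤ mm) :
    ∃ Z, ∀ n lg z β0 (P : Par), Z ≤ z → PF mm n lg z β0 P →
      P.big + 2 ≤ n ^ 3 ∧ 4 * n + 4 ≤ n ^ 3 ∧ P.small ≤ Rz mm z ∧ Rz mm z ≤ n ∧ z ≤ n ∧
      P.pw ≤ lg := by
  obtain ⟨Z, hZ⟩ := par_lg_le mm
  refine ⟨max 32 Z, fun n lg z β0 P hz h => ?_⟩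
  have hz0 : 32 ≤ z := le_trans (le_max_left _ _) hz
  have hy := hZ n lg z β0 P (le_trans (le_max_right _ _) hz) h
  have h1 := h.sq_le hz0
  have h2 : lg < 2 ^ lg := Nat.lt_two_pow_self
  have h3 := h.n1
  have h4 := h.Rz_pow (d := 1) (by omega)
  have h5 := h.zQ_le
  have h6 := h.pw_le hmm hz0
  have h7 : 1 * z ^ (64 * mm + 39) ≤ z * z ^ (64 * mm + 39) := Nat.mul_le_mul_right _ (by omega)
  rw [pow_one] at h4
  refine ⟨(h.big_le hmm hz0 hy).trans (Nat.pow_le_pow_right (by omega) (by omega)), ?_,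
    h.small_le hmm hz0 hy, by omega, by omega, by omega⟩
  have h8 : n ^ 2 ≤ n ^ 3 := Nat.pow_le_pow_right (by omega) (by omega)
  have h9 : 32 ≤ n := by omega
  rw [sq] at h8
  exact (parc_sq h9 (by omega)).trans h8

theorem parc_rpow {mm n lg e X : ℕ} (hmm : 1 ≤ mm) {ξ : ℝ} (hξ : 8 / (mm : ℝ) ≤ ξ)
    (hn : 2 ^ lg ≤ n) (he : mm * e ≤ (mm + 8) * lg) (hX : X ≤ 2 ^ e) :
    (X : ℝ) ≤ (n : ℝ) ^ (1 + ξ) := by
  have hm : (0 : ℝ) < mm := by exact_mod_cast hmm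
  have hξ0 : 0 ≤ ξ := le_trans (by positivity) hξ
  have h1 : (e : ℝ) ≤ lg * (1 + ξ) := by
    have h2 : (mm : ℝ) * e ≤ (mm + 8) * lg := by exact_mod_cast he
    rw [div_le_iff₀ hm] at hξ
    refine le_of_mul_le_mul_left (h2.trans ?_) hm
    nlinarith [mul_le_mul_of_nonneg_right hξ (lg.cast_nonneg (α := ℝ))]
  calc (X : ℝ) ≤ (2 : ℝ) ^ (e : ℝ) := by rw [Real.rpow_natCast]; exact_mod_cast hX
    _ ≤ (2 : ℝ) ^ (lg * (1 + ξ)) := Real.rpow_le_rpow_of_exponent_le one_le_two h1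
    _ = ((2 : ℝ) ^ lg) ^ (1 + ξ) := by rw [Real.rpow_mul zero_le_two, Real.rpow_natCast]
    _ ≤ _ := Real.rpow_le_rpow (by positivity) (by exact_mod_cast hn) (by linarith)

/-- Running time and number of random bits. -/
theorem par_time (mm : ℕ) (hmm : 1 ≤ mm) {ξ : ℝ} (hξ : 8 / (mm : ℝ) ≤ ξ) (κ : ℕ) :
    ∃ Z, ∀ n lg z β0 (P : Par), Z ≤ z → PF mm n lg z β0 P →
      (((P.callsRoot + 3) * ((P.TS + 7) * (κ * Rz mm z ^ κ)) + 5 : ℕ) : ℝ) ≤ (n : ℝ) ^ (1 + ξ) ∧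
      (((P.D + 1) * P.HS * P.lb : ℕ) : ℝ) ≤ (n : ℝ) ^ (1 + ξ) := by
  obtain ⟨Z, hZ⟩ := par_lg_le mm
  refine ⟨max (32 + 220 * mm + mm * (2 * κ)) Z, fun n lg z β0 P hz h => ?_⟩
  have hz1 : 32 + 220 * mm + mm * (2 * κ) ≤ z := le_trans (le_max_left _ _) hz
  have hz0 : 32 ≤ z := by omega
  have hy := hZ n lg z β0 P (le_trans (le_max_right _ _) hz) h
  have hQ := h.zQ_le
  set Q := z ^ (64 * mm + 39) with hQ'
  have hQ1 : 1 ≤ Q := Nat.one_le_pow _ _ (by omega)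
  have hz3 := h.pow_le_lg hz0 (d := 3) (by omega)
  have hzl := h.sq_le hz0
  constructor
  · set X := P.K + P.win P.D + 1 with hX
    set E := (P.k0 + 1) * X + 1 with hE
    have hzy : z < 2 ^ z := Nat.lt_two_pow_self
    have a1 : P.N + 2 ≤ 2 ^ (2 * P.ln) := by
      have h1 : z ≤ P.N := by rw [h.hN]; exact Nat.le_self_pow (by omega) z
      have h2 : 2 ^ (2 * P.ln) = P.N * P.N := by rw [Par.N]; ring
      rw [h2]
      exact parc_sq (hz0.trans h1) (by omega)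
    have a2 : P.Gam ≤ 2 ^ (11 * z) := by
      have h1 := h.b_le
      have h2 := (h.K_le hz0).trans hy
      have h3 := h.S_le hz0 hy
      have h4 : 1 ≤ (2 ^ z) ^ 7 := Nat.pos_of_ne_zero (by positivity)
      calc P.Gam ≤ 2 ^ z * (2 * 2 ^ z) * (64 * (2 ^ z) ^ 7) := by
            unfold Par.Gam; gcongr <;> omega
        _ = 128 * (2 ^ z) ^ 9 := by ring
        _ ≤ 2 ^ z * 2 ^ z * (2 ^ z) ^ 9 :=
            Nat.mul_le_mul_right _ (parc_sq (hz0.trans hzy.le) (by omega))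
        _ = _ := by ring
    have a3 : P.callsRoot + 3 ≤ 2 ^ (2 * P.ln * P.D + 11 * z * E + 2) := by
      have h1 : P.callsRoot ≤ 2 ^ (2 * P.ln * P.D + 11 * z * E) := by
        rw [pow_add, pow_mul 2 (2 * P.ln), pow_mul 2 (11 * z)]
        unfold Par.callsRoot
        gcongr
      have h2 : 1 ≤ 2 ^ (2 * P.ln * P.D + 11 * z * E) := Nat.one_le_two_pow
      rw [pow_add _ _ 2]
      omega
    have a4 : P.TS + 7 ≤ 2 ^ (lg + 3 * z + 6) := by
      have h1 := h.RV_le hz0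
      have h2 : 2 ^ (3 * z) ≤ 2 ^ lg := Nat.pow_le_pow_right two_pos (by omega)
      have h3 : 1 ≤ 2 ^ (3 * z) := Nat.one_le_two_pow
      have hW : P.W = 4 * 2 ^ lg := by rw [h.W_eq]; ring
      have h4 : P.TS ≤ (6 * 2 ^ lg) * (3 * 2 ^ (3 * z)) := by
        unfold Par.TS Par.PW Par.DW; gcongr <;> omega
      have h5 : (6 * 2 ^ lg) * (3 * 2 ^ (3 * z)) = 18 * 2 ^ (lg + 3 * z) := by ring
      have h6 : 1 ≤ 2 ^ (lg + 3 * z) := Nat.one_le_two_pow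
      rw [pow_add _ _ 6]
      omega
    have a5 : κ * Rz mm z ^ κ ≤ 2 ^ (2 * κ * Q) := by
      have h1 : κ ≤ 2 ^ (Q * κ) :=
        (Nat.le_mul_of_pos_left κ hQ1).trans Nat.lt_two_pow_self.le
      calc κ * Rz mm z ^ κ ≤ 2 ^ (Q * κ) * Rz mm z ^ κ := Nat.mul_le_mul_right _ h1
        _ = _ := by rw [Rz, ← hQ']; ring
    have a6 : (P.callsRoot + 3) * ((P.TS + 7) * (κ * Rz mm z ^ κ)) + 5 ≤
        2 ^ (2 * P.ln * P.D + 11 * z * E + 2 + (lg + 3 * z + 6 + 2 * κ * Q) + 3) := by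
      have h1 := Nat.mul_le_mul a3 (Nat.mul_le_mul a4 a5)
      rw [← pow_add, ← pow_add] at h1
      have h2 : 1 ≤ 2 ^ (2 * P.ln * P.D + 11 * z * E + 2 + (lg + 3 * z + 6 + 2 * κ * Q)) :=
        Nat.one_le_two_pow
      rw [pow_add _ _ 3]
      omega
    refine parc_rpow hmm hξ h.n1 ?_ a6
    have b1 : mm * (2 * P.ln * P.D) ≤ 2 * lg := by
      have h1 := h.Dlb_le
      have h2 : mm * (2 * P.ln * P.D) = 2 * (P.D * P.lb) := by rw [← h.hln]; ring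
      omega
    have b2 : X * z ^ 3 ≤ 4 * lg := by
      have h1 : P.K * z ^ 3 ≤ lg := by
        rw [h.hK, ← pow_add]
        exact h.pow_le_lg hz0 (by omega)
      have h2 : P.win P.D * z ^ 3 ≤ P.D + z ^ 3 - 1 := by
        rw [← h.hell]
        exact Nat.div_mul_le_self _ _
      have h3 := h.D_le hz0
      rw [hX, add_mul, add_mul, one_mul]
      omega
    have b3 : E ≤ 5 * z * X := by
      have h1 : (P.k0 + 1) * X ≤ 4 * z * X :=
        Nat.mul_le_mul_right _ (by have := h.k0_le hz0; omega)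
      have h2 : 1 ≤ z * X := Nat.pos_of_ne_zero (by positivity)
      have h3 : 5 * z * X = 4 * z * X + z * X := by ring
      omega
    have b4 : mm * (11 * z * E) ≤ lg := by
      have h1 : 220 * (mm * (11 * z * E)) ≤ 220 * lg :=
        calc 220 * (mm * (11 * z * E)) = (220 * mm) * (11 * z * E) := by ring
          _ ≤ z * (11 * z * (5 * z * X)) := by gcongr; omega
          _ = 55 * (X * z ^ 3) := by ring
          _ ≤ _ := by omega
      omega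
    have b5 : mm * (3 * z + 11) ≤ lg :=
      calc mm * (3 * z + 11) ≤ z * (z * z) :=
            Nat.mul_le_mul (by omega) (parc_sq hz0 (by omega))
        _ = z ^ 3 := by ring
        _ ≤ _ := hz3
    have b6 : mm * (2 * κ * Q) ≤ lg :=
      calc mm * (2 * κ * Q) = mm * (2 * κ) * Q := by ring
        _ ≤ z * Q := by gcongr; omega
        _ ≤ _ := hQ
    have e : mm * (2 * P.ln * P.D + 11 * z * E + 2 + (lg + 3 * z + 6 + 2 * κ * Q) + 3) =
      mm * (2 * P.ln * P.D) + mm * (11 * z * E) + mm * (3 * z + 11) + mm * (2 * κ * Q) +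
        mm * lg := by ring
    rw [e, add_mul]
    omega
  · refine parc_rpow (e := 3 + (lg + Q * 6)) hmm hξ h.n1 ?_ ?_
    · have b1 : mm * (3 + Q * 6) ≤ lg :=
        calc mm * (3 + Q * 6) ≤ mm * (9 * Q) := by gcongr; omega
          _ = 9 * mm * Q := by ring
          _ ≤ z * Q := by gcongr; omega
          _ ≤ _ := hQ
      have e : mm * (3 + (lg + Q * 6)) = mm * (3 + Q * 6) + mm * lg := by ring
      rw [e, add_mul]
      omega
    · refine le_trans (Nat.mul_le_mul_left _ (Nat.le_succ _)) ((h.HS_le hmm hz0 hy).trans ?_)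
      rw [pow_add, pow_add, pow_mul]
      rfl

end Vale.Agent.P315
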