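import Vale.Agent.P315.Step
import Vale.Agent.P315.Path

namespace Vale.Agent.P315

open Finset

namespace Par

variable {P : Par}


/-- Potential difference across the node `(h, a)`. -/
noncomputable def validPhi (P : Par) (f g : ℕ → ℕ) (h a p p' : ℕ) : ℝ :=
  (psi f g ((a + 1) * P.B0 * P.b ^ h) (p' * P.b ^ h) : ℝ) - psi f g (a * P.B0 * P.b ^ h) (p * P.b ^ h)

theorem Valid_lip (f g : ℕ → ℕ) (h a p p' q q' : ℕ) : P.validPhi f g h a p p' ≤
    P.validPhi f g h a q q' + (P.b : ℝ) ^ h * ((2 * (Nat.dist p q + Nat.dist p' q') : ℕ) : ℝ) := by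
  have h1 := psi_lip f g ((a + 1) * P.B0 * P.b ^ h) (p' * P.b ^ h) (q' * P.b ^ h)
  have h2 := psi_lip f g (a * P.B0 * P.b ^ h) (q * P.b ^ h) (p * P.b ^ h)
  rw [Nat.dist_mul_right] at h1 h2
  rw [Nat.dist_comm] at h2
  have h3 := (Nat.cast_le (α := ℝ)).2 h1
  have h4 := (Nat.cast_le (α := ℝ)).2 h2
  unfold validPhi
  push_cast at *
  linarith

theorem Valid_step (f g : ℕ → ℕ) (h : ℕ) {a l d : ℕ} (hl : l ≤ a * P.B0) (hd : d ≤ P.B0) :
    P.validPhi f g h a l (l + d) ≤ (P.b : ℝ) ^ h * P.B0 := by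
  have h1 := psi_step f g (Nat.mul_le_mul_right (P.b ^ h) hl) (Nat.mul_le_mul_right (P.b ^ h) hd)
  rw [← add_mul, ← add_mul, ← add_one_mul] at h1
  have h3 := (Nat.cast_le (α := ℝ)).2 h1
  unfold validPhi
  push_cast at *
  linarith

theorem Valid_B0 (hP : P.Good) : P.B0 ≤ P.Gm := by
  have h1 := hP.Gm_ge
  have h2 := Nat.le_mul_of_pos_left P.B0 (lt_of_lt_of_le (by norm_num) (b_ge hP))
  omega

theorem Valid_clo (hP : P.Good) (f g : ℕ → ℕ) (h a : ℕ) (T : TabR) {e : ℝ} (he : 0 ≤ e)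
    (hT : ∀ l ≤ a * P.B0, ∀ d ≤ P.B0, P.validPhi f g h a l (l + d) ≤ (P.b : ℝ) ^ h * (T l d + e))
    {l d p p' : ℕ} (hl : l ≤ a * P.B0) (hd : d ≤ P.B0) (hp : Nat.dist p l ≤ P.Gm)
    (hp' : Nat.dist p' (l + d) ≤ P.Gm) :
    P.validPhi f g h a p p' ≤ (P.b : ℝ) ^ h * (P.cloR a T p p' + e) := by
  have hb : (0 : ℝ) < (P.b : ℝ) ^ h := by have := b_ge hP; positivity
  rw [← div_le_iff₀' hb, ← sub_le_iff_le_add]
  refine P.le_cloR a T p p' ?_ fun l' hl' d' hd' => ?_
  · rw [sub_le_iff_le_add, div_le_iff₀' hb]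
    have h1 := Valid_lip (P := P) f g h a p p' l (l + d)
    have h2 := Valid_step (P := P) f g h hl hd
    have h3 : P.B0 + 2 * (Nat.dist p l + Nat.dist p' (l + d)) ≤ P.RV := by
      have := Valid_B0 hP
      unfold RV
      omega
    have h4 := mul_le_mul_of_nonneg_left ((Nat.cast_le (α := ℝ)).2 h3) hb.le
    rw [Nat.cast_add] at h4
    nlinarith [mul_nonneg hb.le he]
  · rw [sub_le_iff_le_add, div_le_iff₀' hb]
    linarith [Valid_lip (P := P) f g h a p p' l' (l' + d'), hT l' hl' d' hd']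

theorem Valid_main (hP : P.Good) {f g : ℕ → ℕ} {A : ℕ → ℕ → ℕ → ℕ → Tab} (hS : P.Star f g A)
    (h : ℕ) : h ≤ P.D → ∀ k < P.K, ∀ a < P.b ^ (P.D - h), ∀ l ≤ a * P.B0, ∀ d ≤ P.B0, ∀ p p',
      Nat.dist p l ≤ P.Gm → Nat.dist p' (l + d) ≤ P.Gm →
      P.validPhi f g h a p p' ≤ (P.b : ℝ) ^ h * (A h k a P.k0 p p' + h * P.eta) := by
  induction h with
  | zero =>
    intro _ k _ a _ l hl d hd p p' hp hp'
    rw [hS.leaf, leaf, clo_cast]
    refine Valid_clo hP f g 0 a _ (by simp) (fun l hl d hd => ?_) hl hd hp hp'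
    have h1 := psi_tri f g hl hd
    have h2 : P.leafT f g a l d = DD f g l (a * P.B0 - l) d (P.B0 - d) := by
      rw [leafT, add_one_mul, dpA_eq _ _ _ _ _ _ (by omega) (by omega)]
      congr 1 <;> omega
    have h3 := (Nat.cast_le (α := ℝ)).2 h1
    simp only [validPhi, h2, pow_zero, mul_one, add_one_mul]
    push_cast at *
    linarith
  | succ h ih =>
    intro hD k hk a ha l hl d hd p p' hp hp'
    have hb0 : (0 : ℝ) < P.b := by have := b_ge hP; positivity
    have hb : (0 : ℝ) < (P.b : ℝ) ^ (h + 1) := by positivity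
    have h1 := (abs_le.1 (hS.step h hD k hk a ha p p')).1
    refine (Valid_clo hP f g (h + 1) a (P.TR (P.cumT (A h) k a) (P.valR fun jj p p' =>
      (A h k (a * P.b + jj) P.k0 p p' : ℝ))) (e := h * P.eta) (by positivity)
      (fun l hl d hd => ?_) hl hd hp hp').trans (mul_le_mul_of_nonneg_left ?_ hb.le)
    · rw [← div_le_iff₀' hb, ← sub_le_iff_le_add]
      refine P.le_TR _ _ l d ?_ fun i hi => le_Psi hP _ _ l d i fun o _ => ?_
      · have h2 := (div_le_iff₀' hb).2 (Valid_step (P := P) f g (h + 1) hl hd)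
        have : (0 : ℝ) ≤ h * P.eta := by positivity
        linarith
      have hG : 2 ^ i ≤ P.Gm := Nat.pow_le_pow_right two_pos hi
      have h2 := sum_le_sum fun j (hj : j ∈ range P.b) => ih (by omega) k hk (a * P.b + j) (by
          have := mem_range.1 hj
          rw [show P.D - h = P.D - (h + 1) + 1 by omega, pow_succ]
          nlinarith) (l * P.b + j * d) (by nlinarith [Nat.mul_le_mul_left j hd]) d hd
        (P.q l d i o j) (P.q l d i o (j + 1)) ((P.q_near l d i o j).trans hG) (by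
          rw [add_assoc, ← add_one_mul]
          exact (P.q_near l d i o (j + 1)).trans hG)
      have h3 := sum_range_sub (fun j => (psi f g ((a * P.b + j) * P.B0 * P.b ^ h)
        (P.q l d i o j * P.b ^ h) : ℝ)) P.b
      have h4 : P.validPhi f g (h + 1) a l (l + d) = ∑ j ∈ range P.b,
          P.validPhi f g h (a * P.b + j) (P.q l d i o j) (P.q l d i o (j + 1)) := by
        refine Eq.trans ?_ h3.symm
        rw [q_zero, q_last, validPhi]
        congr 3 <;> ring
      rw [← h4, ← mul_sum, sum_add_distrib, sum_const, card_range, nsmul_eq_mul] at h2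
      rw [sub_mul, pow_succ, ← div_div, div_mul_cancel₀ _ hb0.ne', sub_le_iff_le_add,
        div_le_iff₀' (by positivity), mul_comm _ (P.b : ℝ)]
      exact h2
    · unfold stepR at h1
      push_cast
      linarith



/-- The output is an upper bound for the edit distance. -/
theorem valid (hP : P.Good) (x y : List ℕ) (hW : x.length + y.length ≤ P.W)
    {A : ℕ → ℕ → ℕ → ℕ → Tab} (hS : P.Star (xt x) (xt y) A) : ED x y ≤ P.ans A x y := by
  obtain ⟨h1, -, h2⟩ := psi_end x y P.W hW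
  change P.iend x y ≤ _ at h1
  change _ ≤ psi _ _ _ (P.iend x y) + 1 at h2
  have hNA : 0 < P.NA := by have := b_ge hP; unfold NA; positivity
  have hWN : P.W = P.NA * P.B0 := rfl
  unfold ans allow
  set m := (range P.K).fold min P.RV fun k => A P.D k 0 P.k0 0 (P.iend x y / P.NA)
  rcases (fold_min_le (c := m)).1 le_rfl with h | ⟨k, hk, h⟩
  · have h3 := psi_step (xt x) (xt y) (le_refl 0) h1
    rw [zero_add, zero_add, psi_zero] at h3
    have h4 : P.B0 ≤ m := by
      have := Valid_B0 hP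
      unfold RV at h
      omega
    nlinarith [Nat.mul_le_mul_left P.NA h4, Nat.zero_le (P.D * P.eta * P.NA)]
  · have h3 := Valid_main hP hS P.D le_rfl k (mem_range.1 hk) 0 (by simp) 0 (by simp)
      (P.iend x y / P.NA) (Nat.div_le_of_le_mul h1) 0 (P.iend x y / P.NA) (by simp) (by simp)
    simp only [validPhi, zero_add, one_mul, zero_mul, psi_zero, Nat.cast_zero, sub_zero] at h3
    have h4 : psi (xt x) (xt y) P.W (P.iend x y / P.NA * P.NA) ≤
        P.NA * (A P.D k 0 P.k0 0 (P.iend x y / P.NA) + P.D * P.eta) := by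
      rw [W, mul_comm (P.b ^ P.D)]
      exact_mod_cast h3
    have h5 := psi_lip (xt x) (xt y) P.W (P.iend x y) (P.iend x y / P.NA * P.NA)
    have h6 : Nat.dist (P.iend x y) (P.iend x y / P.NA * P.NA) < P.NA := by
      rw [Nat.dist_eq_sub_of_le_right (Nat.div_mul_le_self _ _), ← Nat.mod_eq_sub_div_mul]
      exact Nat.mod_lt _ hNA
    nlinarith [Nat.mul_le_mul_left P.NA h]

end Par

end Vale.Agent.P315
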