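import Vale.Agent.P315.Prog
import Vale.Agent.P315.ParB
import Vale.Agent.P315.ParC
import Vale.Agent.P315.Valid

namespace Vale.Agent.P315

open Finset

theorem getD_le_of_mem {x : List ℕ} {V : ℕ} (h : ∀ s ∈ x, s ≤ V) (i : ℕ) : x.getD i 0 ≤ V := by
  rcases Nat.lt_or_ge i x.length with hi | hi
  · rw [List.getD_eq_getElem _ _ hi]; exact h _ (List.getElem_mem hi)
  · rw [List.getD_eq_default _ _ hi]; exact Nat.zero_le _

theorem input_bd {n V L : ℕ} {x y : List ℕ} (r : Fin L → Bool) (hn : n ≤ V) (h1 : 1 ≤ V)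
    (hx : x.length ≤ n) (hy : y.length ≤ n) (hxs : ∀ s ∈ x, s ≤ V) (hys : ∀ s ∈ y, s ≤ V) :
    Bd V (input n x y r) := by
  intro a i _
  unfold input
  split_ifs
  · apply getD_le_of_mem
    intro s hs
    simp only [List.mem_cons, List.not_mem_nil, or_false] at hs
    omega
  · exact getD_le_of_mem hxs i
  · exact getD_le_of_mem hys i
  all_goals omega

open Classical in
theorem main (ξ : ℝ) (hξ : 0 < ξ) :
    ∃ (c : ℝ) (Pr : List Cmd), 0 < c ∧ ∀ (ε : ℝ), 0 < ε → ∀ a : ℕ, ∃ w n₀ : ℕ, ∀ n ≥ n₀,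
      ∀ x y : List ℕ, x.length ≤ n → y.length ≤ n → (∀ s ∈ x, s < n ^ a) → (∀ s ∈ y, s < n ^ a) →
      ∀ R : ℕ, (n : ℝ) ^ (1 + ξ) ≤ R →
        (∀ r : Fin R → Bool, ∃ m t, Exec Pr (n ^ w) (.call 0) (input n x y r) m t ∧
          (t : ℝ) ≤ (n : ℝ) ^ (1 + ξ)) ∧
        (2 / 3 : ℝ) * 2 ^ R ≤ ((univ.filter fun r : Fin R → Bool =>
          ∀ m t, Exec Pr (n ^ w) (.call 0) (input n x y r) m t →
            ED x y ≤ m 4 0 ∧ (m 4 0 : ℝ) ≤
              ED x y + ε * max (ED x y : ℝ) (n / 2 ^ (Real.log n ^ c))).card : ℝ) := by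
  set mm := ⌈8 / ξ⌉₊ with hmm
  have hmm0 : (8 : ℝ) / ξ ≤ mm := Nat.le_ceil _
  have hmmpos : (0 : ℝ) < mm := lt_of_lt_of_le (by positivity) hmm0
  have hmm1 : 1 ≤ mm := by exact_mod_cast hmmpos
  have hξ' : 8 / (mm : ℝ) ≤ ξ := by
    rw [div_le_iff₀ hmmpos]; rw [div_le_iff₀ hξ] at hmm0; linarith
  clear_value mm
  obtain ⟨Pr, κ, hprog⟩ := prog_ex mm
  refine ⟨1 / (2 * (64 * mm + 40) : ℝ), Pr, by positivity, ?_⟩
  intro ε hε a
  have hε' : 0 < min (ε / 2) 1 := lt_min (by positivity) one_pos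
  obtain ⟨Z1, hZ1⟩ := par_good mm hmm1 hε'
  obtain ⟨Z2, hZ2⟩ := par_sizes mm hmm1
  obtain ⟨Z3, hZ3⟩ := par_time mm hmm1 hξ' κ
  obtain ⟨n₀, hn₀⟩ := exists_PF mm hmm1 (Z1 + Z2 + Z3 + κ + 2)
  refine ⟨(a + 3) * κ + 1, n₀, ?_⟩
  intro n hn x y hx hy hxs hys R hR
  obtain ⟨lg, z, β0, hz, hPF⟩ := hn₀ n hn
  obtain ⟨hG, hW, hfail, hθ1, hθ2, hadd⟩ := hZ1 n lg z β0 _ (by omega) hPF
  obtain ⟨hbig, h4n, hsmall, hRz, hzn, hpw⟩ := hZ2 n lg z β0 _ (by omega) hPF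
  obtain ⟨htime, htape⟩ := hZ3 n lg z β0 _ (by omega) hPF
  have hn2 : 2 ≤ n := by omega
  have h3V : n ^ 3 ≤ n ^ (a + 3) := Nat.pow_le_pow_right (by omega) (by omega)
  have haV : n ^ a ≤ n ^ (a + 3) := Nat.pow_le_pow_right (by omega) (by omega)
  have hE : Env (n ^ ((a + 3) * κ + 1)) (n ^ (a + 3)) (Rz mm z) κ :=
    ⟨by omega, by rw [← pow_mul]; exact Nat.pow_lt_pow_right (by omega) (by omega),
      Nat.one_le_two_pow, by omega, by omega⟩
  have hlg := hPF.hlg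
  have hD := hPF.hD
  have hβ := hPF.β1
  have hrun : ∀ r : Fin R → Bool, _ := fun r =>
    hprog n x y R r _ _ _ hG hE (by omega) hsmall (by omega) (by omega) hW (by omega) hPF.hKe
      (input_bd r (by omega) (by omega) hx hy (fun s hs => by have := hxs s hs; omega)
        (fun s hs => by have := hys s hs; omega)) hx hy
  generalize par mm n = P at *
  refine ⟨fun r => ?_, ?_⟩
  · obtain ⟨m, t, h1, h2, -⟩ := hrun r
    exact ⟨m, t, h1, le_trans (by exact_mod_cast h2) htime⟩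
  · have hRt : (P.D + 1) * P.HS * P.lb ≤ R := by exact_mod_cast htape.trans hR
    have hp := Par.prob_good hG (xt x) (xt y) hRt
    have hq : pr (fun r : Fin R → Bool => ∀ h ≤ P.D, P.GoodAt (P.A (xt x) (xt y) (ext r)) h) ≤
        pr (fun r : Fin R → Bool =>
          ∀ m t, Exec Pr (n ^ ((a + 3) * κ + 1)) (.call 0) (input n x y r) m t →
            ED x y ≤ m 4 0 ∧ (m 4 0 : ℝ) ≤ ED x y + ε * max (ED x y : ℝ)
              (n / 2 ^ (Real.log n ^ (1 / (2 * (64 * mm + 40) : ℝ))))) := by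
      apply pr_mono
      intro r hr m t hm
      obtain ⟨m', t', h1, -, h3⟩ := hrun r
      obtain rfl := Exec.det hm h1
      have hS := Par.star_of_good hG _ _ _ hr
      rw [h3]
      refine ⟨Par.valid hG x y (by omega) hS, ?_⟩
      have hu := Par.upper hG x y (by omega) hS (min_le_right _ _) hθ1 hθ2
      set Lq : ℝ := n / 2 ^ (Real.log n ^ (1 / (2 * (64 * mm + 40) : ℝ))) with hLq
      have hL0 : 0 ≤ Lq := by positivity
      have hE0 : (0 : ℝ) ≤ ED x y := Nat.cast_nonneg _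
      have m1 : (ED x y : ℝ) ≤ max (ED x y : ℝ) Lq := le_max_left _ _
      have m2 : Lq ≤ max (ED x y : ℝ) Lq := le_max_right _ _
      have m3 : min (ε / 2) 1 ≤ ε / 2 := min_le_left _ _
      have m4 : min (ε / 2) 1 * (ED x y : ℝ) ≤ ε / 2 * max (ED x y : ℝ) Lq :=
        mul_le_mul m3 m1 hE0 (by positivity)
      have m5 : min (ε / 2) 1 * Lq ≤ ε / 2 * max (ED x y : ℝ) Lq :=
        mul_le_mul m3 m2 hL0 (by positivity)
      linarith
    have h23 : (2 / 3 : ℝ) ≤ _ := le_trans (by linarith) (hp.trans hq)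
    unfold pr at h23
    rw [le_div_iff₀ (by positivity)] at h23
    simp only [Fintype.card_fun, Fintype.card_bool, Fintype.card_fin, Nat.cast_pow,
      Nat.cast_ofNat] at h23
    convert h23

end Vale.Agent.P315
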