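import Mathlib

/-! Edit distance and a word RAM with structured control and a read-only random tape. -/

namespace Vale.Agent.P315

/-- One edit operation: insert, delete or substitute a single symbol. -/
inductive Edit : List ℕ → List ℕ → Prop
  | ins (u v : List ℕ) (c : ℕ) : Edit (u ++ v) (u ++ c :: v)
  | del (u v : List ℕ) (c : ℕ) : Edit (u ++ c :: v) (u ++ v)
  | sub (u v : List ℕ) (c d : ℕ) : Edit (u ++ c :: v) (u ++ d :: v)

/-- `Edits k x y`: a sequence of exactly `k` edit operations transforms `x` into `y`. -/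
inductive Edits : ℕ → List ℕ → List ℕ → Prop
  | zero (x : List ℕ) : Edits 0 x x
  | succ {k : ℕ} {x y z : List ℕ} : Edit x y → Edits k y z → Edits (k + 1) x z

/-- The unit-cost edit distance: the least number of edit operations. -/
noncomputable def ED (x y : List ℕ) : ℕ := sInf {k | Edits k x y}

/-- Memory: array number, then address, holds a natural number. -/
abbrev Mem := ℕ → ℕ → ℕ

/-- Write `v` into cell `i` of array `a`. -/
def Mem.set (m : Mem) (a i v : ℕ) : Mem :=
  fun a' i' => if a' = a ∧ i' = i then v else m a' i'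

/-- Arithmetic expressions: constants, indirect reads, `+`, truncated `-`, `*`, `/`, `%`. -/
inductive Expr
  | const (c : ℕ)
  | rd (a : ℕ) (e : Expr)
  | add (e f : Expr)
  | sub (e f : Expr)
  | mul (e f : Expr)
  | div (e f : Expr)
  | mod (e f : Expr)

/-- Value of an expression. -/
def Expr.eval (m : Mem) : Expr → ℕ
  | .const c => c
  | .rd a e => m a (e.eval m)
  | .add e f => e.eval m + f.eval m
  | .sub e f => e.eval m - f.eval m
  | .mul e f => e.eval m * f.eval m
  | .div e f => e.eval m / f.eval m
  | .mod e f => e.eval m % f.eval m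

/-- Time to evaluate an expression: one step per node. -/
def Expr.cost : Expr → ℕ
  | .const _ => 1
  | .rd _ e => e.cost + 1
  | .add e f => e.cost + f.cost + 1
  | .sub e f => e.cost + f.cost + 1
  | .mul e f => e.cost + f.cost + 1
  | .div e f => e.cost + f.cost + 1
  | .mod e f => e.cost + f.cost + 1

/-- Every intermediate value (operands, addresses, results) is a word, i.e. is below `B`. -/
def Expr.Fits (B : ℕ) (m : Mem) : Expr → Prop
  | .const c => c < B
  | .rd a e => e.Fits B m ∧ m a (e.eval m) < B
  | .add e f => e.Fits B m ∧ f.Fits B m ∧ e.eval m + f.eval m < B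
  | .sub e f => e.Fits B m ∧ f.Fits B m
  | .mul e f => e.Fits B m ∧ f.Fits B m ∧ e.eval m * f.eval m < B
  | .div e f => e.Fits B m ∧ f.Fits B m
  | .mod e f => e.Fits B m ∧ f.Fits B m

/-- Commands: no-op, indirect store, sequence, branch on zero, while-nonzero loop,
call of a procedure (procedures have no local variables; all data is in the memory). -/
inductive Cmd
  | skip
  | store (a : ℕ) (i v : Expr)
  | seq (c d : Cmd)
  | ifz (e : Expr) (c d : Cmd)
  | loop (e : Expr) (c : Cmd)
  | call (p : ℕ)

/-- `Exec P B c m m' t`: with procedure table `P` and words below `B`, command `c` started on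
memory `m` halts with memory `m'` after exactly `t` steps, never overflowing a word. -/
inductive Exec (P : List Cmd) (B : ℕ) : Cmd → Mem → Mem → ℕ → Prop
  | skip (m : Mem) : Exec P B .skip m m 1
  | store {m : Mem} {a : ℕ} {i v : Expr} : i.Fits B m → v.Fits B m →
      Exec P B (.store a i v) m (m.set a (i.eval m) (v.eval m)) (i.cost + v.cost + 1)
  | seq {c d : Cmd} {m m₁ m₂ : Mem} {s t : ℕ} : Exec P B c m m₁ s → Exec P B d m₁ m₂ t →
      Exec P B (.seq c d) m m₂ (s + t + 1)
  | ifzero {e : Expr} {c d : Cmd} {m m₁ : Mem} {t : ℕ} : e.Fits B m → e.eval m = 0 →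
      Exec P B c m m₁ t → Exec P B (.ifz e c d) m m₁ (e.cost + t + 1)
  | ifpos {e : Expr} {c d : Cmd} {m m₁ : Mem} {t : ℕ} : e.Fits B m → e.eval m ≠ 0 →
      Exec P B d m m₁ t → Exec P B (.ifz e c d) m m₁ (e.cost + t + 1)
  | loopdone {e : Expr} {c : Cmd} {m : Mem} : e.Fits B m → e.eval m = 0 →
      Exec P B (.loop e c) m m (e.cost + 1)
  | loopstep {e : Expr} {c : Cmd} {m m₁ m₂ : Mem} {s t : ℕ} : e.Fits B m → e.eval m ≠ 0 →
      Exec P B c m m₁ s → Exec P B (.loop e c) m₁ m₂ t →
      Exec P B (.loop e c) m m₂ (e.cost + s + t + 1)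
  | call {p : ℕ} {c : Cmd} {m m₁ : Mem} {t : ℕ} : P[p]? = some c → Exec P B c m m₁ t →
      Exec P B (.call p) m m₁ (t + 1)

/-- Initial memory: array 0 holds `n, |x|, |y|`, arrays 1 and 2 hold the strings, array 3 holds
the random bits `r`, everything else is zero. -/
def input (n : ℕ) (x y : List ℕ) {R : ℕ} (r : Fin R → Bool) : Mem := fun a i =>
  if a = 0 then [n, x.length, y.length].getD i 0
  else if a = 1 then x.getD i 0
  else if a = 2 then y.getD i 0
  else if a = 3 then (if h : i < R then (if r ⟨i, h⟩ then 1 else 0) else 0)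
  else 0

end Vale.Agent.P315
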