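import Vale.Agent.P315.RamDefs

namespace Vale.Agent.P315

/-- Arithmetic description of the parameters in terms of `lg = log₂ n` and `z`. -/
structure PF (mm n lg z β0 : ℕ) (P : Par) : Prop where
  hlg : lg = Nat.log 2 n
  n1 : 2 ^ lg ≤ n
  n2 : n < 2 ^ (lg + 1)
  z1 : z ^ (64 * mm + 40) ≤ lg
  z2 : lg < (2 * z) ^ (64 * mm + 40)
  hN : P.N = z ^ 16
  hb : P.b = z ^ (16 * mm)
  hK : P.K = z ^ (64 * mm + 29)
  hell : P.ell = z ^ 3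
  hln : P.ln * mm = P.lb
  lb2 : 2 ≤ P.lb
  lbz : 8 * P.lb ≤ z
  hB0 : P.B0 = 2 ^ β0
  β1 : 2 * z + 1 ≤ β0
  β2 : β0 ≤ 2 * z + P.lb
  hD : P.D * P.lb + β0 = lg + 2
  himax : P.imax = β0 + P.lb + 1
  hk0 : P.k0 = P.imax + 3
  hs0 : 2 ^ P.s0 = 4096 * P.b * P.ell ^ 2
  s0z : P.s0 ≤ z
  hS : P.S = 32 * lg * P.RV ^ 2
  hwz : P.wz = (P.imax + 1) * P.b + 2 * (P.imax + P.s0) + 1
  hKe : (64 * mm + 29) * (Nat.log 2 (Nat.log 2 n) / (64 * mm + 40)) ≤ Nat.log 2 n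

/-- Polynomials are eventually below `2^z`. -/
theorem poly_le_two_pow (C d : ℕ) : ∃ Z, ∀ z ≥ Z, C * z ^ d ≤ 2 ^ z := by
  have h := (tendsto_pow_const_div_const_pow_of_one_lt d (r := 2) one_lt_two).eventually_le_const
    (show (0 : ℝ) < 1 / (C + 1) by positivity)
  obtain ⟨Z, hZ⟩ := Filter.eventually_atTop.1 h
  refine ⟨Z, fun z hz => ?_⟩
  have k := hZ z hz
  rw [div_le_div_iff₀ (by positivity) (by positivity)] at k
  have k2 : (0 : ℝ) ≤ (z : ℝ) ^ d := by positivity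
  have k3 : (C : ℝ) * (z : ℝ) ^ d ≤ 2 ^ z := by linarith
  exact_mod_cast k3

theorem exists_PF (mm : ℕ) (hmm : 1 ≤ mm) (Z : ℕ) :
    ∃ n₀, ∀ n ≥ n₀, ∃ lg z β0, Z ≤ z ∧ PF mm n lg z β0 (par mm n) := by
  obtain ⟨Z', hZ'⟩ := poly_le_two_pow (128 * mm) 1
  refine ⟨2 ^ 2 ^ ((Z + Z' + 1) * (64 * mm + 40)), fun n hn => ?_⟩
  have k1 := Nat.le_log_of_pow_le one_lt_two hn
  have k2 := Nat.le_log_of_pow_le one_lt_two k1
  have n0 : n ≠ 0 := (lt_of_lt_of_le (Nat.two_pow_pos _) hn).ne'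
  have l0 : Nat.log 2 n ≠ 0 := (lt_of_lt_of_le (Nat.two_pow_pos _) k1).ne'
  have k3 := (Nat.le_div_iff_mul_le (by omega)).2 k2
  have k4 := Nat.div_mul_le_self (Nat.log 2 (Nat.log 2 n)) (64 * mm + 40)
  have k5 := Nat.lt_div_mul_add (a := Nat.log 2 (Nat.log 2 n)) (show 0 < 64 * mm + 40 by omega)
  have k6 := Nat.log_le_self 2 (Nat.log 2 n)
  have k7 := Nat.pow_log_le_self 2 l0
  have k8 := Nat.lt_pow_succ_log_self one_lt_two (Nat.log 2 n)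
  obtain ⟨ζ, hζ⟩ : ∃ ζ, ζ = Nat.log 2 (Nat.log 2 n) / (64 * mm + 40) := ⟨_, rfl⟩
  obtain ⟨lb, hlb⟩ : ∃ lb, lb = 16 * mm * ζ := ⟨_, rfl⟩
  obtain ⟨D, hD⟩ : ∃ D, D = (Nat.log 2 n + 1 - 2 * 2 ^ ζ) / lb := ⟨_, rfl⟩
  have e1 : (par mm n).lb = lb := by rw [hlb, hζ]; rfl
  have e2 : (par mm n).D = D := by rw [hD, hlb, hζ]; rfl
  have e3 : (par mm n).ln = 16 * ζ := by rw [hζ]; rfl
  have e4 : (par mm n).ell = 2 ^ (3 * ζ) := by rw [hζ]; rfl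
  have e5 : (par mm n).s0 = 12 + lb + 6 * ζ := by rw [hlb, hζ]; rfl
  rw [← hζ] at k3 k4 k5
  have q1 := hZ' ζ (by omega)
  have q2 : 16 * ζ ≤ lb := by rw [hlb]; nlinarith
  have q3 : 8 * lb ≤ 2 ^ ζ := by rw [hlb]; linarith
  have z1 : (2 ^ ζ) ^ (64 * mm + 40) ≤ Nat.log 2 n := by
    rw [← pow_mul]
    exact (Nat.pow_le_pow_right two_pos k4).trans k7
  have q4 : 2 * 2 ^ ζ ≤ Nat.log 2 n := by
    refine le_trans ?_ ((Nat.pow_le_pow_right (Nat.two_pow_pos ζ) (show 2 ≤ _ by omega)).trans z1)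
    rw [sq]
    exact Nat.mul_le_mul_right _ (by omega)
  have q5 := Nat.div_mul_le_self (Nat.log 2 n + 1 - 2 * 2 ^ ζ) lb
  have q6 := Nat.lt_div_mul_add (a := Nat.log 2 n + 1 - 2 * 2 ^ ζ) (show 0 < lb by omega)
  rw [← hD] at q5 q6
  refine ⟨Nat.log 2 n, 2 ^ ζ, Nat.log 2 n + 2 - D * lb, le_trans (by omega) Nat.lt_two_pow_self.le,
    rfl, Nat.pow_log_le_self 2 n0, Nat.lt_pow_succ_log_self one_lt_two n, z1, ?_, ?_, ?_, ?_, ?_, ?_,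
    by omega, by omega, ?_, by omega, by omega, by rw [e1, e2]; omega, ?_, rfl, ?_, by omega, rfl,
    rfl, ?_⟩
  · rw [← pow_succ', ← pow_mul]
    exact k8.trans_le (Nat.pow_le_pow_right two_pos (by rw [add_mul]; omega))
  · rw [Par.N, e3, ← pow_mul, mul_comm]
  · rw [Par.b, e1, hlb, ← pow_mul, mul_comm]
  · rw [← pow_mul, mul_comm, hζ]
    rfl
  · rw [e4, ← pow_mul, mul_comm]
  · rw [e1, e3, hlb]
    ring
  · rw [hD, hlb, hζ]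
    rfl
  · rw [← e1, ← e2]
    rfl
  · rw [e5, Par.b, e1, e4]
    ring
  · rw [← hζ]
    refine le_trans ?_ (k4.trans k6)
    rw [mul_comm]
    exact Nat.mul_le_mul_left _ (by omega)

/-- The bound for all fold ranges. -/
def Rz (mm z : ℕ) : ℕ := 2 ^ z ^ (64 * mm + 39)

end Vale.Agent.P315
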