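import Vale.Agent.P315.RamDefs
import Vale.Agent.P315.Fill
import Vale.Agent.P315.Basic

/-! Shared tools for the post-processing routines. -/

namespace Vale.Agent.P315

open Finset

/-- Small parameter number `i`. -/
def postS (i : ℕ) : FE := .rd 7 (.c i)

/-- Big parameter number `i`. -/
def postG (i : ℕ) : FE := .rd 17 (.c i)

/-- Distance of two values. -/
def postD (a b : FE) : FE := .add (.sub a b) (.sub b a)

/-- Entry `e` of result slot `t` of the current level. -/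
def postSl (t e : FE) : FE :=
  .rd 11 (.add (.add (.mul (.rd 8 (.c 0)) (postG 1)) (.mul t (postG 0))) e)

theorem postD_eval (a b : FE) (m : Mem) :
    (postD a b).eval m = Nat.dist (a.eval m) (b.eval m) := rfl

theorem post_arg {m : Mem} {sp : ℕ} {A : Arg} (h : Fr m sp A) :
    m 8 0 = sp ∧ m 9 (8 * sp + 1) = A.k ∧ m 9 (8 * sp + 2) = A.h ∧ m 9 (8 * sp + 3) = A.a ∧
      m 9 (8 * sp + 4) = A.j ∧ m 9 (8 * sp + 5) = A.ad :=
  ⟨h.1, h.2 1 (by decide), h.2 2 (by decide), h.2 3 (by decide), h.2 4 (by decide),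
    h.2 5 (by decide)⟩

theorem post_sm {P : Par} {x y : List ℕ} {ρ : ℕ → Bool} {R : ℕ} {m : Mem} (h : P.RO x y ρ R m) :
    m 7 0 = P.b ∧ m 7 1 = P.N ∧ m 7 2 = P.K ∧ m 7 3 = P.S ∧ m 7 4 = P.imax + 1 ∧ m 7 5 = P.Om ∧
      m 7 6 = P.Xmax ∧ m 7 7 = P.DW ∧ m 7 8 = P.B0 + 1 ∧ m 7 9 = P.lb ∧ m 7 10 = P.r ∧
      m 7 11 = P.RV ∧ m 7 13 = P.ell ∧ m 7 15 = P.B0 ∧ m 7 16 = P.ln :=
  ⟨h.sm 0, h.sm 1, h.sm 2, h.sm 3, h.sm 4, h.sm 5, h.sm 6, h.sm 7, h.sm 8, h.sm 9, h.sm 10,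
    h.sm 11, h.sm 13, h.sm 15, h.sm 16⟩

theorem post_bg {P : Par} {x y : List ℕ} {ρ : ℕ → Bool} {R : ℕ} {m : Mem} (h : P.RO x y ρ R m) :
    m 17 0 = P.TS ∧ m 17 1 = P.STR ∧ m 17 2 = P.NA ∧ m 17 3 = P.W ∧ m 17 5 = P.allow :=
  ⟨h.bg 0 (by decide), h.bg 1 (by decide), h.bg 2 (by decide), h.bg 3 (by decide),
    h.bg 5 (by decide)⟩

theorem post_small (P : Par) : P.b + P.Xmax + (P.B0 + 1) + P.RV + P.B0 ≤ P.small := by
  simp only [Par.small, Par.smL, List.sum_cons, List.sum_nil]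
  omega

theorem post_big (P : Par) :
    (P.W + 1) * (P.B0 + 1) ^ 2 + P.NA * P.RV + P.allow + P.b * P.TS + P.small ≤ P.big := by
  unfold Par.big
  generalize 2 ^ P.pw = z
  omega

theorem post_TS (P : Par) : P.TS ≤ P.b * P.TS :=
  Nat.le_mul_of_pos_left _ (Nat.pow_pos two_pos)

theorem post_W (P : Par) : P.W + 1 ≤ P.TS :=
  le_trans (by unfold Par.PW; omega) (Nat.le_mul_of_pos_right P.PW (Nat.succ_pos _))

theorem post_B0 {P : Par} (hP : P.Good) : P.B0 + 2 ≤ P.Gm := by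
  have h1 := hP.Gm_ge
  have h2 : P.B0 ≤ P.b * P.B0 := Nat.le_mul_of_pos_left _ (Nat.pow_pos two_pos)
  omega

theorem post_a {P : Par} {a h : ℕ} (ha : a < P.b ^ (P.D - h)) : (a + 1) * P.B0 ≤ P.W :=
  Nat.mul_le_mul_right _ (le_trans ha (Nat.pow_le_pow_right (Nat.pow_pos two_pos) (Nat.sub_le _ _)))

theorem post_fill (arr : ℕ) (h5 : arr ≠ 5) (h6 : arr ≠ 6) (h7 : arr ≠ 7) (size body : FE)
    (hs : size.noRd 5 = true) (hy : body.noRd 5 = true) :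
    ∃ (c : Cmd) (κ : ℕ), ∀ (P : List Cmd) (B V R U : ℕ) (m : Mem) (g : ℕ → ℕ) (σ : ℕ),
      Env B V R κ → Bd V m → Sm R m → size.eval m = σ → σ ≤ V → σ + 1 ≤ U * R ^ 2 →
      (∀ e < σ, g e ≤ V) → (∀ e < σ, body.eval ((upd m arr 0 e g).set 6 0 e) = g e) →
      Does P B c m (upd m arr 0 σ g) (U * (κ * R ^ κ)) := by
  obtain ⟨c, κ, H⟩ := fill_ex arr h5 h6 (.c 0) size body rfl hs hy
  refine ⟨c, κ + 2, fun P B V R U m g σ hE hm hR hσ hV hU hg hb =>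
    (H P B V R m g 0 σ (hE.mono (by omega)) hm hR rfl hσ (by omega) hg (fun h => absurd h h7)
      hb).mono ((Nat.mul_le_mul_right _ hU).trans ?_)⟩
  rw [mul_assoc, mul_left_comm (R ^ 2), ← pow_add, add_comm 2]
  exact Nat.mul_le_mul_left _ (Nat.mul_le_mul_right _ (by omega))

theorem post_fillP (arr : ℕ) (h5 : arr ≠ 5) (h6 : arr ≠ 6) (h7 : arr ≠ 7) (size body : FE)
    (hs : size.noRd 5 = true) (hy : body.noRd 5 = true) (hp : body.noRd arr = true) :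
    ∃ (c : Cmd) (κ : ℕ), ∀ (P : List Cmd) (B V R U : ℕ) (m : Mem) (g : ℕ → ℕ) (σ : ℕ),
      Env B V R κ → Bd V m → Sm R m → size.eval m = σ → σ ≤ V → σ + 1 ≤ U * R ^ 2 →
      (∀ e < σ, g e ≤ V) → (∀ e < σ, body.eval (m.set 6 0 e) = g e) →
      Does P B c m (upd m arr 0 σ g) (U * (κ * R ^ κ)) := by
  obtain ⟨c, κ, H⟩ := post_fill arr h5 h6 h7 size body hs hy
  refine ⟨c, κ, fun P B V R U m g σ hE hm hR hσ hV hU hg hb =>
    H P B V R U m g σ hE hm hR hσ hV hU hg fun e he => ?_⟩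
  rw [← hb e he]
  refine FE.eval_congr hp h6 h7 fun a i ha => ?_
  rw [Mem.set_apply, Mem.set_apply, upd_arr _ _ _ _ ha]

theorem post_size {σ U R s : ℕ} (hs : s ≤ R ^ 2) (hR : 1 ≤ R) (h : σ ≤ U * s) :
    σ + 1 ≤ (U + 7) * R ^ 2 := by
  have h1 := Nat.mul_le_mul_left U hs
  have h2 : 1 ≤ R ^ 2 := Nat.pow_pos hR
  rw [add_mul]
  omega

theorem post_seq {P : List Cmd} {B U R k k' : ℕ} {c d : Cmd} {m m' m'' : Mem} (hR : 1 ≤ R)
    (h : Does P B c m m' ((U + 7) * (k * R ^ k))) (h' : Does P B d m' m'' ((U + 7) * (k' * R ^ k'))) :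
    Does P B (.seq c d) m m'' ((U + 7) * ((k + k' + 1) * R ^ (k + k' + 1))) := by
  refine (h.seq h').mono (le_trans ?_ (Nat.mul_le_mul_left _
    ((Nat.add_le_add (cost_add hR k k') (fill_le hR 1)).trans (cost_add hR (k + k') 1))))
  rw [mul_add, mul_add]
  omega

theorem post_fin {P : List Cmd} {B V T n : ℕ} {c : Cmd} {m w : Mem} {g G : ℕ → ℕ}
    (hw : ∀ a i, (a < 12 ∨ 16 < a) → w a i = m a i) (hb : Bd V w) (hg : ∀ e < n, g e ≤ V)
    (hG : ∀ e < n, g e = G e) (h : Does P B c m (upd w 12 0 n g) T) :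
    ∃ m', Does P B c m m' T ∧ Bd V m' ∧ (∀ a i, (a < 12 ∨ 16 < a) → m' a i = m a i) ∧
      ∀ e < n, m' 12 e = G e :=
  ⟨_, h, hb.upd _ _ _ hg, fun a i ha => by rw [upd_arr _ _ _ _ (by omega), hw a i ha],
    fun e he => (upd_in0 _ _ _ _ he).trans (hG e he)⟩

theorem post_at {P : Par} {x y : List ℕ} {ρ : ℕ → Bool} {Pr : List Cmd} {B V R T : ℕ} {c : Cmd}
    {A : Arg} (h : ∀ sp m, P.RO x y ρ R m → Bd V m → Fr m sp A →
      (∀ t < P.cntF A, ∀ e < P.TS,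
        m 11 (sp * P.STR + t * P.TS + e) = P.GF x y ρ (P.subF ρ A t) e) →
      ∃ m', Does Pr B c m m' T ∧ Bd V m' ∧ (∀ a i, (a < 12 ∨ 16 < a) → m' a i = m a i) ∧
        ∀ e < P.TS, m' 12 e = P.GF x y ρ A e) : (P.recF x y ρ R).PostAt Pr B V T c A :=
  fun sp m hI hm hF _ hs => h sp m hI hm hF hs

theorem post_dec {B s : ℕ} (i : ℕ) (hs : s < B) : (i * B + s) / B = i ∧ (i * B + s) % B = s := by
  rw [mul_comm, Nat.mul_add_div (by omega), Nat.mul_add_mod, Nat.div_eq_of_lt hs,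
    Nat.mod_eq_of_lt hs]
  exact ⟨rfl, rfl⟩

theorem post_lt {B s i n : ℕ} (hi : i < n) (hs : s < B) : i * B + s < n * B := by
  have := Nat.mul_le_mul_right B (Nat.succ_le_of_lt hi)
  rw [Nat.succ_mul] at this
  omega

theorem post_ex {B e n : ℕ} (h : e < n * B) : ∃ i s, i < n ∧ s < B ∧ e = i * B + s := by
  have hB : 0 < B := Nat.pos_of_ne_zero fun h0 => by simp [h0] at h
  exact ⟨e / B, e % B, Nat.div_lt_of_lt_mul (by rwa [mul_comm]), Nat.mod_lt _ hB,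
    (Nat.div_add_mod' e B).symm⟩

end Vale.Agent.P315
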