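import Vale.Agent.P315.RamDefs
import Vale.Agent.P315.Fill
import Vale.Agent.P315.Basic
import Vale.Agent.P315.PostCloAux

namespace Vale.Agent.P315

open Finset

theorem clo_eq (P : Par) (a : ℕ) (T : Tab) (M : ℕ → ℕ)
    (hM : ∀ l ≤ a * P.B0, ∀ d ≤ P.B0, M (l * (P.B0 + 1) + d) = T l d) (p p' : ℕ) :
    (range P.DW).fold min P.RV (fun s => (range (P.B0 + 1)).fold min P.RV fun d =>
      if p + s - P.RV - a * P.B0 = 0 then 2 * (Nat.dist p (p + s - P.RV) +
        Nat.dist p' (p + s - P.RV + d)) + M ((p + s - P.RV) * (P.B0 + 1) + d) else P.RV) =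
      P.clo a T p p' := by
  refine le_antisymm ((Finset.le_fold_min _).2 ⟨(Finset.fold_min_le _).2 (Or.inl le_rfl), ?_⟩)
    ((Finset.le_fold_min _).2 ⟨P.clo_le_RV _ _ _ _, fun s _ =>
      (Finset.le_fold_min _).2 ⟨P.clo_le_RV _ _ _ _, fun d hd => ?_⟩⟩)
  · rintro ⟨l, d⟩ hl
    obtain ⟨h1, h2⟩ := mem_product.1 hl
    simp only [mem_range] at h1 h2
    refine (Finset.fold_min_le _).2 ?_
    by_cases h : P.RV ≤ Nat.dist p l
    · exact Or.inl (by dsimp only; omega)
    · unfold Nat.dist at h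
      refine Or.inr ⟨l + P.RV - p, mem_range.2 (by unfold Par.DW; omega),
        (Finset.fold_min_le _).2 (Or.inr ⟨d, mem_range.2 h2, ?_⟩)⟩
      rw [show p + (l + P.RV - p) - P.RV = l by omega, if_pos (by omega),
        hM l (by omega) d (by omega)]
  · split_ifs with h
    · rw [mem_range] at hd
      rw [hM _ (by omega) d (by omega)]
      exact (Finset.fold_min_le _).2 (Or.inr ⟨(p + s - P.RV, d),
        mem_product.2 ⟨mem_range.2 (by omega), mem_range.2 hd⟩, le_rfl⟩)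
    · exact P.clo_le_RV _ _ _ _

/-- First coordinate of the state. -/
def cloP : FE := .div (.v 0) (postS 7)

/-- Start of the line. -/
def cloL : FE := .sub (.add cloP (.v 1)) (postS 11)

/-- Closure: from the table on lines in array 15 (entry `l*(B0+1)+d`) to the result array 12;
the node `a` is argument 3 of the frame. -/
theorem clo_ex : ∃ (c : Cmd) (κ : ℕ), ∀ (P : Par) (x y : List ℕ) (ρ : ℕ → Bool) (Pr : List Cmd)
    (B V R sp : ℕ) (A : Arg) (m : Mem) (T : Tab), P.Good → Env B V R κ → P.big ≤ V →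
    P.RO x y ρ R m → Bd V m → Fr m sp A →
    (∀ l ≤ A.a * P.B0, ∀ d ≤ P.B0, m 15 (l * (P.B0 + 1) + d) = T l d) →
    Does Pr B c m (upd m 12 0 P.TS (P.flat (P.clo A.a T))) ((P.TS + 7) * (κ * R ^ κ)) := by
  obtain ⟨c, κ, H⟩ := post_fillP 12 (by decide) (by decide) (by decide) (postG 0)
    (.mn 1 7 (postS 11) (.mn 2 8 (postS 11) (.ifz (.sub cloL (.mul (argE 3) (postS 15)))
      (.add (.mul (.c 2) (.add (postD cloP cloL) (postD (.sub (.add cloP (.mod (.v 0) (postS 7)))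
        (postS 11)) (.add cloL (.v 2))))) (.rd 15 (.add (.mul cloL (postS 8)) (.v 2))))
      (postS 11)))) rfl rfl rfl
  refine ⟨c, κ, fun P x y ρ Pr B V R sp A m T hP hE hV hI hm hF hT => ?_⟩
  have h1 := post_small P
  have h2 := post_big P
  have h3 := post_TS P
  obtain ⟨-, -, -, -, -, -, -, s7, s8, -, -, s11, -, s15, -⟩ := post_sm hI
  obtain ⟨a0, -, -, a3, -⟩ := post_arg hF
  refine H Pr B V R _ m _ _ hE hm hI.Sm (post_bg hI).1 (by omega)
    (post_size (Nat.pow_pos hE.hR) hE.hR (mul_one _).ge)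
    (fun e _ => (P.clo_le_RV _ _ _ _).trans (by omega)) fun e _ => ?_
  simp (disch := decide) only [FE.eval, postD_eval, cloP, cloL, postS, argE, Mem.set_arr,
    Mem.set_same, Mem.set_idx, s7, s8, s11, s15, a0, a3]
  exact clo_eq P A.a T (m 15) hT _ _

/-- Official tables above the leaves: average of the passes. -/
theorem avg_ex : ∃ (c : Cmd) (κ : ℕ), ∀ (P : Par) (x y : List ℕ) (ρ : ℕ → Bool) (Pr : List Cmd)
    (B V R : ℕ) (A : Arg), P.Good → Env B V R κ → P.big ≤ V → P.ValF A → A.md = 0 → A.h ≠ 0 →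
    (P.recF x y ρ R).PostAt Pr B V ((P.TS + 7) * (κ * R ^ κ)) c A := by
  obtain ⟨c, κ, H⟩ := post_fillP 12 (by decide) (by decide) (by decide) (postG 0)
    (.ifz (argE 4) (.c 0) (.div (.sum 1 3 (postSl (.v 1) (.v 0))) (postS 3))) rfl rfl rfl
  refine ⟨c, κ, fun P x y ρ Pr B V R A hP hE hV hA h0 hh =>
    post_at fun sp m hI hm hF hs => ?_⟩
  have h1 := post_small P
  have h2 := post_big P
  have h3 := post_TS P
  obtain ⟨-, -, -, s3, -⟩ := post_sm hI
  obtain ⟨a0, -, -, -, a4, -⟩ := post_arg hF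
  obtain ⟨g0, g1, -⟩ := post_bg hI
  have hg : ∀ e < P.TS, P.GF x y ρ A e ≤ V := fun e _ => by
    rw [Par.GF, if_pos h0]
    exact (P.A_le _ _ _ _ _ _ _ _ _).trans (by omega)
  refine post_fin (fun _ _ _ => rfl) hm hg (fun _ _ => rfl)
    (H Pr B V R _ m _ _ hE hm hI.Sm g0 (by omega)
      (post_size (Nat.pow_pos hE.hR) hE.hR (mul_one _).ge) hg fun e he => ?_)
  simp (disch := decide) only [FE.eval, postSl, postG, postS, argE, Mem.set_arr,
    Mem.set_same, Mem.set_idx, s3, g0, g1, a0, a4]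
  obtain ⟨h, hh⟩ := Nat.exists_eq_succ_of_ne_zero hh
  rw [Par.GF, if_pos h0, Par.flat, hh, Par.A_succ]
  refine ite_congr rfl (fun _ => rfl) fun hj => congrArg (· / P.S) (sum_congr rfl fun t ht => ?_)
  refine (hs t ?_ e he).trans ?_
  · rw [Par.cntF, if_pos h0, if_neg (by omega)]
    exact mem_range.1 ht
  · rw [Par.subF, if_pos h0, hh]
    rfl

/-- The root call. -/
theorem root_ex : ∃ (c : Cmd) (κ : ℕ), ∀ (P : Par) (x y : List ℕ) (ρ : ℕ → Bool)
    (Pr : List Cmd) (B V R : ℕ), P.Good → Env B V R κ → P.big ≤ V →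
    x.length + y.length ≤ P.W →
    (P.recF x y ρ R).PostAt Pr B V ((P.TS + 7) * (κ * R ^ κ)) c ⟨2, 0, 0, 0, 0, 0⟩ := by
  obtain ⟨c, κ, H⟩ := post_fillP 12 (by decide) (by decide) (by decide) (postG 0)
    (.add (.mul (postG 2) (.mn 1 2 (postS 11) (postSl (.v 1) (.add (.div (.add (.rd 0 (.c 1))
      (.div (.sub (.sub (postG 3) (.rd 0 (.c 1))) (.rd 0 (.c 2))) (.c 2))) (postG 2))
      (postS 11))))) (postG 5)) rfl rfl rfl
  refine ⟨c, κ, fun P x y ρ Pr B V R hP hE hV hW => post_at fun sp m hI hm hF hs => ?_⟩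
  have h2 := post_big P
  have h3 := post_TS P
  have h4 := post_B0 hP
  obtain ⟨-, -, s2, -, -, -, -, -, -, -, -, s11, -⟩ := post_sm hI
  obtain ⟨g0, g1, g2, g3, g5⟩ := post_bg hI
  have hg : ∀ e < P.TS, P.ans (P.A (xt x) (xt y) ρ) x y ≤ V := fun e _ =>
    (Nat.add_le_add_right (Nat.mul_le_mul_left _ ((Finset.fold_min_le _).2 (Or.inl le_rfl))) _).trans
      (by omega)
  refine post_fin (fun _ _ _ => rfl) hm hg (fun _ _ => rfl)
    (H Pr B V R _ m _ _ hE hm hI.Sm g0 (by omega)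
      (post_size (Nat.pow_pos hE.hR) hE.hR (mul_one _).ge) hg fun e he => ?_)
  simp (disch := decide) only [FE.eval, postSl, postG, postS, Mem.set_arr,
    Mem.set_same, s2, s11, g0, g1, g2, g3, g5, hF.1, hI.lx, hI.ly]
  have h5 : P.iend x y / P.NA ≤ 0 + P.RV :=
    (Nat.div_le_of_le_mul (show P.iend x y ≤ P.W by unfold Par.iend; omega)).trans
      (by unfold Par.RV; omega)
  have h6 : P.idx 0 (P.iend x y / P.NA) = P.iend x y / P.NA + P.RV := by
    rw [Par.idx, zero_mul, zero_add, Nat.sub_zero]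
  refine congrArg (P.NA * · + P.allow) (Finset.fold_congr fun t ht => ?_)
  refine (hs t (mem_range.1 ht) (P.iend x y / P.NA + P.RV)
    (h6 ▸ P.idx_lt (Nat.succ_pos _) h5)).trans ?_
  rw [← h6]
  exact P.flat_idx _ (Nat.zero_le _) h5

end Vale.Agent.P315
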