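import Vale.Agent.P315.PostClo
import Vale.Agent.P315.Path

namespace Vale.Agent.P315

open Finset

/-- Minimum of two values. -/
def leafMin (a b : FE) : FE := .sub a (.sub a b)

theorem leafMin_eval (a b : FE) (m : Mem) :
    (leafMin a b).eval m = min (a.eval m) (b.eval m) := by
  simp only [leafMin, FE.eval]
  omega

/-- Symbol `i` of the extended string stored in array `a`. -/
def leafX (a : ℕ) (i : FE) : FE :=
  .ifz (.sub (.rd 0 (.c a)) i) (.c 0) (.add (.rd a i) (.c 1))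

theorem leafX_eval {a : ℕ} {x : List ℕ} {m : Mem} (h1 : m 0 a = x.length)
    (h2 : ∀ i, m a i = x.getD i 0) (i : FE) : (leafX a i).eval m = xt x (i.eval m) := by
  simp only [leafX, FE.eval, h1, h2, xt, Nat.sub_eq_zero_iff_le, ← not_lt, ite_not]

def leafI : FE := .div (.div (.v 0) (postS 8)) (postS 8)
def leafS : FE := .mod (.div (.v 0) (postS 8)) (postS 8)
def leafTt : FE := .mod (.v 0) (postS 8)
def leafN : FE := .mul (.add (argE 3) (.c 1)) (postS 15)

/-- The table of the dynamic programme. -/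
def leafG (f g : ℕ → ℕ) (n B e : ℕ) : ℕ := dpA f g (e / B / B) (n - e / B / B) (e / B % B) (e % B)

theorem leafG_eq (f g : ℕ → ℕ) (n : ℕ) {B s t : ℕ} (i : ℕ) (hs : s < B) (ht : t < B) :
    leafG f g n B ((i * B + s) * B + t) = dpA f g i (n - i) s t := by
  rw [leafG, (post_dec _ ht).1, (post_dec _ ht).2, (post_dec _ hs).1, (post_dec _ hs).2]

theorem leaf_step (f g : ℕ → ℕ) (n : ℕ) {B e : ℕ} (hB : 0 < B) (M : ℕ → ℕ)
    (hM : ∀ e' < e, M e' = leafG f g n B e') :
    (if e / B % B = 0 then e % B else if e % B = 0 then e / B % B else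
      min (min (M (e - B) + 1) (M (e - 1) + 1)) (M (e - B - 1) +
        if Nat.dist (f (e / B / B - e / B % B)) (g (n - e / B / B - e % B)) = 0 then 0 else 1)) =
      leafG f g n B e := by
  obtain ⟨q, t, -, ht, rfl⟩ := post_ex (Nat.lt_mul_of_div_lt (Nat.lt_succ_self (e / B)) hB)
  obtain ⟨i, s, -, hs, rfl⟩ := post_ex (Nat.lt_mul_of_div_lt (Nat.lt_succ_self (q / B)) hB)
  rw [leafG_eq _ _ _ _ hs ht, (post_dec _ ht).1, (post_dec _ ht).2, (post_dec _ hs).1,
    (post_dec _ hs).2]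
  rcases s with _ | s
  · rw [if_pos rfl, dpA]
  · rcases t with _ | t
    · rw [if_neg s.succ_ne_zero, if_pos rfl, dpA]
    · have e0 : (i * B + (s + 1)) * B = (i * B + s) * B + B := by ring
      have e1 : (i * B + (s + 1)) * B + (t + 1) - B = (i * B + s) * B + (t + 1) := by omega
      rw [if_neg s.succ_ne_zero, if_neg t.succ_ne_zero, dpA, e1, ← add_assoc, ← add_assoc,
        Nat.add_sub_cancel, Nat.add_sub_cancel, hM _ (by omega), hM _ (by omega), hM _ (by omega),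
        add_assoc, leafG_eq _ _ _ _ (by omega) ht, leafG_eq _ _ _ _ hs (by omega),
        leafG_eq _ _ _ _ (by omega) (by omega)]
      exact congrArg _ (congrArg _ (if_congr ⟨Nat.eq_of_dist_eq_zero, Nat.dist_eq_zero⟩ rfl rfl))

/-- Leaves: dynamic programme in array 16, table on lines in array 15, closure. -/
theorem leaf_ex : ∃ (c : Cmd) (κ : ℕ), ∀ (P : Par) (x y : List ℕ) (ρ : ℕ → Bool)
    (Pr : List Cmd) (B V R : ℕ) (A : Arg), P.Good → Env B V R κ → P.big ≤ V → P.ValF A →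
    A.md = 0 → A.h = 0 → (P.recF x y ρ R).PostAt Pr B V ((P.TS + 7) * (κ * R ^ κ)) c A := by
  obtain ⟨c1, k1, H1⟩ := post_fill 16 (by decide) (by decide) (by decide)
    (.mul (.mul (.add leafN (.c 1)) (postS 8)) (postS 8))
    (.ifz leafS leafTt (.ifz leafTt leafS (leafMin (leafMin
      (.add (.rd 16 (.sub (.v 0) (postS 8))) (.c 1)) (.add (.rd 16 (.sub (.v 0) (.c 1))) (.c 1)))
      (.add (.rd 16 (.sub (.sub (.v 0) (postS 8)) (.c 1))) (.ifz (postD (leafX 1 (.sub leafI leafS))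
        (leafX 2 (.sub (.sub leafN leafI) leafTt))) (.c 0) (.c 1)))))) rfl rfl
  obtain ⟨c2, k2, H2⟩ := post_fillP 15 (by decide) (by decide) (by decide)
    (.mul (.add (.mul (argE 3) (postS 15)) (.c 1)) (postS 8))
    (.rd 16 (.add (.mul (.add (.mul (.add (.div (.v 0) (postS 8)) leafTt) (postS 8)) leafTt)
      (postS 8)) (.sub (postS 15) leafTt))) rfl rfl rfl
  obtain ⟨c3, k3, H3⟩ := clo_ex
  refine ⟨.seq (.seq c1 c2) c3, k1 + k2 + 1 + k3 + 1, fun P x y ρ Pr B V R A hP hE hV hA h0 hh =>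
    post_at fun sp m hI hm hF _ => ?_⟩
  have h1 := post_small P
  have h2 := post_big P
  have h3 := post_W P
  have hR := hI.hR
  have ha : (A.a + 1) * P.B0 ≤ P.W := by
    rcases hA with h | h | h
    · exact post_a h.2.2.2.1
    · omega
    · rw [h] at h0
      cases h0
  have hB : (P.B0 + 1) * (P.B0 + 1) ≤ R ^ 2 := by
    rw [sq]
    exact Nat.mul_le_mul (by omega) (by omega)
  have hs1 : ((A.a + 1) * P.B0 + 1) * (P.B0 + 1) * (P.B0 + 1) ≤ (P.W + 1) * (P.B0 + 1) ^ 2 := by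
    rw [mul_assoc, sq]
    exact Nat.mul_le_mul_right _ (by omega)
  have hs2 : (A.a * P.B0 + 1) * (P.B0 + 1) ≤ ((A.a + 1) * P.B0 + 1) * (P.B0 + 1) * (P.B0 + 1) :=
    (Nat.mul_le_mul_right _ (by rw [add_mul]; omega)).trans (Nat.le_mul_of_pos_right _ (by omega))
  have hs3 : (P.W + 1) * (P.B0 + 1) ^ 2 ≤ P.TS * ((P.B0 + 1) * (P.B0 + 1)) := by
    rw [sq]
    exact Nat.mul_le_mul_right _ h3
  obtain ⟨-, -, -, -, -, -, -, -, s8, -, -, -, -, s15, -⟩ := post_sm hI
  obtain ⟨a0, -, -, a3, -⟩ := post_arg hF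
  have hd : ∀ i j s t, s < P.B0 + 1 → t < P.B0 + 1 → dpA (xt x) (xt y) i j s t ≤ V :=
    fun i j s t hs ht => (dpA_le _ _ _ _ _ _).trans (by omega)
  have hg1 : ∀ e < ((A.a + 1) * P.B0 + 1) * (P.B0 + 1) * (P.B0 + 1),
      leafG (xt x) (xt y) ((A.a + 1) * P.B0) (P.B0 + 1) e ≤ V := fun e _ =>
    hd _ _ _ _ (Nat.mod_lt _ (by omega)) (Nat.mod_lt _ (by omega))
  have D1 := H1 Pr B V R (P.TS + 7) m _ _ (hE.mono (by omega)) hm hI.Sm
    (by simp only [FE.eval, leafN, postS, argE, s8, s15, a0, a3]) (by omega)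
    (post_size hB hE.hR (hs1.trans hs3)) hg1 fun e _ => by
      have hw := (hI.upd (arr := 16) (by decide) le_rfl 0 e
        (leafG (xt x) (xt y) ((A.a + 1) * P.B0) (P.B0 + 1))).set6 0 e
      simp (disch := decide) only [FE.eval, leafMin_eval, postD_eval, leafX_eval hw.lx hw.ax,
        leafX_eval hw.ly hw.ay, leafI, leafS, leafTt, leafN, postS, argE, Mem.set_arr,
        Mem.set_same, upd_arr, s8, s15, a0, a3]
      exact leaf_step _ _ _ (Nat.succ_pos _) _ fun e' he' => upd_in0 _ _ _ _ he'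
  have hg2 : ∀ e < (A.a * P.B0 + 1) * (P.B0 + 1),
      P.leafT (xt x) (xt y) A.a (e / (P.B0 + 1)) (e % (P.B0 + 1)) ≤ V := fun e _ =>
    hd _ _ _ _ (Nat.mod_lt _ (by omega)) (by omega)
  have I1 := hI.upd (arr := 16) (by decide) le_rfl 0
    (((A.a + 1) * P.B0 + 1) * (P.B0 + 1) * (P.B0 + 1))
    (leafG (xt x) (xt y) ((A.a + 1) * P.B0) (P.B0 + 1))
  have D2 := H2 Pr B V R (P.TS + 7) _ _ _ (hE.mono (by omega)) (hm.upd 16 0 _ hg1) I1.Sm
    (by simp (disch := decide) only [FE.eval, postS, argE, upd_arr, s8, s15, a0, a3]) (by omega)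
    (post_size hB hE.hR (hs2.trans (hs1.trans hs3))) hg2 fun e he => by
      obtain ⟨l, d, hl, hd, rfl⟩ := post_ex he
      simp (disch := decide) only [FE.eval, leafTt, postS, Mem.set_arr, Mem.set_same, upd_arr,
        s8, s15, (post_dec l hd).1, (post_dec l hd).2]
      rw [upd_in0 _ _ _ _ (post_lt (post_lt (by rw [add_mul]; omega) hd) (by omega)),
        leafG_eq _ _ _ _ hd (by omega)]
      rfl
  have D3 := H3 P x y ρ Pr B V R sp A _ (P.leafT (xt x) (xt y) A.a) hP (hE.mono (by omega)) hV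
    (I1.upd (arr := 15) (by decide) (by decide) 0 _ _) ((hm.upd 16 0 _ hg1).upd 15 0 _ hg2)
    ((hF.upd (by decide) (by decide) _ _ _).upd (by decide) (by decide) _ _ _) fun l hl d hd => by
      rw [upd_in0 _ _ _ _ (post_lt (by omega) (by omega)), (post_dec l (by omega)).1,
        (post_dec l (by omega)).2]
  refine post_fin (fun a i ha => by rw [upd_arr _ _ _ _ (by omega), upd_arr _ _ _ _ (by omega)])
    ((hm.upd 16 0 _ hg1).upd 15 0 _ hg2) (fun e _ => (P.clo_le_RV _ _ _ _).trans (by omega))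
    (fun e _ => ?_) (post_seq hE.hR (post_seq hE.hR D1 D2) D3)
  rw [Par.GF, if_pos h0, hh]
  rfl

end Vale.Agent.P315
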