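import Vale.Agent.P315.RamDefs
import Vale.Agent.P315.Fill
import Vale.Agent.P315.Basic
import Vale.Agent.P315.PostCloAux

namespace Vale.Agent.P315

open Finset

/-- What the sub-expressions need from the memory. -/
structure TnCtx (P : Par) (x y : List ℕ) (ρ : ℕ → Bool) (R arr : ℕ) (C : ℕ → Tab) (l d : ℕ)
    (w : Mem) : Prop where
  ro : P.RO x y ρ R w
  tab : ∀ jj < P.b, ∀ e < P.TS, w arr (jj * P.TS + e) = P.flat (C jj) e
  v0 : w 6 0 = l * (P.B0 + 1) + d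
  hl : l * P.b + P.b * P.B0 ≤ P.W
  hd : d < P.B0 + 1
  h6 : arr ≠ 6

section TnSec

variable {P : Par} {x y : List ℕ} {ρ : ℕ → Bool} {R arr : ℕ} {C : ℕ → Tab} {l d : ℕ} {w : Mem}

theorem TnCtx.set (h : TnCtx P x y ρ R arr C l d w) {i : ℕ} (hi : 0 ≠ i) (v : ℕ) :
    TnCtx P x y ρ R arr C l d (w.set 6 i v) :=
  ⟨h.ro.set6 _ _, by rw [Mem.set_arr _ _ _ h.h6]; exact h.tab,
    by rw [Mem.set_idx _ _ _ hi]; exact h.v0, h.hl, h.hd, h.h6⟩

def tnLin (j : FE) : FE :=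
  .add (.mul (.div (.v 0) (postS 8)) (postS 0)) (.mul j (.mod (.v 0) (postS 8)))

/-- Break point number `j`. -/
def tnQ (j : FE) : FE :=
  .ifz (.mul j (.sub (postS 0) j)) (tnLin j) (.sub (.add (tnLin j) (.mod (.div (.v 2)
    (.rd 18 (.mul (postS 4) j))) (.mul (.c 2) (.rd 18 (.v 1))))) (.rd 18 (.v 1)))

theorem tnQ_eval (h : TnCtx P x y ρ R arr C l d w) (hi : w 6 1 ≤ P.imax) {j : FE}
    (hj : j.eval w ≤ P.b) : (tnQ j).eval w = P.q l d (w 6 1) (w 6 2) (j.eval w) := by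
  obtain ⟨s0, -, -, -, s4, -, -, -, s8, -⟩ := post_sm h.ro
  have h1 := Nat.mul_le_mul_left (P.imax + 1) hj
  simp only [tnQ, tnLin, postS, FE.eval, s0, s4, s8, h.v0, (post_dec l h.hd).1,
    (post_dec l h.hd).2]
  rw [h.ro.pow _ (by unfold Par.pw; omega), h.ro.pow _ (by unfold Par.pw; omega), pow_mul,
    pow_succ']
  exact if_congr (by rw [Nat.mul_eq_zero]; omega) rfl rfl

/-- Value of an option. -/
def tnVal (arr : ℕ) : FE :=
  .sum 3 0 (.rd arr (.add (.mul (.v 3) (postG 0)) (.add (.mul (tnQ (.v 3)) (postS 7))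
    (.sub (.add (tnQ (.add (.v 3) (.c 1))) (postS 11)) (tnQ (.v 3))))))

theorem tnVal_eval (hP : P.Good) (h : TnCtx P x y ρ R arr C l d w) (hi : w 6 1 ≤ P.imax) :
    (tnVal arr).eval w = P.val C l d (w 6 1) (w 6 2) := by
  rw [tnVal, FE.eval, (post_sm h.ro).1]
  refine sum_congr rfl fun j hj => ?_
  rw [mem_range] at hj
  have h' := h.set (i := 3) (by decide) j
  have e1 : w.set 6 3 j 6 1 = w 6 1 := Mem.set_idx _ _ _ (by decide)
  have e2 : w.set 6 3 j 6 2 = w 6 2 := Mem.set_idx _ _ _ (by decide)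
  have e3 : w.set 6 3 j 6 3 = j := Mem.set_same _ _ _ _
  obtain ⟨-, -, -, -, -, -, -, s7, -, -, -, s11, -⟩ := post_sm h'.ro
  have q1 := tnQ_eval h' (e1 ▸ hi) (j := .v 3) (e3.le.trans hj.le)
  have q2 := tnQ_eval h' (e1 ▸ hi) (j := .add (.v 3) (.c 1)) (by simp only [FE.eval, e3]; omega)
  simp only [FE.eval, postS, postG, q1, q2, s7, s11, (post_bg h'.ro).1, e1, e2, e3]
  have n1 := P.q_near l d (w 6 1) (w 6 2) j
  have n2 := P.q_near l d (w 6 1) (w 6 2) (j + 1)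
  have n3 : 2 ^ w 6 1 ≤ P.Gm := Nat.pow_le_pow_right two_pos hi
  have n4 := post_B0 hP
  have n5 : j * d ≤ P.b * P.B0 := Nat.mul_le_mul hj.le (Nat.le_of_lt_succ h.hd)
  have n6 : P.RV = 8 * P.Gm := rfl
  have n7 := h.hl
  have n8 := h.hd
  rw [add_mul, one_mul] at n2
  unfold Nat.dist at n1 n2
  exact (h'.tab j hj _ (P.idx_lt (by unfold Par.PW; omega) (by omega))).trans
    (P.flat_idx _ (by omega) (by omega))

def tnEX (u : FE) : FE := .rd 20 (.add (.mul (.v 1) (.add (postS 6) (.c 1))) u)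

theorem tnEX_eval (h : P.RO x y ρ R w) (hi : w 6 1 ≤ P.imax) {u : FE} (hu : u.eval w ≤ P.Xmax) :
    (tnEX u).eval w = P.EX (w 6 1) (u.eval w) := by
  simp only [tnEX, postS, FE.eval, (post_sm h).2.2.2.2.2.2.1]
  exact h.ex _ hi _ hu

/-- The integer soft minimum. -/
def tnF (arr : ℕ) : FE :=
  .lt 4 (.mn 2 5 (postS 6) (tnVal arr)) (.lt 5 (.sum 2 5 (tnEX (.sub (tnVal arr) (.v 4))))
    (.add (.v 4) (.sum 6 6 (.ifz (.sub (.v 5) (.mul (postS 5) (tnEX (.add (.v 6) (.c 1)))))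
      (.c 1) (.c 0)))))

theorem tnF_eval (hP : P.Good) (h : TnCtx P x y ρ R arr C l d w) (hi : w 6 1 ≤ P.imax)
    (hC : ∀ l d i o, P.val C l d i o ≤ P.Xmax) :
    (tnF arr).eval w = P.Fhat (w 6 1) (P.val C l d (w 6 1)) := by
  obtain ⟨-, -, -, -, -, s5, s6, -⟩ := post_sm h.ro
  have hv : ∀ {w' : Mem}, TnCtx P x y ρ R arr C l d w' → w' 6 1 = w 6 1 → ∀ o,
      (tnVal arr).eval (w'.set 6 2 o) = P.val C l d (w 6 1) o := fun h' e o => by
    rw [tnVal_eval hP (h'.set (by decide) o) (by rwa [Mem.set_idx _ _ _ (by decide), e]),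
      Mem.set_idx _ _ _ (by decide), e, Mem.set_same]
  have e1 : (FE.mn 2 5 (postS 6) (tnVal arr)).eval w =
      (range P.Om).fold min P.Xmax (P.val C l d (w 6 1)) := by
    simp only [FE.eval, postS, s5, s6, hv h rfl]
  rw [tnF, FE.eval, e1, Par.Fhat]
  generalize (range P.Om).fold min P.Xmax (P.val C l d (w 6 1)) = mn
  have e2 : (FE.sum 2 5 (tnEX (.sub (tnVal arr) (.v 4)))).eval (w.set 6 4 mn) =
      ∑ o ∈ range P.Om, P.EX (w 6 1) (P.val C l d (w 6 1) o - mn) := by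
    rw [FE.eval, Mem.set_arr _ _ _ (by decide), s5]
    refine sum_congr rfl fun o _ => ?_
    have e3 : (FE.sub (tnVal arr) (.v 4)).eval ((w.set 6 4 mn).set 6 2 o) =
        P.val C l d (w 6 1) o - mn := by
      rw [FE.eval, hv (h.set (by decide) mn) (Mem.set_idx _ _ _ (by decide)), FE.eval,
        Mem.set_idx _ _ _ (by decide), Mem.set_same]
    have e4 : (w.set 6 4 mn).set 6 2 o 6 1 = w 6 1 := by
      rw [Mem.set_idx _ _ _ (by decide), Mem.set_idx _ _ _ (by decide)]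
    rw [tnEX_eval ((h.ro.set6 _ _).set6 _ _) (e4 ▸ hi) (e3 ▸ (Nat.sub_le _ _).trans (hC _ _ _ _)),
      e3, e4]
  rw [FE.eval, e2]
  generalize ∑ o ∈ range P.Om, P.EX (w 6 1) (P.val C l d (w 6 1) o - mn) = Z
  simp (disch := decide) only [FE.eval, postS, Mem.set_arr, Mem.set_idx, Mem.set_same, s5, s6]
  refine congrArg _ (sum_congr rfl fun u hu => ?_)
  have e4 : ((w.set 6 4 mn).set 6 5 Z).set 6 6 u 6 1 = w 6 1 := by
    simp (disch := decide) only [Mem.set_idx]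
  have e5 : (FE.add (.v 6) (.c 1)).eval (((w.set 6 4 mn).set 6 5 Z).set 6 6 u) = u + 1 := by
    simp only [FE.eval, Mem.set_same]
  rw [tnEX_eval (((h.ro.set6 _ _).set6 _ _).set6 _ _) (e4 ▸ hi) (e5 ▸ mem_range.1 hu), e4, e5]
  exact if_congr Nat.sub_eq_zero_iff_le rfl rfl

end TnSec

/-- The soft-min step: from the tables `C` (array 13) and `Y` (array 14), table `jj` stored flat
at `jj * TS`, to the table on lines (array 15).  The offset is `0` at the bottom of a window and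
`b * RV` otherwise. -/
theorem tn_ex : ∃ (c : Cmd) (κ : ℕ), ∀ (P : Par) (x y : List ℕ) (ρ : ℕ → Bool) (Pr : List Cmd)
    (B V R sp : ℕ) (A : Arg) (m : Mem) (C Y : ℕ → Tab), P.Good → Env B V R κ → P.big ≤ V →
    P.RO x y ρ R m → Bd V m → Fr m sp A → 1 ≤ A.h → A.h ≤ P.D → A.a < P.b ^ (P.D - A.h) →
    (∀ jj < P.b, ∀ e < P.TS, m 13 (jj * P.TS + e) = P.flat (C jj) e) →
    (∀ jj < P.b, ∀ e < P.TS, m 14 (jj * P.TS + e) = P.flat (Y jj) e) →
    (∀ l d i o, P.val C l d i o ≤ P.Xmax) → (∀ l d i o, P.val Y l d i o ≤ P.Xmax) →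
    Does Pr B c m (upd m 15 0 ((A.a * P.B0 + 1) * (P.B0 + 1)) (fun e =>
      P.TN C Y (if (A.h - 1) % P.ell = 0 then 0 else P.b * P.RV) (e / (P.B0 + 1))
        (e % (P.B0 + 1)))) ((P.TS + 7) * (κ * R ^ κ)) := by
  obtain ⟨c, κ, H⟩ := post_fillP 15 (by decide) (by decide) (by decide)
    (.mul (.add (.mul (argE 3) (postS 15)) (.c 1)) (postS 8))
    (.mn 1 4 (postS 15) (.div (.sub (.sub (tnF 14) (tnF 13)) (.ifz (.mod (.sub (argE 2) (.c 1))
      (postS 13)) (.c 0) (.mul (postS 0) (postS 11)))) (postS 0))) rfl rfl rfl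
  refine ⟨c, κ, fun P x y ρ Pr B V R sp A m C Y hP hE hV hI hm hF h1 hD ha hC hY bC bY => ?_⟩
  have h2 := post_small P
  have h3 := post_big P
  have h4 := post_W P
  have hR := hI.hR
  have h5 := post_a ha
  have h6 : (A.a + 1) * P.b ≤ P.b ^ P.D :=
    (Nat.mul_le_mul_right _ ha).trans (by
      rw [← pow_succ]
      exact Nat.pow_le_pow_right (Nat.pow_pos two_pos) (by omega))
  have h7 : (A.a + 1) * P.b * P.B0 ≤ P.W := Nat.mul_le_mul_right _ h6
  have h8 : (A.a * P.B0 + 1) * (P.B0 + 1) ≤ (P.W + 1) * (P.B0 + 1) :=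
    Nat.mul_le_mul_right _ (by rw [add_mul] at h5; omega)
  have h9 : (P.W + 1) * (P.B0 + 1) ≤ (P.W + 1) * (P.B0 + 1) ^ 2 :=
    Nat.mul_le_mul_left _ (Nat.le_self_pow two_ne_zero _)
  obtain ⟨s0, -, -, -, s4, -, -, -, s8, -, -, s11, s13, s15, -⟩ := post_sm hI
  obtain ⟨a0, -, a2, a3, -⟩ := post_arg hF
  refine H Pr B V R _ m _ _ hE hm hI.Sm (by simp only [FE.eval, postS, argE, s8, s15, a0, a3])
    (by omega) (post_size (le_trans (by omega) (Nat.le_self_pow two_ne_zero R)) hE.hR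
      (h8.trans (Nat.mul_le_mul_right _ h4)))
    (fun e _ => (P.TN_le _ _ _ _ _).trans (by omega)) fun e he => ?_
  obtain ⟨l, d, hl, hd, rfl⟩ := post_ex he
  have hl' : l * P.b + P.b * P.B0 ≤ P.W := by
    have := Nat.mul_le_mul_right P.b (Nat.le_of_lt_succ hl)
    rw [add_mul, add_mul, one_mul, mul_right_comm] at h7
    omega
  have c1 : TnCtx P x y ρ R 13 C l d (m.set 6 0 (l * (P.B0 + 1) + d)) :=
    ⟨hI.set6 _ _, by rw [Mem.set_arr _ _ _ (by decide)]; exact hC, Mem.set_same _ _ _ _, hl', hd,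
      by decide⟩
  have c2 : TnCtx P x y ρ R 14 Y l d (m.set 6 0 (l * (P.B0 + 1) + d)) :=
    ⟨hI.set6 _ _, by rw [Mem.set_arr _ _ _ (by decide)]; exact hY, Mem.set_same _ _ _ _, hl', hd,
      by decide⟩
  simp (disch := decide) only [FE.eval, postS, argE, Mem.set_arr, s0, s4, s11, s13, s15, a0, a2,
    (post_dec l hd).1, (post_dec l hd).2]
  refine Finset.fold_congr fun i hi => ?_
  have hi' : (m.set 6 0 (l * (P.B0 + 1) + d)).set 6 1 i 6 1 ≤ P.imax := by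
    rw [Mem.set_same]
    exact Nat.le_of_lt_succ (mem_range.1 hi)
  rw [tnF_eval hP (c1.set (by decide) i) hi' bC, tnF_eval hP (c2.set (by decide) i) hi' bY,
    Mem.set_same]

end Vale.Agent.P315
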