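import Vale.Agent.P315.PostClo
import Vale.Agent.P315.PostT

namespace Vale.Agent.P315

open Finset

/-- The tables `Y` in a uniform shape. -/
def passY (P : Par) (C L Rr : ℕ → Tab) (J : ℕ → ℕ) (z : ℕ) : ℕ → Tab := fun jj p p' =>
  C jj p p' + L jj p p' + if z = 0 then 0 else
    ∑ i ∈ range P.N, if J i = jj then P.r * (Rr i p p' + P.RV - L jj p p') else 0

theorem pass_bd {P : Par} (hP : P.Good) {C L Rr : ℕ → Tab} (J : ℕ → ℕ) (z : ℕ)
    (hC : ∀ jj p p', C jj p p' ≤ P.K * P.RV) (hL : ∀ jj p p', L jj p p' ≤ P.RV)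
    (hR : ∀ i p p', Rr i p p' ≤ P.RV) :
    (∀ jj < P.b, ∀ p p', passY P C L Rr J z jj p p' ≤ P.Xmax) ∧
      ∀ l d i o, P.val (passY P C L Rr J z) l d i o ≤ P.Xmax := by
  have h1 : ∀ jj p p', passY P C L Rr J z jj p p' ≤
      (P.K + 1) * P.RV + ∑ i ∈ range P.N, if J i = jj then P.r * (2 * P.RV) else 0 := by
    intro jj p p'
    rw [add_mul, one_mul]
    refine Nat.add_le_add (Nat.add_le_add (hC _ _ _) (hL _ _ _)) ?_
    split_ifs
    · exact Nat.zero_le _
    · refine sum_le_sum fun i _ => ?_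
      split_ifs
      · exact Nat.mul_le_mul_left _ (by have := hR i p p'; omega)
      · exact le_rfl
  have h2 : ∑ jj ∈ range P.b, ((P.K + 1) * P.RV +
      ∑ i ∈ range P.N, if J i = jj then P.r * (2 * P.RV) else 0) ≤ P.Xmax := by
    rw [sum_add_distrib, sum_comm, sum_const, card_range, smul_eq_mul]
    refine (Nat.add_le_add_left (sum_le_card_nsmul _ _ (P.r * (2 * P.RV)) fun i _ => ?_) _).trans
      (le_of_eq ?_)
    · rw [sum_ite_eq]
      split_ifs
      · exact le_rfl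
      · exact Nat.zero_le _
    · rw [card_range, smul_eq_mul, ← mul_assoc P.N, Par.N_mul_r hP, Par.Xmax]
      ring
  exact ⟨fun jj hj p p' => (h1 _ _ _).trans ((single_le_sum (f := fun jj => (P.K + 1) * P.RV +
      ∑ i ∈ range P.N, if J i = jj then P.r * (2 * P.RV) else 0) (fun _ _ => Nat.zero_le _)
      (mem_range.2 hj)).trans h2), fun l d i o => (sum_le_sum fun j _ => h1 _ _ _).trans h2⟩

theorem pass_eq (P : Par) (f g : ℕ → ℕ) (ρ : ℕ → Bool) (h k a j ad : ℕ) :
    P.Pa f g ρ (h + 1) k a j ad = P.clo a (P.TN (P.cumT (P.A f g ρ h) k a)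
      (passY P (P.cumT (P.A f g ρ h) k a)
        (fun jj => P.A f g ρ h k (a * P.b + jj) (if h % P.ell = 0 then P.k0 else j - 1))
        (fun i => P.Pa f g ρ h k (a * P.b + P.jv ρ (P.sad (h % P.ell - 1) ad i)) j
          (P.sad (h % P.ell - 1) ad i + P.SZ (h % P.ell - 1)))
        (fun i => P.jv ρ (P.sad (h % P.ell - 1) ad i)) (h % P.ell))
      (if h % P.ell = 0 then 0 else P.b * P.RV)) := by
  rw [Par.Pa_succ, Par.passF]
  unfold passY
  split_ifs
  · rfl
  · simp only [← Fin.sum_univ_eq_sum_range _ P.N]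
    rfl

def passJJ : FE := .div (.v 0) (postG 0)
def passE : FE := .mod (.v 0) (postG 0)
def passT (u : FE) : FE := .add (.mul passJJ (.add (argE 1) (.c 1))) u
def passL : FE := postSl (passT (argE 1)) passE
def passH : FE := .mod (.sub (argE 2) (.c 1)) (postS 13)

/-- The sampled child index. -/
def passJ : FE :=
  .sum 2 9 (.mul (.rd 3 (.add (.mul (.add (argE 5) (.mul (.v 1) (.mul (.c 2) (.rd 18
    (.mul (.add (postS 16) (.c 1)) (.sub passH (.c 1))))))) (postS 9)) (.v 2))) (.rd 18 (.v 2)))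

theorem passJ_eval {P : Par} {x y : List ℕ} {ρ : ℕ → Bool} {R sp : ℕ} {A : Arg} {w : Mem}
    (hP : P.Good) (hI : P.RO x y ρ R w) (hF : Fr w sp A) :
    passJ.eval w = P.jv ρ (P.sad ((A.h - 1) % P.ell - 1) A.ad (w 6 1)) := by
  obtain ⟨-, -, -, -, -, -, -, -, -, s9, -, -, s13, -, s16⟩ := post_sm hI
  obtain ⟨a0, -, a2, -, -, a5⟩ := post_arg hF
  simp (disch := decide) only [passJ, passH, postS, argE, FE.eval, Mem.set_arr, Mem.set_same,
    Mem.set_idx, s9, s13, s16, a0, a2, a5, hI.tape]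
  refine sum_congr rfl fun t ht => ?_
  have h1 : (P.ln + 1) * ((A.h - 1) % P.ell - 1) ≤ (P.ln + 1) * P.ell :=
    Nat.mul_le_mul_left _ ((Nat.sub_le _ _).trans (Nat.mod_lt _ hP.ell_pos).le)
  rw [mem_range] at ht
  rw [hI.pow _ (by unfold Par.pw; omega), hI.pow _ (by unfold Par.pw; omega), pow_mul, pow_succ',
    ite_mul, one_mul, zero_mul]
  rfl

/-- Passes: fill the tables `C` and `Y` from the slots, then `tn_ex`, then `clo_ex`. -/
theorem pass_ex : ∃ (c : Cmd) (κ : ℕ), ∀ (P : Par) (x y : List ℕ) (ρ : ℕ → Bool)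
    (Pr : List Cmd) (B V R : ℕ) (A : Arg), P.Good → Env B V R κ → P.big ≤ V → P.ValF A →
    A.md = 1 → (P.recF x y ρ R).PostAt Pr B V ((P.TS + 7) * (κ * R ^ κ)) c A := by
  obtain ⟨c1, k1, H1⟩ := post_fillP 13 (by decide) (by decide) (by decide)
    (.mul (postS 0) (postG 0))
    (.sum 1 2 (.ifz (.sub (argE 1) (.v 1)) (.c 0) (postSl (passT (.v 1)) passE))) rfl rfl rfl
  obtain ⟨c2, k2, H2⟩ := post_fillP 14 (by decide) (by decide) (by decide)
    (.mul (postS 0) (postG 0))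
    (.add (.add (.rd 13 (.v 0)) passL) (.ifz passH (.c 0) (.sum 1 1 (.ifz (postD passJ passJJ)
      (.mul (postS 10) (.sub (.add (postSl (.add (.mul (postS 0) (.add (argE 1) (.c 1))) (.v 1))
        passE) (postS 11)) passL)) (.c 0))))) rfl rfl rfl
  obtain ⟨c3, k3, H3⟩ := tn_ex
  obtain ⟨c4, k4, H4⟩ := clo_ex
  refine ⟨.seq (.seq (.seq c1 c2) c3) c4, k1 + k2 + 1 + k3 + 1 + k4 + 1,
    fun P x y ρ Pr B V R A hP hE hV hA h0 => post_at fun sp m hI hm hF hs => ?_⟩
  have h1 := post_small P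
  have h2 := post_big P
  have h3 := post_B0 hP
  have hR := hI.hR
  have h00 : A.md ≠ 0 := by omega
  obtain ⟨hk, hh, hD, ha⟩ : A.k < P.K ∧ 1 ≤ A.h ∧ A.h ≤ P.D ∧ A.a < P.b ^ (P.D - A.h) := by
    rcases hA with h | h | h
    · omega
    · exact ⟨h.2.1, h.2.2.1, h.2.2.2.1, h.2.2.2.2.1⟩
    · rw [h] at h0
      cases h0
  have t1 : ∀ jj < P.b, ∀ k' < A.k + 1, ∀ e < P.TS,
      m 11 (sp * P.STR + (jj * (A.k + 1) + k') * P.TS + e) =
        P.flat (P.A (xt x) (xt y) ρ (A.h - 1) k' (A.a * P.b + jj)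
          (if k' < A.k ∨ (A.h - 1) % P.ell = 0 then P.k0 else A.j - 1)) e := by
    intro jj hj k' hk' e he
    rw [hs _ (by
      rw [Par.cntF, if_neg h00, if_pos h0]
      exact Nat.lt_add_right _ (post_lt hj hk')) e he, Par.subF, if_neg h00, if_pos h0,
      if_pos (post_lt hj hk'), (post_dec jj hk').1, (post_dec jj hk').2]
    rfl
  have t2 : (A.h - 1) % P.ell ≠ 0 → ∀ i < P.N, ∀ e < P.TS,
      m 11 (sp * P.STR + (P.b * (A.k + 1) + i) * P.TS + e) =
        P.flat (P.Pa (xt x) (xt y) ρ (A.h - 1) A.k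
          (A.a * P.b + P.jv ρ (P.sad ((A.h - 1) % P.ell - 1) A.ad i)) A.j
          (P.sad ((A.h - 1) % P.ell - 1) A.ad i + P.SZ ((A.h - 1) % P.ell - 1))) e := by
    intro hz i hi e he
    rw [hs _ (by
      rw [Par.cntF, if_neg h00, if_pos h0, if_neg hz]
      omega) e he, Par.subF, if_neg h00, if_pos h0, if_neg (by omega), Nat.add_sub_cancel_left]
    rfl
  have hPa := pass_eq P (xt x) (xt y) ρ (A.h - 1) A.k A.a A.j A.ad
  rw [Nat.sub_add_cancel hh] at hPa
  set C := P.cumT (P.A (xt x) (xt y) ρ (A.h - 1)) A.k A.a with hC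
  set Y := passY P C _ _ _ _ with hY
  obtain ⟨bY1, bY2⟩ : (∀ jj < P.b, ∀ p p', Y jj p p' ≤ P.Xmax) ∧
      ∀ l d i o, P.val Y l d i o ≤ P.Xmax :=
    pass_bd hP _ _ (fun jj p p' => (sum_le_card_nsmul _ _ P.RV fun _ _ =>
      P.A_le _ _ _ _ _ _ _ _ _).trans (by
        rw [card_range]
        exact Nat.mul_le_mul_right _ hk.le)) (fun _ _ _ => P.A_le _ _ _ _ _ _ _ _ _)
      fun _ _ _ => P.Pa_le _ _ _ _ _ _ _ _ _ _
  have hCY : ∀ jj p p', C jj p p' ≤ Y jj p p' := fun jj p p' =>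
    (Nat.le_add_right _ _).trans (Nat.le_add_right _ _)
  have hdiv : ∀ e < P.b * P.TS, e / P.TS < P.b := fun e he =>
    Nat.div_lt_of_lt_mul (by rwa [mul_comm])
  have hg1 : ∀ e < P.b * P.TS, P.flat (C (e / P.TS)) (e % P.TS) ≤ V := fun e he =>
    (hCY _ _ _).trans ((bY1 _ (hdiv e he) _ _).trans (by omega))
  have hg2 : ∀ e < P.b * P.TS, P.flat (Y (e / P.TS)) (e % P.TS) ≤ V := fun e he =>
    (bY1 _ (hdiv e he) _ _).trans (by omega)
  have hU : P.b * P.TS + 1 ≤ (P.TS + 7) * R ^ 2 :=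
    post_size (le_trans (by omega) (Nat.le_self_pow two_ne_zero R)) hE.hR (mul_comm _ _).le
  obtain ⟨s0, s1, s2, -, -, -, -, -, -, -, s10, s11, s13, -⟩ := post_sm hI
  obtain ⟨g0, g1, -⟩ := post_bg hI
  obtain ⟨a0, a1, a2, -⟩ := post_arg hF
  have D1 := H1 Pr B V R (P.TS + 7) m _ _ (hE.mono (by omega)) hm hI.Sm
    (by simp only [FE.eval, postS, postG, s0, g0]) (by omega) hU hg1 fun e' he' => by
      obtain ⟨jj, e, hj, he, rfl⟩ := post_ex he'
      simp (disch := decide) only [FE.eval, postSl, passT, passJJ, passE, postG, argE,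
        Mem.set_arr, Mem.set_same, Mem.set_idx, s2, g0, g1, a0, a1, (post_dec jj he).1,
        (post_dec jj he).2]
      refine ((sum_subset (range_subset_range.2 hk.le) fun t _ ht => if_pos ?_).symm.trans
        (sum_congr rfl fun t ht => ?_))
      · rw [mem_range] at ht
        omega
      · rw [mem_range] at ht
        rw [if_neg (by omega), t1 jj hj t (by omega) e he, if_pos (Or.inl ht)]
        rfl
  set m1 := upd m 13 0 (P.b * P.TS) fun e => P.flat (C (e / P.TS)) (e % P.TS) with hm1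
  have I1 : P.RO x y ρ R m1 := hI.upd (by decide) (by decide) _ _ _
  have F1 : Fr m1 sp A := hF.upd (by decide) (by decide) _ _ _
  have b1 : Bd V m1 := hm.upd 13 0 _ hg1
  have u1 : ∀ jj < P.b, ∀ e < P.TS, m1 13 (jj * P.TS + e) = P.flat (C jj) e := fun jj hj e he => by
    rw [hm1, upd_in0 _ _ _ _ (post_lt hj he), (post_dec jj he).1, (post_dec jj he).2]
  have D2 := H2 Pr B V R (P.TS + 7) m1 _ _ (hE.mono (by omega)) b1 I1.Sm
    (by simp (disch := decide) only [FE.eval, postS, postG, hm1, upd_arr, s0, g0]) (by omega) hU hg2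
    fun e' he' => by
      obtain ⟨jj, e, hj, he, rfl⟩ := post_ex he'
      have hJ := fun i => passJ_eval hP ((I1.set6 0 (jj * P.TS + e)).set6 1 i)
        ((F1.set6 0 (jj * P.TS + e)).set6 1 i)
      have u2 := u1 jj hj e he
      simp (disch := decide) only [FE.eval, postD_eval, hJ, passL, passH, postSl, passT, passJJ,
        passE, postG, postS, argE, Mem.set_arr, Mem.set_same, Mem.set_idx, u2,
        (post_dec jj he).1, (post_dec jj he).2]
      simp (disch := decide) only [hm1, upd_arr, s0, s1, s10, s11, s13, g0, g1, a0, a1, a2,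
        (post_dec jj he).1, (post_dec jj he).2, t1 jj hj A.k (Nat.lt_succ_self _) e he,
        lt_irrefl, false_or]
      refine congrArg _ (ite_congr rfl (fun _ => rfl) fun hz => sum_congr rfl fun i hi => ?_)
      rw [t2 hz i (mem_range.1 hi) e he]
      exact if_congr ⟨Nat.eq_of_dist_eq_zero, Nat.dist_eq_zero⟩ rfl rfl
  set m2 := upd m1 14 0 (P.b * P.TS) fun e => P.flat (Y (e / P.TS)) (e % P.TS) with hm2
  have I2 : P.RO x y ρ R m2 := I1.upd (by decide) (by decide) _ _ _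
  have F2 : Fr m2 sp A := F1.upd (by decide) (by decide) _ _ _
  have b2 : Bd V m2 := b1.upd 14 0 _ hg2
  have D3 := H3 P x y ρ Pr B V R sp A m2 C Y hP (hE.mono (by omega)) hV I2 b2 F2 hh hD ha
    (by rw [hm2, upd_arr _ _ _ _ (by decide)]; exact u1)
    (fun jj hj e he => by
      rw [hm2, upd_in0 _ _ _ _ (post_lt hj he), (post_dec jj he).1, (post_dec jj he).2])
    (fun l d i o => (sum_le_sum fun j _ => hCY _ _ _).trans (bY2 l d i o)) bY2
  have b3 := b2.upd 15 0 ((A.a * P.B0 + 1) * (P.B0 + 1)) (g := fun e => P.TN C Y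
    (if (A.h - 1) % P.ell = 0 then 0 else P.b * P.RV) (e / (P.B0 + 1)) (e % (P.B0 + 1)))
    fun e _ => (P.TN_le _ _ _ _ _).trans (by omega)
  have D4 := H4 P x y ρ Pr B V R sp A _
    (P.TN C Y (if (A.h - 1) % P.ell = 0 then 0 else P.b * P.RV)) hP (hE.mono (by omega)) hV
    (I2.upd (arr := 15) (by decide) (by decide) 0 _ _) b3 (F2.upd (by decide) (by decide) _ _ _)
    fun l hl d hd => by
      rw [upd_in0 _ _ _ _ (post_lt (by omega) (by omega)), (post_dec l (by omega)).1,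
        (post_dec l (by omega)).2]
  refine post_fin (fun a i ha => by
      rw [upd_arr _ _ _ _ (by omega), hm2, upd_arr _ _ _ _ (by omega), hm1,
        upd_arr _ _ _ _ (by omega)]) b3 (fun e _ => (P.clo_le_RV _ _ _ _).trans (by omega))
    (fun e _ => ?_) (post_seq hE.hR (post_seq hE.hR (post_seq hE.hR D1 D2) D3) D4)
  rw [Par.GF, if_neg h00, if_pos h0, hPa]
  rfl

end Vale.Agent.P315
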