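import Vale.Agent.P315.Rec
import Vale.Agent.P315.Args
import Vale.Agent.P315.PostLeaf
import Vale.Agent.P315.PostPass
import Vale.Agent.P315.Init

namespace Vale.Agent.P315

open Finset

theorem argE_noRd5 (e : ℕ) : (argE e).noRd 5 = true := rfl

theorem postAll_cost {R K0 K1 k7 ka kb : ℕ} (hR : 1 ≤ R) (TS : ℕ) (hka : ka ≤ K0) (hkb : kb ≤ K1) :
    (TS + 7) * (ka * R ^ ka) + kb * R ^ kb + k7 * R ^ k7 ≤
      (TS + 7) * ((K0 + K1 + k7) * R ^ (K0 + K1 + k7)) := by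
  have a1 := cost_mono hR hka
  have a2 := cost_mono hR hkb
  have a3 := cost_add hR K0 K1
  have a4 := cost_add hR (K0 + K1) k7
  have a5 : (TS + 7) * (ka * R ^ ka + kb * R ^ kb + k7 * R ^ k7) ≤
      (TS + 7) * ((K0 + K1 + k7) * R ^ (K0 + K1 + k7)) :=
    Nat.mul_le_mul_left _ (by omega)
  have a6 : kb * R ^ kb + k7 * R ^ k7 ≤ (TS + 7) * (kb * R ^ kb + k7 * R ^ k7) :=
    Nat.le_mul_of_pos_left _ (by omega)
  have a7 : (TS + 7) * (ka * R ^ ka + kb * R ^ kb + k7 * R ^ k7) =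
      (TS + 7) * (ka * R ^ ka) + (TS + 7) * (kb * R ^ kb + k7 * R ^ k7) := by ring
  omega

theorem postAll_ex : ∃ (post : Cmd) (κ : ℕ), ∀ (P : Par) (x y : List ℕ) (ρ : ℕ → Bool)
    (Pr : List Cmd) (B V R : ℕ), P.Good → Env B V R κ → P.big ≤ V →
    x.length + y.length ≤ P.W → ∀ A, P.ValF A →
    (P.recF x y ρ R).PostAt Pr B V ((P.TS + 7) * (κ * R ^ κ)) post A := by
  obtain ⟨cl, k1, hl⟩ := leaf_ex
  obtain ⟨ca, k2, ha⟩ := avg_ex
  obtain ⟨cp, k3, hp⟩ := pass_ex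
  obtain ⟨cr, k4, hr⟩ := root_ex
  obtain ⟨c1, k5, h1⟩ := ifF_ex (argE 2) (argE_noRd5 2) cl ca
  obtain ⟨c2, k6, h2⟩ := ifF_ex (.sub (argE 0) (.c 1)) rfl cp cr
  obtain ⟨c3, k7, h3⟩ := ifF_ex (argE 0) (argE_noRd5 0) c1 c2
  refine ⟨c3, (k1 + k2 + k3 + k4) + (k5 + k6) + k7, ?_⟩
  intro P x y ρ Pr B V R hP hE hV hW A hA sp m hI hB hF hsp hsl
  have hE1 : Env B V R k1 := hE.mono (by clear * -; omega)
  have hE2 : Env B V R k2 := hE.mono (by clear * -; omega)
  have hE3 : Env B V R k3 := hE.mono (by clear * -; omega)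
  have hE4 : Env B V R k4 := hE.mono (by clear * -; omega)
  have hE5 : Env B V R k5 := hE.mono (by clear * -; omega)
  have hE6 : Env B V R k6 := hE.mono (by clear * -; omega)
  have hE7 : Env B V R k7 := hE.mono (by clear * -; omega)
  have hSm : Sm R m := Par.RO.Sm hI
  have e0 : (argE 0).eval m = A.md := argE_eval hF (by decide)
  have e2 : (argE 2).eval m = A.h := argE_eval hF (by decide)
  have e1 : (FE.sub (argE 0) (.c 1)).eval m = A.md - 1 := by simp only [FE.eval, e0]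
  have hR := hE.hR
  rcases hA with hA0 | hA1 | hA2
  · have hA : P.ValF A := Or.inl hA0
    by_cases hh : A.h = 0
    · obtain ⟨m', d, r⟩ := hl P x y ρ Pr B V R A hP hE1 hV hA hA0.1 hh sp m hI hB hF hsp hsl
      refine ⟨m', ?_, r⟩
      have d1 := h1 Pr B V R m m' _ hE5 hB hSm (fun _ => d) (fun h => absurd (e2.trans hh) h)
      exact (h3 Pr B V R m m' _ hE7 hB hSm (fun _ => d1)
        (fun h => absurd (e0.trans hA0.1) h)).mono
        (postAll_cost hR _ (by clear * -; omega) (by clear * -; omega))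
    · obtain ⟨m', d, r⟩ := ha P x y ρ Pr B V R A hP hE2 hV hA hA0.1 hh sp m hI hB hF hsp hsl
      refine ⟨m', ?_, r⟩
      have d1 := h1 Pr B V R m m' _ hE5 hB hSm
        (fun h => absurd (e2.symm.trans h) hh) (fun _ => d)
      exact (h3 Pr B V R m m' _ hE7 hB hSm (fun _ => d1)
        (fun h => absurd (e0.trans hA0.1) h)).mono
        (postAll_cost hR _ (by clear * -; omega) (by clear * -; omega))
  · have hA : P.ValF A := Or.inr (Or.inl hA1)
    obtain ⟨m', d, r⟩ := hp P x y ρ Pr B V R A hP hE3 hV hA hA1.1 sp m hI hB hF hsp hsl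
    refine ⟨m', ?_, r⟩
    have hm := hA1.1
    have d1 := h2 Pr B V R m m' _ hE6 hB hSm (fun _ => d) (fun h => absurd (by rw [e1, hm]) h)
    exact (h3 Pr B V R m m' _ hE7 hB hSm
      (fun h => absurd (hm.symm.trans (e0.symm.trans h)) one_ne_zero)
      (fun _ => d1)).mono (postAll_cost hR _ (by clear * -; omega) (by clear * -; omega))
  · subst hA2
    obtain ⟨m', d, r⟩ := hr P x y ρ Pr B V R hP hE4 hV hW sp m hI hB hF hsp hsl
    refine ⟨m', ?_, r⟩
    have d1 := h2 Pr B V R m m' _ hE6 hB hSm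
      (fun h => absurd (e1.symm.trans h) (by decide)) (fun _ => d)
    exact (h3 Pr B V R m m' _ hE7 hB hSm
      (fun h => absurd (e0.symm.trans h) (by decide))
      (fun _ => d1)).mono (postAll_cost hR _ (by clear * -; omega) (by clear * -; omega))

/-- The whole program. -/
theorem prog_ex (mm : ℕ) : ∃ (Pr : List Cmd) (κ : ℕ), ∀ (n : ℕ) (x y : List ℕ) (L : ℕ)
    (r : Fin L → Bool) (B V R : ℕ), (par mm n).Good → Env B V R κ →
    (par mm n).big + 2 ≤ V → (par mm n).small ≤ R → 4 * n + 4 ≤ V →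
    (par mm n).pw ≤ Nat.log 2 n → 2 * n ≤ (par mm n).W →
    (par mm n).D * (par mm n).lb ≤ Nat.log 2 n + 1 → (64 * mm + 29) * (Nat.log 2 (Nat.log 2 n)
      / (64 * mm + 40)) ≤ Nat.log 2 n →
    Bd V (input n x y r) → x.length ≤ n → y.length ≤ n →
    ∃ m' t, Exec Pr B (.call 0) (input n x y r) m' t ∧
      t ≤ ((par mm n).callsRoot + 3) * (((par mm n).TS + 7) * (κ * R ^ κ)) + 5 ∧
      m' 4 0 = (par mm n).ans ((par mm n).A (xt x) (xt y) (ext r)) x y := by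
  obtain ⟨ci, k1, hi⟩ := init_ex mm
  obtain ⟨post, k2, hpost⟩ := postAll_ex
  obtain ⟨cntE, subE, n1, n2, n3, hok⟩ := args_ex
  obtain ⟨body, k3, hk23, hrec⟩ := rec_ex cntE subE n1 n2 n3 post k2
  obtain ⟨co, k4, ho⟩ := fillP_ex 4 (by omega) (by omega) (by omega) (.c 0) (.c 1)
    (.rd 12 (.c 0)) rfl rfl rfl rfl
  refine ⟨[.seq ci (.seq (.call 1) co), body], k1 + k3 + k4, ?_⟩
  intro n x y L r B V R hP hE hV hs hn hpw hW hD hK hB hx hy
  have hR := hE.hR
  obtain ⟨m1, d1, hI1, hB1, hF1⟩ := hi n x y L r [.seq ci (.seq (.call 1) co), body] B V R hP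
    (hE.mono (by omega)) (le_trans (Nat.le_add_right _ _) hV) hs hn hpw hW hD hK hB
  clear hi hD hK hpw hs
  generalize par mm n = P at *
  generalize hPr : [Cmd.seq ci (.seq (.call 1) co), body] = Pr at *
  have hPr0 : Pr[0]? = some (Cmd.seq ci (.seq (.call 1) co)) := by rw [← hPr]; rfl
  have hPr1 : Pr[1]? = some body := by rw [← hPr]; rfl
  have hspec := hrec (P.recF x y (ext r) R) Pr B V R (hE.mono (by omega)) hPr1
    (hok P x y (ext r) V R hP hV)
    (hpost P x y (ext r) Pr B V R hP (hE.mono (by omega)) (by omega) (by omega))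
  have hval : P.ValF ⟨2, 0, 0, 0, 0, 0⟩ := Or.inr (Or.inr rfl)
  obtain ⟨m2, d2, hI2, hB2, -, -, -, hG2⟩ := hspec ⟨2, 0, 0, 0, 0, 0⟩ 0 m1 hval hI1 hB1 hF1 (by
    have h1 : (0 + (P.recF x y (ext r) R).rank ⟨2, 0, 0, 0, 0, 0⟩ + 2) *
        ((P.recF x y (ext r) R).STR + 8) ≤ (2 * P.D + 5) * (P.STR + 8) :=
      Nat.mul_le_mul (by simp [Par.recF, Par.rankF]) le_rfl
    have h2 : (2 * P.D + 5) * (P.STR + 8) ≤ P.big := by
      have := Nat.two_pow_pos P.pw
      unfold Par.big; omega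
    omega)
  have hTS : 0 < (P.recF x y (ext r) R).TS := (hok P x y (ext r) V R hP hV).hTS
  have hout : m2 12 0 = P.ans (P.A (xt x) (xt y) (ext r)) x y := by
    rw [hG2 0 hTS]; simp [Par.recF, Par.GF]
  have d3 := ho Pr B V R m2 (fun _ => m2 12 0) 0 1 (hE.mono (by omega)) hB2 (Par.RO.Sm hI2)
    rfl rfl (by have := hE.h2; omega) (fun _ _ => hB2 12 0 (by omega))
    (fun e _ => by simp [FE.eval])
  have d4 := Does.call hPr0 (d1.seq (d2.seq d3))
  obtain ⟨m', t, hx', heq, ht⟩ := d4 _ (Eqv.refl _)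
  refine ⟨m', t, hx', ?_, ?_⟩
  · have hc : (P.recF x y (ext r) R).calls ⟨2, 0, 0, 0, 0, 0⟩ = P.callsRoot := by
      simp [Par.recF, Par.callsF]
    have hU : (P.recF x y (ext r) R).U = P.TS + 7 := rfl
    rw [hc, hU] at ht
    obtain ⟨c, hcdef⟩ : ∃ c, c = (k1 + k3 + k4) * R ^ (k1 + k3 + k4) := ⟨_, rfl⟩
    rw [← hcdef]
    have a1 : (P.TS + 7) * (k1 * R ^ k1) ≤ (P.TS + 7) * c :=
      Nat.mul_le_mul_left _ (hcdef ▸ cost_mono hR (by omega))
    have a2 : P.callsRoot * ((P.TS + 7) * (k3 * R ^ k3)) ≤ P.callsRoot * ((P.TS + 7) * c) :=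
      Nat.mul_le_mul_left _ (Nat.mul_le_mul_left _ (hcdef ▸ cost_mono hR (by omega)))
    have a3 : (1 + 1) * (k4 * R ^ k4) ≤ (P.TS + 7) * c :=
      Nat.mul_le_mul (by omega) (hcdef ▸ cost_mono hR (by omega))
    have a4 : (P.callsRoot + 3) * ((P.TS + 7) * c) =
        P.callsRoot * ((P.TS + 7) * c) + 3 * ((P.TS + 7) * c) := by ring
    omega
  · rw [heq 4 0 (by omega), upd_in0 _ _ _ _ (by omega), hout]

end Vale.Agent.P315
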