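import Vale.Agent.P315.Lang

/-! Interface of the recursion scheme.  Array 8 cell 0: stack pointer `sp`.  Array 9: frames of
8 cells (arguments 0..5, number of subcalls 6, loop counter 7).  Array 10: scratch for the next
frame.  Array 11: result slots, level `sp` owns `[sp*STR, (sp+1)*STR)`.  Array 12: result of a
call.  Arrays 13..16: scratch of the post-processing.  Array 17 cells 0,1: `TS`, `STR`. -/

namespace Vale.Agent.P315

structure Arg where
  md : ℕ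
  k : ℕ
  h : ℕ
  a : ℕ
  j : ℕ
  ad : ℕ

def Arg.get (A : Arg) (e : ℕ) : ℕ := [A.md, A.k, A.h, A.a, A.j, A.ad].getD e 0

/-- The frame at stack level `sp` holds the argument `A`. -/
def Fr (m : Mem) (sp : ℕ) (A : Arg) : Prop := m 8 0 = sp ∧ ∀ e < 6, m 9 (8 * sp + e) = A.get e

/-- Argument number `e` of the current frame. -/
def argE (e : ℕ) : FE := .rd 9 (.add (.mul (.c 8) (.rd 8 (.c 0))) (.c e))

/-- The data of a table-valued recursion. -/
structure Rec where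
  I : Mem → Prop
  Val : Arg → Prop
  cnt : Arg → ℕ
  sub : Arg → ℕ → Arg
  G : Arg → ℕ → ℕ
  rank : Arg → ℕ
  calls : Arg → ℕ
  TS : ℕ
  STR : ℕ
  U : ℕ

/-- `post` computes the table of `A` from the tables of its subcalls. -/
def Rec.PostAt (X : Rec) (P : List Cmd) (B V T : ℕ) (post : Cmd) (A : Arg) : Prop :=
  ∀ (sp : ℕ) (m : Mem), X.I m → Bd V m → Fr m sp A → (sp + 1) * (X.STR + 8) ≤ V →
    (∀ t < X.cnt A, ∀ e < X.TS, m 11 (sp * X.STR + t * X.TS + e) = X.G (X.sub A t) e) →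
    ∃ m', Does P B post m m' T ∧ Bd V m' ∧ (∀ a i, (a < 12 ∨ 16 < a) → m' a i = m a i) ∧
      ∀ e < X.TS, m' 12 e = X.G A e

/-- Side conditions of the recursion scheme. -/
structure Rec.Ok (X : Rec) (V R : ℕ) (cntE subE : FE) : Prop where
  stab : ∀ m m', X.I m → (∀ a i, (a < 4 ∨ a = 7 ∨ 16 < a) → m' a i = m a i) → X.I m'
  par : ∀ m, X.I m → m 17 0 = X.TS ∧ m 17 1 = X.STR ∧ Sm R m
  cntE : ∀ A sp m, X.Val A → X.I m → Fr m sp A → cntE.eval m = X.cnt A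
  subE : ∀ A sp m t, X.Val A → X.I m → Fr m sp A → m 9 (8 * sp + 7) = t → t < X.cnt A →
    ∀ e < 6, subE.eval (m.set 6 0 e) = (X.sub A t).get e
  val : ∀ A t, X.Val A → t < X.cnt A → X.Val (X.sub A t)
  rank : ∀ A t, X.Val A → t < X.cnt A → X.rank (X.sub A t) < X.rank A
  bd : ∀ A, X.Val A → ∀ e, A.get e ≤ V
  cnt : ∀ A, X.Val A → X.cnt A * X.TS ≤ X.STR
  calls : ∀ A, X.Val A → 1 + ∑ t ∈ Finset.range (X.cnt A), X.calls (X.sub A t) ≤ X.calls A
  hTS : 1 ≤ X.TS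
  hU : X.TS + 7 ≤ X.U

/-- Specification of the recursive procedure (procedure number 1). -/
def Rec.Spec (X : Rec) (P : List Cmd) (B V T : ℕ) : Prop :=
  ∀ (A : Arg) (sp : ℕ) (m : Mem), X.Val A → X.I m → Bd V m → Fr m sp A →
    (sp + X.rank A + 2) * (X.STR + 8) ≤ V →
    ∃ m', Does P B (.call 1) m m' (X.calls A * T) ∧ X.I m' ∧ Bd V m' ∧ m' 8 0 = sp ∧
      (∀ i < 8 * sp, m' 9 i = m 9 i) ∧ (∀ i < sp * X.STR, m' 11 i = m 11 i) ∧
      ∀ e < X.TS, m' 12 e = X.G A e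

theorem argE_eval {m : Mem} {sp : ℕ} {A : Arg} (h : Fr m sp A) {e : ℕ} (he : e < 6) :
    (argE e).eval m = A.get e := by
  simp only [argE, FE.eval, h.1]; exact h.2 e he

theorem Fr.set6 {m : Mem} {sp : ℕ} {A : Arg} (h : Fr m sp A) (x v : ℕ) :
    Fr (m.set 6 x v) sp A := by
  unfold Fr at *; simpa using h

theorem Fr.upd {m : Mem} {sp : ℕ} {A : Arg} (h : Fr m sp A) {arr : ℕ} (h8 : arr ≠ 8)
    (h9 : arr ≠ 9) (β σ : ℕ) (g : ℕ → ℕ) : Fr (upd m arr β σ g) sp A := by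
  unfold Fr at *
  rw [upd_arr _ _ _ _ h8.symm, upd_arr _ _ _ _ h9.symm]; exact h

end Vale.Agent.P315
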