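import Vale.Agent.P315.Defs
import Vale.Agent.P315.RecDefs

/-! Memory layout.  Read-only during the recursion: arrays 0..3 (input), 7 (small parameters),
17 (big parameters), 18 (powers of two), 20 (tables `EX`).  Array 19 holds binary logarithms.
Scratch: 13 (tables `C`), 14 (tables `Y`), 15 (table `T` on lines), 16 (leaf programme). -/

namespace Vale.Agent.P315

open Finset

namespace Par

variable (P : Par)

def DW : ℕ := 2 * P.RV + 1
def PW : ℕ := P.W + P.RV + 1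
def TS : ℕ := P.PW * P.DW
def CM : ℕ := P.S + P.b * (P.K + 1) + P.N
def STR : ℕ := P.CM * P.TS
def pw : ℕ := (P.imax + 1) * P.b + (P.ln + 1) * P.ell + P.lb + P.imax + P.s0 + P.wz + 2

/-- Entry `e` of the stored table: `p = e / DW`, `p' = p + e % DW - RV`. -/
def flat (t : Tab) (e : ℕ) : ℕ := t (e / P.DW) (e / P.DW + e % P.DW - P.RV)

def idx (p p' : ℕ) : ℕ := p * P.DW + (p' + P.RV - p)

/-- Content of array 7. -/
def smL : List ℕ :=
  [P.b, P.N, P.K, P.S, P.imax + 1, P.Om, P.Xmax, P.DW, P.B0 + 1, P.lb, P.r, P.RV, P.k0, P.ell,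
    P.D, P.B0, P.ln, P.s0]

/-- Content of array 17. -/
def bgL : List ℕ := [P.TS, P.STR, P.NA, P.W, P.SZ P.ell, P.allow, P.Wz]

def small : ℕ := P.smL.sum

/-- A bound for all numbers that are ever stored (apart from the input symbols). -/
def big : ℕ :=
  (P.D + 1) * P.HS * (P.lb + 1) + (2 * P.D + 5) * (P.STR + 8) + P.Wz +
    (P.W + 1) * (P.B0 + 1) ^ 2 + (P.imax + 1) * (P.Xmax + 1) + P.NA * P.RV + P.allow +
    P.b * P.TS + P.small + P.SZ P.ell + 2 ^ P.pw + P.W + P.NA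

/-- The read-only part of the memory. -/
structure RO (x y : List ℕ) (ρ : ℕ → Bool) (R : ℕ) (m : Mem) : Prop where
  lx : m 0 1 = x.length
  ly : m 0 2 = y.length
  ax : ∀ i, m 1 i = x.getD i 0
  ay : ∀ i, m 2 i = y.getD i 0
  tape : ∀ i, m 3 i = if ρ i then 1 else 0
  sm : ∀ i, m 7 i = P.smL.getD i 0
  bg : ∀ i < 7, m 17 i = P.bgL.getD i 0
  pow : ∀ i ≤ P.pw, m 18 i = 2 ^ i
  ex : ∀ i ≤ P.imax, ∀ u ≤ P.Xmax, m 20 (i * (P.Xmax + 1) + u) = P.EX i u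
  hR : P.small ≤ R

/-- Mode 0: official table, mode 1: pass, mode 2: root. -/
def ValF (A : Arg) : Prop :=
  (A.md = 0 ∧ A.k < P.K ∧ A.h ≤ P.D ∧ A.a < P.b ^ (P.D - A.h) ∧ A.j ≤ P.k0 ∧ A.ad = 0) ∨
  (A.md = 1 ∧ A.k < P.K ∧ 1 ≤ A.h ∧ A.h ≤ P.D ∧ A.a < P.b ^ (P.D - A.h) ∧ 1 ≤ A.j ∧
    A.j ≤ P.k0 ∧ A.ad + P.SZ ((A.h - 1) % P.ell) ≤ (P.D + 1) * P.HS) ∨
  A = ⟨2, 0, 0, 0, 0, 0⟩

def cntF (A : Arg) : ℕ :=
  if A.md = 0 then (if A.h = 0 ∨ A.j = 0 then 0 else P.S)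
  else if A.md = 1 then P.b * (A.k + 1) + (if (A.h - 1) % P.ell = 0 then 0 else P.N)
  else P.K

def subF (ρ : ℕ → Bool) (A : Arg) (t : ℕ) : Arg :=
  if A.md = 0 then ⟨1, A.k, A.h, A.a, A.j, P.base A.h A.k A.a A.j t⟩
  else if A.md = 1 then
    if t < P.b * (A.k + 1) then
      ⟨0, t % (A.k + 1), A.h - 1, A.a * P.b + t / (A.k + 1),
        if t % (A.k + 1) < A.k ∨ (A.h - 1) % P.ell = 0 then P.k0 else A.j - 1, 0⟩
    else
      ⟨1, A.k, A.h - 1,
        A.a * P.b + P.jv ρ (P.sad ((A.h - 1) % P.ell - 1) A.ad (t - P.b * (A.k + 1))), A.j,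
        P.sad ((A.h - 1) % P.ell - 1) A.ad (t - P.b * (A.k + 1)) + P.SZ ((A.h - 1) % P.ell - 1)⟩
  else ⟨0, t, P.D, 0, P.k0, 0⟩

def GF (x y : List ℕ) (ρ : ℕ → Bool) (A : Arg) (e : ℕ) : ℕ :=
  if A.md = 0 then P.flat (P.A (xt x) (xt y) ρ A.h A.k A.a A.j) e
  else if A.md = 1 then P.flat (P.Pa (xt x) (xt y) ρ A.h A.k A.a A.j A.ad) e
  else P.ans (P.A (xt x) (xt y) ρ) x y

def rankF (A : Arg) : ℕ :=
  if A.md = 0 then 2 * A.h + 1 else if A.md = 1 then 2 * A.h else 2 * P.D + 2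

def Gam : ℕ := P.b * (P.K + 1) * (P.S + 1)
def win (h : ℕ) : ℕ := (h + P.ell - 1) / P.ell
def pot (k h j : ℕ) : ℕ := j + (P.k0 + 1) * (k + P.win h)
def callsRoot : ℕ := (P.N + 2) ^ P.D * P.Gam ^ ((P.k0 + 1) * (P.K + P.win P.D + 1) + 1)

def callsF (A : Arg) : ℕ :=
  if A.md = 0 then (P.S + 1) * ((P.N + 2) ^ A.h * P.Gam ^ P.pot A.k A.h A.j)
  else if A.md = 1 then (P.N + 2) ^ A.h * P.Gam ^ P.pot A.k A.h A.j
  else P.callsRoot

def recF (x y : List ℕ) (ρ : ℕ → Bool) (R : ℕ) : Rec where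
  I := P.RO x y ρ R
  Val := P.ValF
  cnt := P.cntF
  sub := P.subF ρ
  G := P.GF x y ρ
  rank := P.rankF
  calls := P.callsF
  TS := P.TS
  STR := P.STR
  U := P.TS + 7

theorem flat_idx (t : Tab) {p p' : ℕ} (h1 : p ≤ p' + P.RV) (h2 : p' ≤ p + P.RV) :
    P.flat t (P.idx p p') = t p p' := by
  have hD : 0 < P.DW := by unfold DW; omega
  have hlt : p' + P.RV - p < P.DW := by unfold DW; omega
  have e1 : P.idx p p' / P.DW = p := by
    unfold idx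
    rw [mul_comm, Nat.mul_add_div hD, Nat.div_eq_of_lt hlt, add_zero]
  have e2 : P.idx p p' % P.DW = p' + P.RV - p := by
    unfold idx
    rw [mul_comm, Nat.mul_add_mod, Nat.mod_eq_of_lt hlt]
  unfold flat
  rw [e1, e2]
  congr 1
  omega

theorem idx_lt {p p' : ℕ} (h0 : p < P.PW) (h2 : p' ≤ p + P.RV) : P.idx p p' < P.TS := by
  have hlt : p' + P.RV - p < P.DW := by unfold DW; omega
  unfold idx TS
  calc p * P.DW + (p' + P.RV - p) < p * P.DW + P.DW := by omega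
    _ = (p + 1) * P.DW := by ring
    _ ≤ P.PW * P.DW := Nat.mul_le_mul_right _ h0

variable {P}

theorem RO.stab {x y : List ℕ} {ρ : ℕ → Bool} {R : ℕ} {m m' : Mem} (h : P.RO x y ρ R m)
    (hm : ∀ a i, (a < 4 ∨ a = 7 ∨ 16 < a) → m' a i = m a i) : P.RO x y ρ R m' where
  lx := by rw [hm 0 1 (by omega)]; exact h.lx
  ly := by rw [hm 0 2 (by omega)]; exact h.ly
  ax := fun i => by rw [hm 1 i (by omega)]; exact h.ax i
  ay := fun i => by rw [hm 2 i (by omega)]; exact h.ay i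
  tape := fun i => by rw [hm 3 i (by omega)]; exact h.tape i
  sm := fun i => by rw [hm 7 i (by omega)]; exact h.sm i
  bg := fun i hi => by rw [hm 17 i (by omega)]; exact h.bg i hi
  pow := fun i hi => by rw [hm 18 i (by omega)]; exact h.pow i hi
  ex := fun i hi u hu => by rw [hm 20 _ (by omega)]; exact h.ex i hi u hu
  hR := h.hR

theorem smL_le (P : Par) (i : ℕ) : P.smL.getD i 0 ≤ P.small := by
  unfold small
  rcases Nat.lt_or_ge i P.smL.length with hi | hi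
  · rw [List.getD_eq_getElem _ _ hi]
    exact List.single_le_sum (fun _ _ => Nat.zero_le _) _ (List.getElem_mem hi)
  · rw [List.getD_eq_default _ _ hi]; exact Nat.zero_le _

theorem RO.Sm {x y : List ℕ} {ρ : ℕ → Bool} {R : ℕ} {m : Mem} (h : P.RO x y ρ R m) : Sm R m :=
  fun r => by rw [h.sm]; exact (P.smL_le r).trans h.hR

theorem RO.set6 {x y : List ℕ} {ρ : ℕ → Bool} {R : ℕ} {m : Mem} (h : P.RO x y ρ R m) (i v : ℕ) :
    P.RO x y ρ R (m.set 6 i v) :=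
  h.stab fun a _ ha => by rw [Mem.set_arr _ _ _ (by omega)]

theorem RO.upd {x y : List ℕ} {ρ : ℕ → Bool} {R : ℕ} {m : Mem} (h : P.RO x y ρ R m) {arr : ℕ}
    (h1 : 8 ≤ arr) (h2 : arr ≤ 16) (β σ : ℕ) (g : ℕ → ℕ) : P.RO x y ρ R (upd m arr β σ g) :=
  h.stab fun a _ ha => by rw [upd_arr _ _ _ _ (by omega)]

end Par

/-- The actual parameters for input size `n`; `mm` depends on the target exponent only. -/
def par (mm n : ℕ) : Par :=
  let lg := Nat.log 2 n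
  let ζ := Nat.log 2 lg / (64 * mm + 40)
  let lb := 16 * mm * ζ
  let D := (lg + 1 - 2 * 2 ^ ζ) / lb
  let β0 := lg + 2 - D * lb
  let imax := β0 + lb + 1
  let s0 := 12 + lb + 6 * ζ
  { ln := 16 * ζ, lb := lb, B0 := 2 ^ β0, imax := imax, s0 := s0,
    K := 2 ^ ((64 * mm + 29) * ζ), S := 32 * lg * (8 * 2 ^ imax) ^ 2, k0 := imax + 3,
    ell := 2 ^ (3 * ζ), D := D, wz := (imax + 1) * 2 ^ lb + 2 * (imax + s0) + 1 }

end Vale.Agent.P315
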