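import Vale.Agent.P315.Fill
import Vale.Agent.P315.RecDefs

namespace Vale.Agent.P315

open Finset

/-- Specification of a single store. -/
def recSt (P : List Cmd) (B V R K : ℕ) (c : Cmd) (arr : ℕ) (base val : FE) : Prop :=
  ∀ (m : Mem) (β v : ℕ), Bd V m → Sm R m → base.eval m = β → β + 1 ≤ V → v ≤ V →
    val.eval (m.set 6 0 0) = v → Does P B c m (m.set arr β v) (2 * K)

/-- Specification of a parallel fill. -/
def recFl (P : List Cmd) (B V R K : ℕ) (c : Cmd) (arr : ℕ) (base size body : FE) : Prop :=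
  ∀ (m : Mem) (g : ℕ → ℕ) (β σ : ℕ), Bd V m → Sm R m → base.eval m = β → size.eval m = σ →
    β + σ ≤ V → (∀ e < σ, g e ≤ V) → (∀ e < σ, body.eval (m.set 6 0 e) = g e) →
    Does P B c m (upd m arr β σ g) ((σ + 1) * K)

theorem rec_st_ex (arr : ℕ) (h5 : arr ≠ 5) (h6 : arr ≠ 6) (h7 : arr ≠ 7) (base val : FE)
    (hb : base.noRd 5 = true) (hy : val.noRd 5 = true) :
    ∃ (c : Cmd) (κ : ℕ), ∀ P B V R k, κ ≤ k → Env B V R k →
      recSt P B V R (k * R ^ k) c arr base val := by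
  obtain ⟨c, κ, H⟩ := fill_ex arr h5 h6 base (.c 1) val hb rfl hy
  refine ⟨c, κ, fun P B V R k hk hE m β v hm hR hβ hV hv hval => ?_⟩
  have h := H P B V R m (fun _ => v) β 1 (hE.mono hk) hm hR hβ rfl hV (fun _ _ => hv)
    (fun h => absurd h h7) fun e he => by
      obtain rfl : e = 0 := by omega
      have h0 : upd m arr β 0 (fun _ => v) = m :=
        funext fun a => funext fun i => upd_out _ _ _ _ _ _ (by omega)
      rw [h0, hval]
  refine (h.mono (Nat.mul_le_mul_left 2 (cost_mono hE.hR hk))).congr (Eqv.refl _) fun a i _ => ?_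
  rw [Mem.set_apply]
  exact if_congr (by omega) rfl rfl

theorem rec_fl_ex (arr : ℕ) (h5 : arr ≠ 5) (h6 : arr ≠ 6) (h7 : arr ≠ 7) (base size body : FE)
    (hb : base.noRd 5 = true) (hs : size.noRd 5 = true) (hy : body.noRd 5 = true)
    (hp : body.noRd arr = true) :
    ∃ (c : Cmd) (κ : ℕ), ∀ P B V R k, κ ≤ k → Env B V R k →
      recFl P B V R (k * R ^ k) c arr base size body := by
  obtain ⟨c, κ, H⟩ := fillP_ex arr h5 h6 h7 base size body hb hs hy hp
  exact ⟨c, κ, fun P B V R k hk hE m g β σ hm hR hβ hσ hV hg hbody =>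
    (H P B V R m g β σ (hE.mono hk) hm hR hβ hσ hV hg hbody).mono
      (Nat.mul_le_mul_left _ (cost_mono hE.hR hk))⟩

/-- Address of cell `e` of the current frame. -/
def recAd (e : ℕ) : FE := .add (.mul (.c 8) (.rd 8 (.c 0))) (.c e)

/-- Loop test: number of subcalls minus loop counter. -/
def recTest : Expr :=
  .sub (.rd 9 (.add (.mul (.const 8) (.rd 8 (.const 0))) (.const 6)))
    (.rd 9 (.add (.mul (.const 8) (.rd 8 (.const 0))) (.const 7)))

theorem rec_test {B V sp a b : ℕ} {m m0 : Mem} (h : Eqv m0 m) (hm : Bd V m) (hV : V < B)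
    (h8 : m 8 0 = sp) (ha : m 9 (8 * sp + 6) = a) (hb : m 9 (8 * sp + 7) = b)
    (hsp : 8 * sp + 8 ≤ V) : recTest.Fits B m0 ∧ recTest.eval m0 = a - b := by
  have h1 := hm 9 (8 * sp + 6) (by decide)
  have h2 := hm 9 (8 * sp + 7) (by decide)
  rw [← h 8 0 (by decide)] at h8
  rw [← h 9 _ (by decide)] at ha hb h1 h2
  simp only [recTest, Expr.Fits, Expr.eval, h8, ha, hb, and_true] at h1 h2 ⊢
  omega

/-- Loop invariant of the procedure body. -/
structure RecInv (X : Rec) (V : ℕ) (m : Mem) (sp : ℕ) (A : Arg) (t : ℕ) (w : Mem) : Prop where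
  hI : X.I w
  bd : Bd V w
  fr : Fr w sp A
  c6 : w 9 (8 * sp + 6) = X.cnt A
  c7 : w 9 (8 * sp + 7) = t
  lo9 : ∀ i < 8 * sp, w 9 i = m 9 i
  lo11 : ∀ i < sp * X.STR, w 11 i = m 11 i
  slot : ∀ t' < t, ∀ e < X.TS, w 11 (sp * X.STR + t' * X.TS + e) = X.G (X.sub A t') e

/-- Result of a call, with slack `o` in the cost. -/
def recRes (X : Rec) (P : List Cmd) (B V o c : ℕ) (A : Arg) : Prop :=
  ∀ (sp : ℕ) (m : Mem), X.Val A → X.I m → Bd V m → Fr m sp A →
    (sp + X.rank A + 2) * (X.STR + 8) ≤ V →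
    ∃ m' T, Does P B (.call 1) m m' T ∧ T + o ≤ X.calls A * c ∧ X.I m' ∧ Bd V m' ∧ m' 8 0 = sp ∧
      (∀ i < 8 * sp, m' 9 i = m 9 i) ∧ (∀ i < sp * X.STR, m' 11 i = m 11 i) ∧
      ∀ e < X.TS, m' 12 e = X.G A e

theorem rec_step {X : Rec} {P : List Cmd} {B V R K o c : ℕ} {cntE subE : FE}
    (ok : X.Ok V R cntE subE) {c3 c4 c5 c6 c7 c8 : Cmd}
    (H3 : recFl P B V R K c3 10 (.c 0) (.c 6) subE)
    (H4 : recFl P B V R K c4 9 (recAd 8) (.c 6) (.rd 10 (.v 0)))
    (H5 : recSt P B V R K c5 8 (.c 0) (.add (.rd 8 (.c 0)) (.c 1)))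
    (H6 : recSt P B V R K c6 8 (.c 0) (.sub (.rd 8 (.c 0)) (.c 1)))
    (H7 : recFl P B V R K c7 11 (.add (.mul (.rd 8 (.c 0)) (.rd 17 (.c 1)))
      (.mul (.rd 9 (recAd 7)) (.rd 17 (.c 0)))) (.rd 17 (.c 0)) (.rd 12 (.v 0)))
    (H8 : recSt P B V R K c8 9 (recAd 7) (.add (.rd 9 (recAd 7)) (.c 1)))
    {A : Arg} {sp t : ℕ} {m w : Mem} (hA : X.Val A) (hV : (sp + X.rank A + 2) * (X.STR + 8) ≤ V)
    (ht : t < X.cnt A) (ih : recRes X P B V o c (X.sub A t)) (h : RecInv X V m sp A t w) :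
    ∃ w' T, Does P B (.seq c3 (.seq c4 (.seq c5 (.seq (.call 1) (.seq c6 (.seq c7 c8)))))) w w' T ∧
      T + o ≤ X.calls (X.sub A t) * c + (6 + 20 * K + (X.TS + 1) * K) ∧
      RecInv X V m sp A (t + 1) w' := by
  have hv := ok.val A t hA ht
  have hrk := ok.rank A t hA ht
  have hg : ∀ e < 6, (X.sub A t).get e ≤ V := fun e _ => ok.bd _ hv e
  have hV1 : (sp + 2) * (X.STR + 8) ≤ V := le_trans (Nat.mul_le_mul_right _ (by omega)) hV
  have hV2 : (sp + 1 + X.rank (X.sub A t) + 2) * (X.STR + 8) ≤ V :=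
    le_trans (Nat.mul_le_mul_right _ (by omega)) hV
  have hc := ok.cnt A hA
  have hc1 : (t + 1) * X.TS ≤ X.cnt A * X.TS := Nat.mul_le_mul_right _ ht
  have hc2 : (t + 1) * 1 ≤ (t + 1) * X.TS := Nat.mul_le_mul_left _ ok.hTS
  simp only [add_mul, mul_add, one_mul, mul_one] at hV1 hc1 hc2
  have sm : ∀ w, X.I w → Sm R w := fun w hw => (ok.par w hw).2.2
  have D3 := H3 w _ 0 6 h.bd (sm w h.hI) rfl rfl (by omega) hg
    (ok.subE A sp w t hA h.hI h.fr h.c7 ht)
  set w1 := upd w 10 0 6 (X.sub A t).get with hw1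
  have I1 : X.I w1 := ok.stab _ _ h.hI fun a i ha => by rw [hw1, upd_arr _ _ _ _ (by omega)]
  have b1 : Bd V w1 := h.bd.upd _ _ _ hg
  have a1 : w1 8 0 = sp := by rw [hw1, upd_arr _ _ _ _ (by decide), h.fr.1]
  have D4 := H4 w1 (X.sub A t).get (8 * sp + 8) 6 b1 (sm _ I1) (by simp only [recAd, FE.eval, a1])
    rfl (by omega) hg fun e he => by
      simp only [FE.eval, Mem.set_same]
      rw [Mem.set_arr _ _ _ (by decide), hw1, upd_in0 _ _ _ _ he]
  set w2 := upd w1 9 (8 * sp + 8) 6 (X.sub A t).get with hw2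
  have I2 : X.I w2 := ok.stab _ _ I1 fun a i ha => by rw [hw2, upd_arr _ _ _ _ (by omega)]
  have b2 : Bd V w2 := b1.upd _ _ _ hg
  have a2 : w2 8 0 = sp := by rw [hw2, upd_arr _ _ _ _ (by decide), a1]
  have D5 := H5 w2 0 (sp + 1) b2 (sm _ I2) rfl (by omega) (by omega) (by
    simp only [FE.eval]
    rw [Mem.set_arr _ _ _ (by decide), a2])
  set w3 := w2.set 8 0 (sp + 1) with hw3
  obtain ⟨w4, T, D, hT, I4, b4, a4, l9, l11, r12⟩ := ih (sp + 1) w3 hv
    (ok.stab _ _ I2 fun a i ha => by rw [hw3, Mem.set_arr _ _ _ (by omega)])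
    (fill_bd_set b2 _ _ (by omega))
    ⟨Mem.set_same _ _ _ _, fun e he => by
      rw [hw3, Mem.set_arr _ _ _ (by decide), hw2, mul_add, mul_one, upd_in _ _ _ _ _ he]⟩ hV2
  have D6 := H6 w4 0 sp b4 (sm _ I4) rfl (by omega) (by omega) (by
    simp only [FE.eval]
    rw [Mem.set_arr _ _ _ (by decide), a4, Nat.add_sub_cancel])
  set w5 := w4.set 8 0 sp with hw5
  have I5 : X.I w5 := ok.stab _ _ I4 fun a i ha => by rw [hw5, Mem.set_arr _ _ _ (by omega)]
  have b5 : Bd V w5 := fill_bd_set b4 _ _ (by omega)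
  have a5 : w5 8 0 = sp := Mem.set_same _ _ _ _
  have k9 : ∀ i < 8 * sp + 8, w5 9 i = w 9 i := fun i hi => by
    rw [hw5, Mem.set_arr _ _ _ (by decide), l9 i (by omega), hw3, Mem.set_arr _ _ _ (by decide),
      hw2, upd_out _ _ _ _ _ _ (Or.inl hi), hw1, upd_arr _ _ _ _ (by decide)]
  have k11 : ∀ i < sp * X.STR + X.STR, w5 11 i = w 11 i := fun i hi => by
    rw [hw5, Mem.set_arr _ _ _ (by decide), l11 i (by rwa [add_mul, one_mul]), hw3,
      Mem.set_arr _ _ _ (by decide), hw2, upd_arr _ _ _ _ (by decide), hw1,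
      upd_arr _ _ _ _ (by decide)]
  have c5 : w5 9 (8 * sp + 7) = t := (k9 _ (by omega)).trans h.c7
  obtain ⟨p0, p1, -⟩ := ok.par w5 I5
  have hG : ∀ e < X.TS, X.G (X.sub A t) e ≤ V := fun e he => r12 e he ▸ b4 12 e (by decide)
  have D7 := H7 w5 (X.G (X.sub A t)) (sp * X.STR + t * X.TS) X.TS b5 (sm _ I5)
    (by simp only [recAd, FE.eval, a5, c5, p0, p1]) p0 (by omega) hG fun e he => by
      simp only [FE.eval, Mem.set_same]
      rw [Mem.set_arr _ _ _ (by decide), hw5, Mem.set_arr _ _ _ (by decide), r12 e he]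
  set w6 := upd w5 11 (sp * X.STR + t * X.TS) X.TS (X.G (X.sub A t)) with hw6
  have I6 : X.I w6 := ok.stab _ _ I5 fun a i ha => by rw [hw6, upd_arr _ _ _ _ (by omega)]
  have b6 : Bd V w6 := b5.upd _ _ _ hG
  have a6 : w6 8 = w5 8 := upd_arr _ _ _ _ (by decide)
  have a9 : w6 9 = w5 9 := upd_arr _ _ _ _ (by decide)
  have D8 := H8 w6 (8 * sp + 7) (t + 1) b6 (sm _ I6) (by simp only [recAd, FE.eval, a6, a5])
    (by omega) (by omega) (by
      simp only [recAd, FE.eval]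
      rw [Mem.set_arr _ _ _ (by decide), Mem.set_arr _ _ _ (by decide), a6, a5, a9, c5])
  have j9 : ∀ i < 8 * sp + 7, w6.set 9 (8 * sp + 7) (t + 1) 9 i = w 9 i := fun i hi => by
    rw [Mem.set_idx _ _ _ hi.ne, a9, k9 i (by omega)]
  refine ⟨w6.set 9 (8 * sp + 7) (t + 1), _,
    D3.seq (D4.seq (D5.seq (D.seq (D6.seq (D7.seq D8))))), by omega,
    ok.stab _ _ I6 fun a i ha => by rw [Mem.set_arr _ _ _ (by omega)],
    fill_bd_set b6 _ _ (by omega),
    ⟨by rw [Mem.set_arr _ _ _ (by decide), a6, a5],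
      fun e he => (j9 _ (by omega)).trans (h.fr.2 e he)⟩,
    (j9 _ (by omega)).trans h.c6, Mem.set_same _ _ _ _,
    fun i hi => (j9 _ (by omega)).trans (h.lo9 i hi), fun i hi => ?_, fun t' ht' e he => ?_⟩
  · rw [Mem.set_arr _ _ _ (by decide), hw6, upd_out _ _ _ _ _ _ (by omega), k11 i (by omega),
      h.lo11 i hi]
  · rw [Mem.set_arr _ _ _ (by decide), hw6]
    rcases Nat.lt_succ_iff_lt_or_eq.1 ht' with h1 | rfl
    · have h2 : (t' + 1) * X.TS ≤ t * X.TS := Nat.mul_le_mul_right _ h1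
      rw [add_mul, one_mul] at h2
      rw [upd_out _ _ _ _ _ _ (by omega), k11 _ (by omega), h.slot t' h1 e he]
    · exact upd_in _ _ _ _ _ he

theorem rec_loop {X : Rec} {P : List Cmd} {B V c : ℕ} {lb : Cmd} {A : Arg} {sp : ℕ} {m : Mem}
    (hB : V < B) (hsp : 8 * sp + 8 ≤ V)
    (H : ∀ t w, t < X.cnt A → RecInv X V m sp A t w → ∃ w' T, Does P B lb w w' T ∧
      T + 16 ≤ X.calls (X.sub A t) * c ∧ RecInv X V m sp A (t + 1) w') (n : ℕ) :
    ∀ t w, t + n = X.cnt A → RecInv X V m sp A t w → ∃ w' T, Does P B (.loop recTest lb) w w' T ∧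
      T + (∑ i ∈ range t, X.calls (X.sub A i)) * c ≤
        (∑ i ∈ range (X.cnt A), X.calls (X.sub A i)) * c + 16 ∧
      RecInv X V m sp A (X.cnt A) w' := by
  induction n with
  | zero =>
    intro t w ht h
    obtain rfl : t = X.cnt A := by omega
    refine ⟨w, 16, fun m0 h0 => ?_, by omega, h⟩
    obtain ⟨h1, h2⟩ := rec_test h0 h.bd hB h.fr.1 h.c6 h.c7 hsp
    exact ⟨m0, _, Exec.loopdone h1 (by omega), h0, le_rfl⟩
  | succ n ih =>
    intro t w ht h
    obtain ⟨w1, T1, D1, b1, h1⟩ := H t w (by omega) h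
    obtain ⟨w2, T2, D2, b2, h2⟩ := ih (t + 1) w1 (by omega) h1
    rw [sum_range_succ, add_mul] at b2
    refine ⟨w2, 15 + T1 + T2 + 1, fun m0 h0 => ?_, by omega, h2⟩
    obtain ⟨h3, h4⟩ := rec_test h0 h.bd hB h.fr.1 h.c6 h.c7 hsp
    obtain ⟨m1, t1, e1, q1, d1⟩ := D1 m0 h0
    obtain ⟨m2, t2, e2, q2, d2⟩ := D2 m1 q1
    refine ⟨m2, _, Exec.loopstep h3 (by omega) e1 e2, q2, ?_⟩
    show 15 + _ + _ + 1 ≤ _
    omega

/-- The recursion scheme: compute `cnt`, make the subcalls one after the other, copy each result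
to its slot, then run `post`. -/
theorem rec_ex (cntE subE : FE) (h1 : cntE.noRd 5 = true) (h2 : subE.noRd 5 = true)
    (h3 : subE.noRd 10 = true) (post : Cmd) (κ₀ : ℕ) :
    ∃ (body : Cmd) (κ : ℕ), κ₀ ≤ κ ∧ ∀ (X : Rec) (P : List Cmd) (B V R : ℕ),
      Env B V R κ → P[1]? = some body → X.Ok V R cntE subE →
      (∀ A, X.Val A → X.PostAt P B V (X.U * (κ₀ * R ^ κ₀)) post A) →
      X.Spec P B V (X.U * (κ * R ^ κ)) := by
  obtain ⟨c1, k1, H1⟩ := rec_st_ex 9 (by decide) (by decide) (by decide) (recAd 6) cntE rfl h1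
  obtain ⟨c2, k2, H2⟩ := rec_st_ex 9 (by decide) (by decide) (by decide) (recAd 7) (.c 0) rfl rfl
  obtain ⟨c3, k3, H3⟩ := rec_fl_ex 10 (by decide) (by decide) (by decide) (.c 0) (.c 6) subE
    rfl rfl h2 h3
  obtain ⟨c4, k4, H4⟩ := rec_fl_ex 9 (by decide) (by decide) (by decide) (recAd 8) (.c 6)
    (.rd 10 (.v 0)) rfl rfl rfl rfl
  obtain ⟨c5, k5, H5⟩ := rec_st_ex 8 (by decide) (by decide) (by decide) (.c 0)
    (.add (.rd 8 (.c 0)) (.c 1)) rfl rfl
  obtain ⟨c6, k6, H6⟩ := rec_st_ex 8 (by decide) (by decide) (by decide) (.c 0)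
    (.sub (.rd 8 (.c 0)) (.c 1)) rfl rfl
  obtain ⟨c7, k7, H7⟩ := rec_fl_ex 11 (by decide) (by decide) (by decide)
    (.add (.mul (.rd 8 (.c 0)) (.rd 17 (.c 1))) (.mul (.rd 9 (recAd 7)) (.rd 17 (.c 0))))
    (.rd 17 (.c 0)) (.rd 12 (.v 0)) rfl rfl rfl rfl
  obtain ⟨c8, k8, H8⟩ := rec_st_ex 9 (by decide) (by decide) (by decide) (recAd 7)
    (.add (.rd 9 (recAd 7)) (.c 1)) rfl rfl
  obtain ⟨k, hk⟩ : ∃ k, k = k1 + k2 + k3 + k4 + k5 + k6 + k7 + k8 + κ₀ + 22 := ⟨_, rfl⟩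
  refine ⟨.seq c1 (.seq c2 (.seq (.loop recTest (.seq c3 (.seq c4 (.seq c5 (.seq (.call 1)
    (.seq c6 (.seq c7 c8))))))) post)), 6 * k, by omega, fun X P B V R hE hP ok hpost => ?_⟩
  have hE' : Env B V R k := hE.mono (by omega)
  have hB := fill_lt hE' (by omega)
  have hK0 := Nat.mul_le_mul_left X.U (cost_mono hE.hR (show κ₀ ≤ k by omega))
  have hK1 := (fill_le hE.hR 22).trans (cost_mono hE.hR (show 22 ≤ k by omega))
  have hK2 : X.U * (6 * (k * R ^ k)) ≤ X.U * (6 * k * R ^ (6 * k)) := Nat.mul_le_mul_left _ (by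
    rw [← mul_assoc]
    exact Nat.mul_le_mul_left _ (Nat.pow_le_pow_right hE.hR (by omega)))
  replace H1 := H1 P B V R k (by omega) hE'
  replace H2 := H2 P B V R k (by omega) hE'
  replace H3 := H3 P B V R k (by omega) hE'
  replace H4 := H4 P B V R k (by omega) hE'
  replace H5 := H5 P B V R k (by omega) hE'
  replace H6 := H6 P B V R k (by omega) hE'
  replace H7 := H7 P B V R k (by omega) hE'
  replace H8 := H8 P B V R k (by omega) hE'
  generalize k * R ^ k = K at *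
  generalize X.U * (6 * k * R ^ (6 * k)) = c at *
  have hU1 : (X.TS + 1) * K ≤ X.U * K := Nat.mul_le_mul_right _ (by have := ok.hU; omega)
  have hU2 : 8 * K ≤ X.U * K := Nat.mul_le_mul_right _ (by have := ok.hU; have := ok.hTS; omega)
  rw [mul_left_comm] at hK2
  have main : ∀ r A, X.rank A = r → recRes X P B V (22 + 20 * K + (X.TS + 1) * K) c A := by
    intro r
    induction r using Nat.strong_induction_on with
    | _ r ih =>
      intro A hr sp m hA hI hm hF hV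
      have hV1 : (sp + 2) * (X.STR + 8) ≤ V := le_trans (Nat.mul_le_mul_right _ (by omega)) hV
      have hV2 : (sp + 1) * (X.STR + 8) ≤ V := le_trans (Nat.mul_le_mul_right _ (by omega)) hV
      have hc := ok.cnt A hA
      have hc2 : X.cnt A * 1 ≤ X.cnt A * X.TS := Nat.mul_le_mul_left _ ok.hTS
      simp only [add_mul, mul_add] at hV1
      have D1 := H1 m (8 * sp + 6) (X.cnt A) hm (ok.par m hI).2.2
        (by simp only [recAd, FE.eval, hF.1]) (by omega) (by omega)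
        (ok.cntE A sp _ hA (ok.stab _ _ hI fun a i ha => by rw [Mem.set_arr _ _ _ (by omega)])
          (hF.set6 0 0))
      set w1 := m.set 9 (8 * sp + 6) (X.cnt A) with hw1
      have I1 : X.I w1 := ok.stab _ _ hI fun a i ha => by rw [hw1, Mem.set_arr _ _ _ (by omega)]
      have b1 : Bd V w1 := fill_bd_set hm _ _ (by omega)
      have a1 : w1 8 0 = sp := by rw [hw1, Mem.set_arr _ _ _ (by decide), hF.1]
      have D2 := H2 w1 (8 * sp + 7) 0 b1 (ok.par _ I1).2.2 (by simp only [recAd, FE.eval, a1])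
        (by omega) (by omega) rfl
      have j9 : ∀ i < 8 * sp + 6, w1.set 9 (8 * sp + 7) 0 9 i = m 9 i := fun i hi => by
        rw [Mem.set_idx _ _ _ (by omega), hw1, Mem.set_idx _ _ _ hi.ne]
      obtain ⟨w, T, D3, hT, h⟩ := rec_loop (X := X) (P := P) (c := c) (A := A) (m := m)
        hB (by omega) (fun t w ht h => by
          obtain ⟨w', T, D, hT, h'⟩ := rec_step ok H3 H4 H5 H6 H7 H8 hA hV ht
            (ih _ (hr ▸ ok.rank A t hA ht) _ rfl) h
          exact ⟨w', T, D, by omega, h'⟩) (X.cnt A) 0 (w1.set 9 (8 * sp + 7) 0) (zero_add _)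
        ⟨ok.stab _ _ I1 fun a i ha => by rw [Mem.set_arr _ _ _ (by omega)],
          fill_bd_set b1 _ _ (by omega),
          ⟨by rw [Mem.set_arr _ _ _ (by decide), a1],
            fun e he => (j9 _ (by omega)).trans (hF.2 e he)⟩,
          by rw [Mem.set_idx _ _ _ (by omega), hw1, Mem.set_same], Mem.set_same _ _ _ _,
          fun i hi => j9 i (by omega),
          fun i _ => by rw [Mem.set_arr _ _ _ (by decide), hw1, Mem.set_arr _ _ _ (by decide)],
          fun _ ht => absurd ht (Nat.not_lt_zero _)⟩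
      obtain ⟨m', D4, b4, u4, r4⟩ := hpost A hA sp w h.hI h.bd h.fr hV2 h.slot
      have hcalls := Nat.mul_le_mul_right c (ok.calls A hA)
      rw [add_mul, one_mul] at hcalls
      rw [sum_range_zero, zero_mul] at hT
      exact ⟨m', _, Does.call hP (D1.seq (D2.seq (D3.seq D4))), by omega,
        ok.stab _ _ h.hI fun a i ha => u4 a i (by omega), b4, (u4 8 0 (by omega)).trans h.fr.1,
        fun i hi => (u4 9 i (by omega)).trans (h.lo9 i hi),
        fun i hi => (u4 11 i (by omega)).trans (h.lo11 i hi), r4⟩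
  intro A sp m hA hI hm hF hV
  obtain ⟨m', T, D, hT, h⟩ := main _ A rfl sp m hA hI hm hF hV
  exact ⟨m', D.mono (by omega), h⟩

end Vale.Agent.P315
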