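import Vale.Agent.P315.Soft

namespace Vale.Agent.P315

open Finset

theorem step_digits {M : ℕ} (n : ℕ) (dig : ℕ → ℕ) (h : ∀ j, dig j < M) :
    ∃ o < M ^ n, ∀ j < n, o / M ^ j % M = dig j := by
  induction n generalizing dig with
  | zero => exact ⟨0, by simp, by simp⟩
  | succ n ih =>
    obtain ⟨o, ho, hd⟩ := ih (fun j => dig (j + 1)) (fun j => h _)
    have h0 := h 0
    refine ⟨dig 0 + M * o, ?_, fun j hj => ?_⟩
    · have : M * (o + 1) ≤ M * M ^ n := Nat.mul_le_mul_left _ ho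
      rw [pow_succ']
      rw [mul_add] at this
      omega
    · cases j with
      | zero => simp [Nat.mod_eq_of_lt h0]
      | succ j =>
        rw [pow_succ', ← Nat.div_div_eq_div_mul, Nat.add_mul_div_left _ _ (by omega),
          Nat.div_eq_of_lt h0, zero_add]
        exact hd j (by omega)

theorem step_fold_le {α : Type} (s : Finset α) (b : ℝ) {f g : α → ℝ} {c : ℝ} (hc : 0 ≤ c)
    (h : ∀ x ∈ s, f x ≤ g x + c ∨ b ≤ g x) : s.fold min b f ≤ s.fold min b g + c := by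
  have hb : s.fold min b f ≤ b := (fold_min_le _).2 (Or.inl le_rfl)
  rcases (fold_min_le (s := s) (b := b) (f := g) _).1 le_rfl with h1 | ⟨x, hx, h1⟩
  · linarith
  · rcases h x hx with h2 | h2
    · have : s.fold min b f ≤ f x := (fold_min_le _).2 (Or.inr ⟨x, hx, le_rfl⟩)
      linarith
    · linarith

theorem step_fold_abs {α : Type} (s : Finset α) (b : ℝ) {f g : α → ℝ} {c : ℝ} (hc : 0 ≤ c)
    (h : ∀ x ∈ s, |f x - g x| ≤ c ∨ (b ≤ f x ∧ b ≤ g x)) :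
    |s.fold min b f - s.fold min b g| ≤ c := by
  have h1 := step_fold_le s b (f := f) (g := g) hc fun x hx =>
    (h x hx).imp (fun h => by linarith [(abs_le.1 h).2]) (fun h => h.2)
  have h2 := step_fold_le s b (f := g) (g := f) hc fun x hx =>
    (h x hx).imp (fun h => by linarith [(abs_le.1 h).1]) (fun h => h.1)
  rw [abs_le]; constructor <;> linarith

theorem step_fold_cast {α : Type} (s : Finset α) (b : ℕ) (f : α → ℕ) :
    ((s.fold min b f : ℕ) : ℝ) = s.fold min (b : ℝ) (fun x => (f x : ℝ)) :=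
  (fold_hom (op := min) (op' := min) (m := fun n : ℕ => (n : ℝ)) fun _ _ => Nat.cast_min _ _).symm

theorem step_round {b F1 F2 off : ℕ} (hb : 4 ≤ b) {x : ℝ} (h : |(F1 : ℝ) - F2 - off - x| ≤ 4) :
    |(((F1 - F2 - off) / b : ℕ) : ℝ) - max 0 (x / b)| ≤ 2 := by
  have hb' : (4 : ℝ) ≤ b := by exact_mod_cast hb
  have hb0 : (0 : ℝ) < b := by linarith
  have h1 : ((F1 - F2 - off : ℕ) : ℝ) = max 0 ((F1 : ℝ) - F2 - off) := by
    rcases le_total (F2 + off) F1 with h2 | h2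
    · have h3 : ((F2 + off : ℕ) : ℝ) ≤ F1 := by exact_mod_cast h2
      push_cast at h3
      rw [Nat.sub_sub, Nat.cast_sub h2, max_eq_right (by linarith)]
      push_cast; ring
    · have h3 : (F1 : ℝ) ≤ ((F2 + off : ℕ) : ℝ) := by exact_mod_cast h2
      push_cast at h3
      rw [Nat.sub_sub, Nat.sub_eq_zero_of_le h2, max_eq_left (by linarith), Nat.cast_zero]
  have h2 : |((F1 - F2 - off : ℕ) : ℝ) - max 0 x| ≤ 4 := by
    rw [h1]; exact (abs_max_sub_max_le_max _ _ _ _).trans (by simpa using h)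
  generalize F1 - F2 - off = n at h2
  have h3 : max 0 (x / b) = max 0 x / b := by rw [← max_div_div_right hb0.le, zero_div]
  have h4 : ((n / b : ℕ) : ℝ) * b ≤ n := by exact_mod_cast Nat.div_mul_le_self n b
  have h5 : (n : ℝ) ≤ ((n / b : ℕ) : ℝ) * b + b := by
    exact_mod_cast (Nat.lt_div_mul_add (by omega : 0 < b)).le
  obtain ⟨h6, h7⟩ := abs_le.1 h2
  rw [h3, abs_le, le_sub_comm, sub_le_comm, div_le_iff₀ hb0, le_div_iff₀ hb0]
  constructor <;> nlinarith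

namespace Par

variable {P : Par}

theorem step_mem (P : Par) (a : ℕ) (x : ℕ × ℕ) : x ∈ P.lines a ↔ x.1 ≤ a * P.B0 ∧ x.2 ≤ P.B0 := by
  simp [lines]

theorem step_b_pos (P : Par) : 0 < P.b := by unfold b; positivity

theorem q_near (P : Par) (l d i o j : ℕ) : Nat.dist (P.q l d i o j) (l * P.b + j * d) ≤ 2 ^ i := by
  unfold q
  split_ifs with h
  · simp
  · have h1 : o / (2 * P.Gm) ^ j % (2 * 2 ^ i) < 2 * 2 ^ i := Nat.mod_lt _ (by positivity)
    unfold Nat.dist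
    omega

theorem q_zero (P : Par) (l d i o : ℕ) : P.q l d i o 0 = l * P.b := by
  simp [q]

theorem q_last (P : Par) (l d i o : ℕ) : P.q l d i o P.b = (l + d) * P.b := by
  simp only [q, or_true, if_true]
  ring

/-- Every sequence of break points close to the line is an option. -/
theorem exists_option (P : Par) (l d i : ℕ) (hi : i ≤ P.imax) (t : ℕ → ℕ)
    (ht : ∀ j, 0 < j → j < P.b → Nat.dist (t j) (l * P.b + j * d) < 2 ^ i) :
    ∃ o < P.Om, ∀ j, 0 < j → j < P.b → P.q l d i o j = t j := by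
  have hG : 2 ^ i ∣ P.Gm := pow_dvd_pow 2 hi
  have hG' : 2 ^ i ≤ P.Gm := Nat.pow_le_pow_right (by norm_num) hi
  have h2 : 0 < 2 ^ i := by positivity
  have hd : ∀ j, (if 0 < j ∧ j < P.b then t j + 2 ^ i - (l * P.b + j * d) else 0) < 2 * 2 ^ i := by
    intro j
    split_ifs with h
    · have := ht j h.1 h.2
      unfold Nat.dist at this
      omega
    · omega
  obtain ⟨o, ho, h⟩ := step_digits (M := 2 * P.Gm) P.b _ fun j => (hd j).trans_le (by omega)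
  refine ⟨o, ho, fun j h0 hj => ?_⟩
  unfold q
  rw [if_neg (by omega), ← Nat.mod_mod_of_dvd _ (Nat.mul_dvd_mul_left 2 hG), h j hj,
    Nat.mod_eq_of_lt (hd j), if_pos ⟨h0, hj⟩]
  have := ht j h0 hj
  unfold Nat.dist at this
  omega

theorem clo_le_RV (P : Par) (a : ℕ) (T : Tab) (p p' : ℕ) : P.clo a T p p' ≤ P.RV := by
  exact (fold_min_le _).2 (Or.inl le_rfl)

theorem clo_lip (P : Par) (a : ℕ) (T : Tab) : Lip (P.clo a T) := by
  intro p p' q q'
  rcases (fold_min_le _).1 (le_refl (P.clo a T q q')) with h | ⟨x, hx, h⟩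
  · exact (P.clo_le_RV a T p p').trans (h.trans (Nat.le_add_right _ _))
  · refine (fold_min_le _).2 (Or.inr ⟨x, hx, ?_⟩)
    have h1 := Nat.dist.triangle_inequality p q x.1
    have h2 := Nat.dist.triangle_inequality p' q' (x.1 + x.2)
    omega

theorem clo_far (P : Par) (a : ℕ) (T : Tab) {p p' : ℕ}
    (h : (a + 1) * P.B0 + P.RV ≤ p ∨ (a + 1) * P.B0 + P.RV ≤ p') : P.clo a T p p' = P.RV := by
  refine le_antisymm (P.clo_le_RV a T p p') ((le_fold_min _).2 ⟨le_rfl, fun x hx => ?_⟩)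
  obtain ⟨h1, h2⟩ := (P.step_mem a x).1 hx
  rw [add_mul, one_mul] at h
  unfold Nat.dist
  omega

theorem clo_cast (P : Par) (a : ℕ) (T : Tab) (p p' : ℕ) :
    (P.clo a T p p' : ℝ) = P.cloR a (fun l d => (T l d : ℝ)) p p' := by
  unfold clo cloR
  rw [step_fold_cast]
  simp only [Nat.cast_add (2 * _)]

theorem cloR_le_RV (P : Par) (a : ℕ) (T : TabR) (p p' : ℕ) : P.cloR a T p p' ≤ P.RV := by
  exact (fold_min_le _).2 (Or.inl le_rfl)

theorem cloR_nonneg (P : Par) (a : ℕ) {T : TabR} (hT : ∀ l d, 0 ≤ T l d) (p p' : ℕ) :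
    0 ≤ P.cloR a T p p' := by
  exact (le_fold_min _).2 ⟨Nat.cast_nonneg _, fun x _ => add_nonneg (Nat.cast_nonneg _) (hT _ _)⟩

theorem cloR_far (P : Par) (a : ℕ) {T : TabR} (hT : ∀ l d, 0 ≤ T l d) {p p' : ℕ}
    (h : (a + 1) * P.B0 + P.RV ≤ p ∨ (a + 1) * P.B0 + P.RV ≤ p') : P.cloR a T p p' = P.RV := by
  refine le_antisymm (P.cloR_le_RV a T p p') ((le_fold_min _).2 ⟨le_rfl, fun x hx => ?_⟩)
  obtain ⟨h1, h2⟩ := (P.step_mem a x).1 hx
  refine le_add_of_le_of_nonneg (Nat.cast_le.2 ?_) (hT _ _)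
  rw [add_mul, one_mul] at h
  unfold Nat.dist
  omega

theorem cloR_le (P : Par) (a : ℕ) (T : TabR) (p p' : ℕ) {l d : ℕ} (hl : l ≤ a * P.B0)
    (hd : d ≤ P.B0) :
    P.cloR a T p p' ≤ ((2 * (Nat.dist p l + Nat.dist p' (l + d)) : ℕ) : ℝ) + T l d := by
  exact (fold_min_le _).2 (Or.inr ⟨(l, d), (P.step_mem a _).2 ⟨hl, hd⟩, le_rfl⟩)

theorem le_cloR (P : Par) (a : ℕ) (T : TabR) (p p' : ℕ) {c : ℝ} (hc : c ≤ P.RV)
    (h : ∀ l ≤ a * P.B0, ∀ d ≤ P.B0,
      c ≤ ((2 * (Nat.dist p l + Nat.dist p' (l + d)) : ℕ) : ℝ) + T l d) : c ≤ P.cloR a T p p' := by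
  exact (le_fold_min _).2 ⟨hc, fun x hx =>
    h _ ((P.step_mem a x).1 hx).1 _ ((P.step_mem a x).1 hx).2⟩

/-- Only lines near `p` matter. -/
theorem cloR_local (P : Par) (a : ℕ) {T T' : TabR} (hT : ∀ l d, 0 ≤ T l d)
    (hT' : ∀ l d, 0 ≤ T' l d) (p p' : ℕ) {c : ℝ} (hc : 0 ≤ c)
    (h : ∀ l ≤ a * P.B0, ∀ d ≤ P.B0, Nat.dist p l ≤ P.RV → |T l d - T' l d| ≤ c) :
    |P.cloR a T p p' - P.cloR a T' p p'| ≤ c := by
  refine step_fold_abs _ _ hc fun x hx => ?_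
  obtain ⟨h1, h2⟩ := (P.step_mem a x).1 hx
  rcases le_total (Nat.dist p x.1) P.RV with h3 | h3
  · left
    rw [add_sub_add_left_eq_sub]
    exact h _ h1 _ h2 h3
  · right
    have h4 : (P.RV : ℝ) ≤ ((2 * (Nat.dist p x.1 + Nat.dist p' (x.1 + x.2)) : ℕ) : ℝ) :=
      Nat.cast_le.2 (by omega)
    exact ⟨le_add_of_le_of_nonneg h4 (hT _ _), le_add_of_le_of_nonneg h4 (hT' _ _)⟩

theorem TN_le (P : Par) (C Y : ℕ → Tab) (off l d : ℕ) : P.TN C Y off l d ≤ P.B0 := by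
  exact (fold_min_le _).2 (Or.inl le_rfl)

theorem TR_nonneg (P : Par) (C : ℕ → Tab) (Q : ℕ → ℕ → ℕ → ℕ → ℝ) (l d : ℕ) :
    0 ≤ P.TR C Q l d := by
  exact (le_fold_min _).2 ⟨Nat.cast_nonneg _, fun _ _ => le_max_left _ _⟩

theorem TR_le (P : Par) (C : ℕ → Tab) (Q : ℕ → ℕ → ℕ → ℕ → ℝ) (l d : ℕ) {i : ℕ}
    (hi : i ≤ P.imax) : P.TR C Q l d ≤ max 0 (P.Psi C Q l d i / P.b) := by
  exact (fold_min_le _).2 (Or.inr ⟨i, mem_range.2 (Nat.lt_succ_of_le hi), le_rfl⟩)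

theorem le_TR (P : Par) (C : ℕ → Tab) (Q : ℕ → ℕ → ℕ → ℕ → ℝ) (l d : ℕ) {c : ℝ}
    (hc : c ≤ P.B0) (h : ∀ i ≤ P.imax, c * P.b ≤ P.Psi C Q l d i) : c ≤ P.TR C Q l d := by
  refine (le_fold_min _).2 ⟨hc, fun i hi => le_trans ?_ (le_max_right _ _)⟩
  rw [le_div_iff₀ (by exact_mod_cast P.step_b_pos)]
  exact h i (Nat.lt_succ_iff.1 (mem_range.1 hi))

theorem TR_lip (P : Par) (C : ℕ → Tab) (Q Q' : ℕ → ℕ → ℕ → ℕ → ℝ) (l d : ℕ) {c : ℝ}
    (hc : 0 ≤ c) (h : ∀ i ≤ P.imax, |P.Psi C Q l d i - P.Psi C Q' l d i| ≤ P.b * c) :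
    |P.TR C Q l d - P.TR C Q' l d| ≤ c := by
  refine step_fold_abs _ _ hc fun i hi => Or.inl ((abs_max_sub_max_le_max _ _ _ _).trans ?_)
  have hb : (0 : ℝ) < P.b := by exact_mod_cast P.step_b_pos
  refine max_le (by simpa using hc) ?_
  rw [← sub_div, abs_div, abs_of_pos hb, div_le_iff₀' hb]
  exact h i (Nat.lt_succ_iff.1 (mem_range.1 hi))

theorem Psi_lip (hP : P.Good) (C : ℕ → Tab) (Q Q' : ℕ → ℕ → ℕ → ℕ → ℝ) (l d i : ℕ) {c : ℝ}
    (h : ∀ o < P.Om, |Q l d i o - Q' l d i o| ≤ c) :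
    |P.Psi C Q l d i - P.Psi C Q' l d i| ≤ c := by
  have hτ := (tau_bounds hP i).1
  have h1 := sm_mono_add hτ P.Om_pos (c := -c) (X := fun o => (P.val C l d i o : ℝ) + Q l d i o)
    (Y := fun o => (P.val C l d i o : ℝ) + Q' l d i o) fun o ho => by
      linarith [(abs_le.1 (h o ho)).2]
  have h2 := sm_mono_add hτ P.Om_pos (c := -c) (X := fun o => (P.val C l d i o : ℝ) + Q' l d i o)
    (Y := fun o => (P.val C l d i o : ℝ) + Q l d i o) fun o ho => by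
      linarith [(abs_le.1 (h o ho)).1]
  unfold Psi Fr
  rw [abs_le]; constructor <;> linarith

theorem le_Psi (hP : P.Good) (C : ℕ → Tab) (Q : ℕ → ℕ → ℕ → ℕ → ℝ) (l d i : ℕ) {c : ℝ}
    (h : ∀ o < P.Om, c ≤ Q l d i o) : c ≤ P.Psi C Q l d i := by
  have h1 := sm_mono_add (tau_bounds hP i).1 P.Om_pos (c := c)
    (X := fun o => (P.val C l d i o : ℝ))
    (Y := fun o => (P.val C l d i o : ℝ) + Q l d i o) fun o ho => by linarith [h o ho]
  unfold Psi Fr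
  linarith

/-- Rounding error of the integer step. -/
theorem TN_err (hP : P.Good) (C Y : ℕ → Tab) (off : ℕ) (Q : ℕ → ℕ → ℕ → ℕ → ℝ) (l d : ℕ)
    (h : ∀ i ≤ P.imax, ∀ o < P.Om, P.val Y l d i o ≤ P.Xmax ∧ P.val C l d i o ≤ P.Xmax ∧
      (P.val Y l d i o : ℝ) = P.val C l d i o + Q l d i o + off) :
    |(P.TN C Y off l d : ℝ) - P.TR C Q l d| ≤ 2 := by
  unfold TN TR
  rw [step_fold_cast]
  refine step_fold_abs _ _ (by norm_num) fun i hi => Or.inl (step_round (b_ge hP) ?_)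
  have hi' := Nat.lt_succ_iff.1 (mem_range.1 hi)
  have hτ := (tau_bounds hP i).1
  obtain ⟨h1, h2⟩ := abs_le.1 (Fhat_err hP hi' fun o ho => (h i hi' o ho).1)
  obtain ⟨h3, h4⟩ := abs_le.1 (Fhat_err hP hi' fun o ho => (h i hi' o ho).2.1)
  have h5 := sm_mono_add hτ P.Om_pos (c := off) (X := fun o => (P.val C l d i o : ℝ) + Q l d i o)
    (Y := fun o => (P.val Y l d i o : ℝ)) fun o ho => (h i hi' o ho).2.2.ge
  have h6 := sm_mono_add hτ P.Om_pos (c := -off) (X := fun o => (P.val Y l d i o : ℝ))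
    (Y := fun o => (P.val C l d i o : ℝ) + Q l d i o) fun o ho => by
      linarith [(h i hi' o ho).2.2]
  unfold Psi
  unfold Fr at *
  rw [abs_le]; constructor <;> linarith

theorem stepR_lip (hP : P.Good) (a : ℕ) (C : ℕ → Tab) (V V' : ℕ → TabR) {c : ℝ}
    (h : ∀ j < P.b, ∀ p p', |V j p p' - V' j p p'| ≤ c) (p p' : ℕ) :
    |P.stepR a C V p p' - P.stepR a C V' p p'| ≤ c := by
  have hc : 0 ≤ c := (abs_nonneg _).trans (h 0 P.step_b_pos 0 0)
  refine P.cloR_local a (P.TR_nonneg _ _) (P.TR_nonneg _ _) p p' hc fun l _ d _ _ =>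
    P.TR_lip _ _ _ l d hc fun i _ => Psi_lip hP _ _ _ l d i fun o _ => ?_
  unfold valR
  rw [← sum_sub_distrib]
  refine (abs_sum_le_sum_abs _ _).trans
    ((sum_le_card_nsmul _ _ c fun j hj => h j (mem_range.1 hj) _ _).trans ?_)
  simp

/-- The deterministic pass at the bottom of a window. -/
theorem pass0_err (hP : P.Good) (A : ℕ → ℕ → ℕ → Tab) (hA : ∀ k a j p p', A k a j p p' ≤ P.RV)
    {k : ℕ} (hk : k < P.K) (a p p' : ℕ) :
    |(P.pass0 A k a p p' : ℝ) - P.stepR a (P.cumT A k a)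
      (fun jj p p' => (A k (a * P.b + jj) P.k0 p p' : ℝ)) p p'| ≤ 2 := by
  have hC : ∀ jj p p', P.cumT A k a jj p p' ≤ k * P.RV := fun jj p p' =>
    (sum_le_card_nsmul _ _ P.RV fun _ _ => hA _ _ _ _ _).trans (by simp)
  have hv : ∀ (t : ℕ → Tab), (∀ jj p p', t jj p p' ≤ (P.K + 3) * P.RV) → ∀ l d i o,
      P.val t l d i o ≤ P.Xmax := fun t ht l d i o =>
    (sum_le_card_nsmul _ _ _ fun _ _ => ht _ _ _).trans (by simp [Xmax, mul_assoc])
  have hK : k * P.RV + P.RV ≤ (P.K + 3) * P.RV := by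
    rw [← add_one_mul]; exact Nat.mul_le_mul_right _ (by omega)
  unfold pass0 stepN stepR
  rw [clo_cast]
  refine P.cloR_local a (fun _ _ => Nat.cast_nonneg _) (P.TR_nonneg _ _) p p' (by norm_num)
    fun l _ d _ _ => TN_err hP _ _ _ _ l d fun i _ o _ => ⟨hv _ (fun jj p p' => ?_) _ _ _ _,
      hv _ (fun jj p p' => ?_) _ _ _ _, ?_⟩
  · exact (add_le_add (hC _ _ _) (hA _ _ _ _ _)).trans hK
  · exact (hC _ _ _).trans ((Nat.le_add_right _ _).trans hK)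
  · simp [val, valR, sum_add_distrib]

end Par

end Vale.Agent.P315
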