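import Vale.Agent.P315.Level

namespace Vale.Agent.P315

open Finset

namespace Par

variable {P : Par}

theorem window_passS_clo (P : Par) (A : ℕ → ℕ → ℕ → ℕ → Tab) (k j hb m a : ℕ)
    (s : P.Idx m → Bool) : ∃ T, P.passS A k j hb m a s = P.clo a T := by
  cases m with
  | zero => exact ⟨_, rfl⟩
  | succ m => exact ⟨_, rfl⟩

theorem passS_le (P : Par) (A : ℕ → ℕ → ℕ → ℕ → Tab) (k j hb m a : ℕ) (s : P.Idx m → Bool)
    (p p' : ℕ) : P.passS A k j hb m a s p p' ≤ P.RV := by
  obtain ⟨T, hT⟩ := P.window_passS_clo A k j hb m a s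
  rw [hT]
  exact P.clo_le_RV a T p p'

theorem passS_lip (P : Par) (A : ℕ → ℕ → ℕ → ℕ → Tab) (k j hb m a : ℕ) (s : P.Idx m → Bool) :
    Lip (P.passS A k j hb m a s) := by
  obtain ⟨T, hT⟩ := P.window_passS_clo A k j hb m a s
  rw [hT]
  exact P.clo_lip a T

theorem window_alpha_nonneg (P : Par) (j : ℕ) : 0 ≤ P.alpha j := by
  unfold alpha
  positivity

theorem window_b_pos (P : Par) : 0 < P.b := by
  unfold b
  positivity

theorem window_child (P : Par) {h a jj : ℕ} (hD : h + 1 ≤ P.D) (ha : a < P.b ^ (P.D - (h + 1)))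
    (hjj : jj < P.b) : a * P.b + jj < P.b ^ (P.D - h) := by
  rw [show P.D - h = P.D - (h + 1) + 1 by omega, pow_succ]
  calc a * P.b + jj < (a + 1) * P.b := by rw [add_mul, one_mul]; omega
    _ ≤ _ := Nat.mul_le_mul_right _ ha

theorem window_bias {σ : Type} [Fintype σ] [Nonempty σ] (X : σ → ℝ) (v : ℝ) :
    |av X - v| ≤ av fun s => |X s - v| := by
  have h : av X - v = av fun s => X s - v := by
    simp only [sub_eq_add_neg]
    rw [av_add, av_const]
  rw [h]
  exact abs_av_le _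

/-- Splitting of a seed into the seeds of the samples. -/
def windowEquiv (P : Par) (m : ℕ) :
    (P.Idx (m + 1) → Bool) ≃ (Fin P.N → (Fin P.lb → Bool) × (P.Idx m → Bool)) where
  toFun s := fun i => (fun t => s (i, Sum.inl t), fun u => s (i, Sum.inr u))
  invFun u := fun x : Fin P.N × (Fin P.lb ⊕ P.Idx m) => Sum.elim (u x.1).1 (u x.1).2 x.2
  left_inv s := by
    funext x
    obtain ⟨i, t | u⟩ := x <;> rfl
  right_inv u := rfl

/-- Pathwise and mean error of a pass inside a window. -/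
theorem window (hP : P.Good) (A : ℕ → ℕ → ℕ → ℕ → Tab)
    (hA : ∀ h k a j p p', A h k a j p p' ≤ P.RV) (hAl : ∀ h k a j, Lip (A h k a j))
    {k j hb : ℕ} (hk : k < P.K) (hj1 : 1 ≤ j) (hj : j ≤ P.k0) (hhb : hb % P.ell = 0)
    (m : ℕ) (hm : m < P.ell) (hD : hb + m + 1 ≤ P.D) (hG : ∀ h ≤ hb + m, P.GoodAt A h)
    {a : ℕ} (ha : a < P.b ^ (P.D - (hb + m + 1))) (p p' : ℕ) :
    (∀ s, |(P.passS A k j hb m a s p p' : ℝ) - P.refV A k (hb + m + 1) a p p'| ≤
      2 * (m + 1) + 2 * m * P.alpha (j - 1)) ∧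
    av (fun s => |(P.passS A k j hb m a s p p' : ℝ) - P.refV A k (hb + m + 1) a p p'|) ≤
      2 * (m + 1) + m * ((P.alpha (j - 1) + 2) / (4 * P.ell)) := by
  induction m generalizing a p p' with
  | zero =>
    have h1 : ∀ s, |(P.passS A k j hb 0 a s p p' : ℝ) - P.refV A k (hb + 0 + 1) a p p'| ≤ 2 := by
      intro s
      have := pass0_err hP (A hb) (hA hb) hk a p p'
      simpa only [passS, refV, Nat.add_zero, hhb, if_true] using this
    refine ⟨fun s => by simpa using h1 s, ?_⟩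
    simpa using (av_mono h1).trans_eq (av_const 2)
  | succ m ih =>
    have hα0 := P.window_alpha_nonneg (j - 1)
    have hmod : (hb + m + 1) % P.ell ≠ 0 := by
      rw [add_assoc, Nat.add_mod, hhb, zero_add, Nat.mod_mod, Nat.mod_eq_of_lt hm]
      omega
    have ih' := fun jj (hjj : jj < P.b) => ih (by omega) (by omega) (fun h hh => hG h (by omega))
      (P.window_child (h := hb + m + 1) (by omega) ha hjj)
    have hl := level hP (σ := P.Idx m → Bool) a (P.cumT (A (hb + m + 1)) k a)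
      (fun jj => A (hb + m + 1) k (a * P.b + jj) (j - 1))
      (fun jj s => P.passS A k j hb m (a * P.b + jj) s)
      (fun jj => P.refV A k (hb + m + 1) (a * P.b + jj)) (α := P.alpha (j - 1))
      (c := 2 * (m + 1) + 2 * m * P.alpha (j - 1))
      (β := 2 * (m + 1) + m * ((P.alpha (j - 1) + 2) / (4 * P.ell))) (by positivity)
      (fun jj q q' => (Finset.sum_le_card_nsmul _ _ P.RV fun k' _ => hA _ _ _ _ _ _).trans (by
        rw [card_range, smul_eq_mul]; exact Nat.mul_le_mul_right _ hk.le))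
      (fun jj q q' => hA _ _ _ _ _ _) (fun jj s q q' => P.passS_le _ _ _ _ _ _ _ _ _)
      (fun jj => hAl _ _ _ _) (fun jj s => P.passS_lip _ _ _ _ _ _ _)
      (fun jj hjj q q' => hG (hb + m + 1) le_rfl k hk _
        (P.window_child (h := hb + m + 1) (by omega) ha hjj) (j - 1) (by omega) q q')
      (fun jj hjj s q q' => (ih' jj hjj q q').1 s)
      (fun jj hjj q q' => (window_bias _ _).trans (ih' jj hjj q q').2) p p'
    have hr : P.refV A k (hb + (m + 1) + 1) a = P.stepR a (P.cumT (A (hb + m + 1)) k a)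
        fun jj => P.refV A k (hb + m + 1) (a * P.b + jj) := by
      change P.refV A k (hb + m + 1 + 1) a = _
      rw [refV]
      simp only [hmod, if_false]
    rw [hr]
    refine ⟨fun s => (hl.1 (P.windowEquiv m s)).trans (le_of_eq (by push_cast; ring)), ?_⟩
    refine ((av_equiv (P.windowEquiv m) _).trans_le hl.2).trans ?_
    have he : (m : ℝ) + 2 ≤ P.ell := by exact_mod_cast hm
    have hm0 : (0 : ℝ) ≤ m := m.cast_nonneg
    have h2 : (2 * (m + 1) + 2 * m * P.alpha (j - 1) + P.alpha (j - 1)) / (8 * (P.ell : ℝ) ^ 2) ≤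
        (P.alpha (j - 1) + 2) / (4 * P.ell) := by
      have he0 : (0 : ℝ) < P.ell := by linarith
      rw [div_le_div_iff₀ (by positivity) (by positivity)]
      have : 2 * (m + 1) + 2 * m * P.alpha (j - 1) + P.alpha (j - 1) ≤
          (P.alpha (j - 1) + 2) * (2 * P.ell) := by nlinarith
      nlinarith
    push_cast
    linarith

theorem window_refV_succ (P : Par) (A : ℕ → ℕ → ℕ → ℕ → Tab) (k h a : ℕ) :
    ∃ T : TabR, (∀ l d, 0 ≤ T l d) ∧ P.refV A k (h + 1) a = P.cloR a T :=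
  ⟨_, fun l d => P.TR_nonneg _ _ l d, rfl⟩

/-- The average of `S` independent passes is accurate with high probability. -/
theorem window_tail (hP : P.Good) (A : ℕ → ℕ → ℕ → ℕ → Tab)
    (hA : ∀ h k a j p p', A h k a j p p' ≤ P.RV) (hAl : ∀ h k a j, Lip (A h k a j))
    {k j hb : ℕ} (hk : k < P.K) (hj1 : 1 ≤ j) (hj : j ≤ P.k0) (hhb : hb % P.ell = 0)
    (m : ℕ) (hm : m < P.ell) (hD : hb + m + 1 ≤ P.D) (hG : ∀ h ≤ hb + m, P.GoodAt A h)
    {a : ℕ} (ha : a < P.b ^ (P.D - (hb + m + 1))) :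
    pr (fun s : Fin P.S × P.Idx m → Bool => ∃ p p', P.alpha j <
      |(((∑ t : Fin P.S, P.passS A k j hb m a (fun u => s (t, u)) p p') / P.S : ℕ) : ℝ)
        - P.refV A k (hb + m + 1) a p p'|) ≤
      ((P.W + P.RV) ^ 2 : ℕ) * (2 * Real.exp (-(P.S : ℝ) / (4 * (P.RV : ℝ) ^ 2))) := by
  have hS := hP.S_pos
  have hS' : (0 : ℝ) < P.S := by exact_mod_cast hS
  have hRV : (1 : ℝ) ≤ P.RV := by
    have : 1 ≤ P.RV := by
      have : 0 < 2 ^ P.imax := by positivity
      unfold RV Gm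
      omega
    exact_mod_cast this
  have haW : (a + 1) * P.B0 ≤ P.W := Nat.mul_le_mul_right _
    (le_trans ha (Nat.pow_le_pow_right P.window_b_pos (Nat.sub_le _ _)))
  set X : ℕ × ℕ → (P.Idx m → Bool) → ℝ := fun w u => P.passS A k j hb m a u w.1 w.2 with hX
  have hu := pr_union (range (P.W + P.RV) ×ˢ range (P.W + P.RV))
    (fun w (s : Fin P.S × P.Idx m → Bool) =>
      1 < |(∑ t, X w (Equiv.curry _ _ _ s t)) / P.S - av (X w)|)
    fun w _ => (pr_equiv (Equiv.curry (Fin P.S) (P.Idx m) Bool)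
      (fun u => 1 < |(∑ t, X w (u t)) / P.S - av (X w)|)).trans_le
      (hoeffding (X w) hRV (fun u => ⟨Nat.cast_nonneg _, by
        simp only [hX]; exact_mod_cast P.passS_le _ _ _ _ _ _ _ _ _⟩) hS)
  rw [card_product, card_range, ← sq] at hu
  refine (pr_mono ?_).trans hu
  rintro s ⟨p, p', hs⟩
  by_cases hfar : (a + 1) * P.B0 + P.RV ≤ p ∨ (a + 1) * P.B0 + P.RV ≤ p'
  · exfalso
    obtain ⟨T, hT0, hT⟩ := P.window_refV_succ A k (hb + m) a
    have h1 : ∀ u, P.passS A k j hb m a u p p' = P.RV := fun u => by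
      obtain ⟨T, hT⟩ := P.window_passS_clo A k j hb m a u
      rw [hT, P.clo_far a T hfar]
    simp only [h1, sum_const, card_univ, Fintype.card_fin, smul_eq_mul] at hs
    rw [Nat.mul_div_cancel_left _ hS, hT, P.cloR_far a hT0 hfar, sub_self, abs_zero] at hs
    exact absurd hs (not_lt.2 (P.window_alpha_nonneg j))
  refine ⟨(p, p'), by simp only [mem_product, mem_range]; omega, ?_⟩
  by_contra hn
  have h1 := (window_bias _ _).trans (window hP A hA hAl hk hj1 hj hhb m hm hD hG ha p p').2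
  set n := ∑ t : Fin P.S, P.passS A k j hb m a (fun u => s (t, u)) p p' with hn'
  have h2 : (∑ t, X (p, p') (Equiv.curry _ _ _ s t)) = (n : ℝ) := by
    rw [hn', Nat.cast_sum]; rfl
  rw [h2, not_lt] at hn
  have h3 : ((n / P.S : ℕ) : ℝ) ≤ (n : ℝ) / P.S := Nat.cast_div_le
  have h4 : (n : ℝ) / P.S ≤ ((n / P.S : ℕ) : ℝ) + 1 := by
    rw [div_le_iff₀ hS']
    have := Nat.lt_div_mul_add (a := n) hS
    rw [add_mul, one_mul]
    exact_mod_cast this.le
  have he : (m : ℝ) + 1 ≤ P.ell := by exact_mod_cast hm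
  have hm0 : (0 : ℝ) ≤ m := m.cast_nonneg
  have he0 : (0 : ℝ) < P.ell := by linarith
  have hα0 := P.window_alpha_nonneg (j - 1)
  have h5 : m * ((P.alpha (j - 1) + 2) / (4 * P.ell)) ≤ (P.alpha (j - 1) + 2) / 4 := by
    rw [← mul_div_assoc, div_le_div_iff₀ (by positivity) (by positivity)]
    nlinarith
  have h6 : (P.RV : ℝ) / 2 ^ (j - 1) = 2 * (P.RV / 2 ^ j) := by
    obtain ⟨j, rfl⟩ := Nat.exists_eq_add_of_le' hj1
    rw [Nat.add_sub_cancel, pow_succ]
    field_simp
  have h7 : (0 : ℝ) ≤ P.RV / 2 ^ j := by positivity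
  change |av (X (p, p')) - _| ≤ _ at h1
  unfold alpha at hs h5 h1
  rw [h6] at h5 h1
  rw [abs_le] at hn h1
  rw [lt_abs] at hs
  rcases hs with hs | hs <;> linarith [hn.1, hn.2, h1.1, h1.2]

/-- The good event gives the hypothesis of the deterministic analysis. -/
theorem star_of_good (hP : P.Good) (f g : ℕ → ℕ) (ρ : ℕ → Bool)
    (hG : ∀ h ≤ P.D, P.GoodAt (P.A f g ρ) h) : P.Star f g (P.A f g ρ) := by
  refine ⟨fun k a => rfl, fun h hh k hk a ha p p' => ?_⟩
  have h1 := hG (h + 1) hh k hk a ha P.k0 le_rfl p p'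
  have h2 : |P.refV (P.A f g ρ) k (h + 1) a p p' - P.stepR a (P.cumT (P.A f g ρ h) k a)
      (fun jj p p' => (P.A f g ρ h k (a * P.b + jj) P.k0 p p' : ℝ)) p p'| ≤ P.alpha P.k0 := by
    rw [refV]
    refine stepR_lip hP a _ _ _ (fun jj hjj q q' => ?_) p p'
    split_ifs
    · simpa using P.window_alpha_nonneg _
    · rw [abs_sub_comm]
      exact hG h hh.le k hk _ (P.window_child hh ha hjj) P.k0 le_rfl q q'
  have h3 : (P.RV : ℝ) / 2 ^ P.k0 ≤ 1 := by
    rw [div_le_one (by positivity)]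
    exact_mod_cast hP.RV_le
  have h4 := abs_sub_le (P.A f g ρ (h + 1) k a P.k0 p p' : ℝ) (P.refV (P.A f g ρ) k (h + 1) a p p')
    (P.stepR a (P.cumT (P.A f g ρ h) k a)
      (fun jj p p' => (P.A f g ρ h k (a * P.b + jj) P.k0 p p' : ℝ)) p p')
  unfold alpha at h1 h2
  unfold eta
  push_cast
  linarith

end Par

end Vale.Agent.P315
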